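import Vale.Agent.P184.Pf

/-! Admissible antisymmetric matrices and their Pfaffians. -/

namespace Vale.Agent.P184

open Module Finset

variable {n : ℕ}

/-- Bilinear form of a matrix. -/
noncomputable def bf (Ω : Fin n → Fin n → ℝ) : (Fin n → ℝ) →ₗ[ℝ] (Fin n → ℝ) →ₗ[ℝ] ℝ :=
  Matrix.toLinearMap₂' ℝ (Matrix.of Ω)

lemma bf_apply (Ω : Fin n → Fin n → ℝ) (x y : Fin n → ℝ) :
    bf Ω x y = ∑ i, ∑ j, x i * Ω i j * y j := by
  unfold bf
  rw [Matrix.toLinearMap₂'_apply]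
  refine sum_congr rfl fun i _ => sum_congr rfl fun j _ => ?_
  simp; ring

lemma bf_single (Ω : Fin n → Fin n → ℝ) (i j : Fin n) :
    bf Ω (Pi.single i 1) (Pi.single j 1) = Ω i j := by
  simp [bf_apply, Pi.single_apply]

lemma bf_anti {Ω : Fin n → Fin n → ℝ} (h : ∀ i j, Ω i j = - Ω j i) (x y : Fin n → ℝ) :
    bf Ω x y = - bf Ω y x := by
  rw [bf_apply, bf_apply, sum_comm, ← sum_neg_distrib]
  refine sum_congr rfl fun i _ => ?_
  rw [← sum_neg_distrib]
  refine sum_congr rfl fun j _ => ?_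
  rw [h]; ring

/-- Linear combination of the columns. -/
def lc (c : Fin n → ℝ) (x : Fin n → ℝ) : ℝ := ∑ i, x i * c i

lemma lc_single (c : Fin n → ℝ) (i : Fin n) : lc c (Pi.single i 1) = c i := by
  simp [lc, Pi.single_apply]

lemma lc_sum {k : ℕ} (c : Fin n → ℝ) (a : Fin k → ℝ) (x : Fin k → Fin n → ℝ) :
    lc c (∑ i, a i • x i) = ∑ i, a i * lc c (x i) := by
  simp only [lc, Finset.sum_apply, Pi.smul_apply, smul_eq_mul, sum_mul, mul_sum]
  rw [sum_comm]
  exact sum_congr rfl fun _ _ => sum_congr rfl fun _ _ => by ring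

section
variable {V : Type*} [AddCommGroup V] [Module ℝ V]

lemma IsQ.add {N N' : V → ℝ} (h : IsQ N) (h' : IsQ N') : IsQ fun x => N x + N' x := by
  obtain ⟨B, h1, h2, h3⟩ := h
  obtain ⟨B', h1', h2', h3'⟩ := h'
  exact ⟨B + B', fun x y => by simp [h1 x y, h1' x y], fun x => by simp [h2, h2'],
    fun x => add_nonneg (h3 x) (h3' x)⟩

lemma IsQ.mul {N : V → ℝ} (h : IsQ N) {c : ℝ} (hc : 0 ≤ c) : IsQ fun x => c * N x := by
  obtain ⟨B, h1, h2, h3⟩ := h
  exact ⟨c • B, fun x y => by simp [h1 x y], fun x => by simp [h2],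
    fun x => mul_nonneg hc (h3 x)⟩

lemma isQ_zero : IsQ fun _ : V => (0 : ℝ) := ⟨0, by simp, by simp, by simp⟩

lemma isQ_sum {ι : Type*} (s : Finset ι) {N : ι → V → ℝ} (h : ∀ i ∈ s, IsQ (N i)) :
    IsQ fun x => ∑ i ∈ s, N i x := by
  classical
  induction s using Finset.induction_on with
  | empty => simpa using isQ_zero
  | insert a s ha ih =>
    simp only [sum_insert ha]
    exact (h a (by simp)).add (ih fun i hi => h i (by simp [hi]))

lemma IsQ.nonneg {N : V → ℝ} (h : IsQ N) (x : V) : 0 ≤ N x := h.choose_spec.2.2 x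
end

lemma isQ_sq (c : Fin n → ℝ) : IsQ fun x => lc c x ^ 2 := by
  refine ⟨bf fun i j => c i * c j, fun x y => ?_, fun x => ?_, fun x => sq_nonneg _⟩
  · rw [bf_apply, bf_apply, sum_comm]
    exact sum_congr rfl fun _ _ => sum_congr rfl fun _ _ => by ring
  · beta_reduce
    rw [bf_apply, lc, sq, sum_mul_sum]
    exact sum_congr rfl fun _ _ => sum_congr rfl fun _ _ => by ring

lemma isQ_sos {ι : Type*} (s : Finset ι) (B : ι → Fin n → ℝ) :
    IsQ fun x => ∑ a ∈ s, lc (B a) x ^ 2 := isQ_sum s fun _ _ => isQ_sq _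

/-- Admissibility: a quadratic form with diagonal at most `d` dominates the matrix up to
a trace class remainder of size `h`. -/
def Adm (k : ℕ) (Ω : Fin n → Fin n → ℝ) (d : Fin n → ℝ) (h : ℝ) : Prop :=
  ∃ N : (Fin n → ℝ) → ℝ, IsQ N ∧ (∀ i, N (Pi.single i 1) ≤ d i) ∧
    ∀ x y : Fin k → Fin n → ℝ, SubON N x → SubON N y →
      ∑ i, |bf Ω (x i) (y i)| ≤ (∑ i, (N (x i) + N (y i))) / 2 + h

lemma Adm.mono {k : ℕ} {Ω : Fin n → Fin n → ℝ} {d d' : Fin n → ℝ} {h h' : ℝ}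
    (H : Adm k Ω d h) (hd : ∀ i, d i ≤ d' i) (hh : h ≤ h') : Adm k Ω d' h' := by
  obtain ⟨N, h1, h2, h3⟩ := H
  exact ⟨N, h1, fun i => (h2 i).trans (hd i), fun x y hx hy => (h3 x y hx hy).trans (by linarith)⟩

lemma Adm.add {k : ℕ} {Ω Ω' : Fin n → Fin n → ℝ} {d d' : Fin n → ℝ} {h h' : ℝ}
    (H : Adm k Ω d h) (H' : Adm k Ω' d' h') :
    Adm k (fun i j => Ω i j + Ω' i j) (fun i => d i + d' i) (h + h') := by
  obtain ⟨N, h1, h2, h3⟩ := H
  obtain ⟨N', h1', h2', h3'⟩ := H'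
  refine ⟨fun x => N x + N' x, h1.add h1', fun i => add_le_add (h2 i) (h2' i), fun x y hx hy => ?_⟩
  have a1 := h3 x y (fun c => le_trans (by linarith [h1'.nonneg (∑ i, c i • x i)]) (hx c))
    (fun c => le_trans (by linarith [h1'.nonneg (∑ i, c i • y i)]) (hy c))
  have a2 := h3' x y (fun c => le_trans (by linarith [h1.nonneg (∑ i, c i • x i)]) (hx c))
    (fun c => le_trans (by linarith [h1.nonneg (∑ i, c i • y i)]) (hy c))
  have a3 : ∑ i, |bf (fun i j => Ω i j + Ω' i j) (x i) (y i)|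
      ≤ ∑ i, (|bf Ω (x i) (y i)| + |bf Ω' (x i) (y i)|) := by
    refine sum_le_sum fun i _ => le_trans (le_of_eq ?_) (abs_add_le _ _)
    congr 1
    simp only [bf_apply, mul_add, add_mul, sum_add_distrib]
  simp only [sum_add_distrib] at *
  linarith

lemma adm_zero (k : ℕ) : Adm k (fun _ _ : Fin n => 0) (fun _ => 0) 0 :=
  ⟨fun _ => 0, isQ_zero, fun _ => le_rfl, fun x y _ _ => by simp [bf_apply]⟩

lemma adm_sum {ι : Type*} (s : Finset ι) {k : ℕ} {Ω : ι → Fin n → Fin n → ℝ}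
    {d : ι → Fin n → ℝ} {h : ι → ℝ} (H : ∀ a ∈ s, Adm k (Ω a) (d a) (h a)) :
    Adm k (fun i j => ∑ a ∈ s, Ω a i j) (fun i => ∑ a ∈ s, d a i) (∑ a ∈ s, h a) := by
  classical
  induction s using Finset.induction_on with
  | empty => simpa using adm_zero k
  | insert a s ha ih =>
    simp only [sum_insert ha]
    exact (H a (by simp)).add (ih fun i hi => H i (by simp [hi]))

lemma isQ_id : IsQ fun x : Fin n → ℝ => ∑ i, x i ^ 2 := by
  have := isQ_sos (n := n) univ fun a => Pi.single a 1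
  convert this using 4 with x a
  simp [lc, Pi.single_apply]

lemma adm_band (k : ℕ) {Ω : Fin n → Fin n → ℝ} {ρ : ℝ} (hρ : 0 ≤ ρ)
    (h1 : ∀ i, ∑ j, |Ω i j| ≤ ρ) (h2 : ∀ j, ∑ i, |Ω i j| ≤ ρ) : Adm k Ω (fun _ => ρ) 0 := by
  refine ⟨fun x => ρ * ∑ i, x i ^ 2, isQ_id.mul hρ, fun i => ?_, fun x y _ _ => ?_⟩
  · simp [Pi.single_apply]
  · rw [add_zero, sum_div]
    refine sum_le_sum fun a _ => ?_
    set u := x a; set v := y a
    rw [bf_apply]
    calc |∑ i, ∑ j, u i * Ω i j * v j| ≤ ∑ i, ∑ j, (u i ^ 2 * |Ω i j| / 2 + v j ^ 2 * |Ω i j| / 2) := by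
          refine (abs_sum_le_sum_abs _ _).trans (sum_le_sum fun i _ => ?_)
          refine (abs_sum_le_sum_abs _ _).trans (sum_le_sum fun j _ => ?_)
          rw [abs_mul, abs_mul, ← sq_abs (u i), ← sq_abs (v j)]
          nlinarith [mul_nonneg (abs_nonneg (Ω i j)) (sq_nonneg (|u i| - |v j|))]
      _ = (∑ i, u i ^ 2 * ∑ j, |Ω i j|) / 2 + (∑ j, v j ^ 2 * ∑ i, |Ω i j|) / 2 := by
          simp only [sum_add_distrib, mul_sum, sum_div]
          congr 1
          exact sum_comm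
      _ ≤ (∑ i, u i ^ 2 * ρ) / 2 + (∑ j, v j ^ 2 * ρ) / 2 := by
          gcongr with i _ j _
          · exact h1 i
          · exact h2 j
      _ = _ := by simp only [← sum_mul]; ring

lemma bf_pair {ι : Type*} (U : Finset ι) (B C : ι → Fin n → ℝ) (f : ℝ) (x y : Fin n → ℝ) :
    bf (fun i j => f / 2 * (∑ a ∈ U, B a i * C a j - ∑ a ∈ U, B a j * C a i)) x y
      = f / 2 * (∑ a ∈ U, lc (B a) x * lc (C a) y - ∑ a ∈ U, lc (B a) y * lc (C a) x) := by
  have e1 : ∑ a ∈ U, lc (B a) x * lc (C a) y = ∑ i, ∑ j, x i * (∑ a ∈ U, B a i * C a j) * y j := by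
    simp only [lc, sum_mul_sum]
    rw [sum_comm]
    refine sum_congr rfl fun i _ => ?_
    rw [sum_comm]
    refine sum_congr rfl fun j _ => ?_
    simp only [mul_sum, sum_mul]
    exact sum_congr rfl fun _ _ => by ring
  have e2 : ∑ a ∈ U, lc (B a) y * lc (C a) x = ∑ i, ∑ j, x i * (∑ a ∈ U, B a j * C a i) * y j := by
    simp only [lc, sum_mul_sum]
    rw [sum_comm, sum_comm (f := fun i j => x i * (∑ a ∈ U, B a j * C a i) * y j)]
    refine sum_congr rfl fun j _ => ?_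
    rw [sum_comm]
    refine sum_congr rfl fun i _ => ?_
    simp only [mul_sum, sum_mul]
    exact sum_congr rfl fun _ _ => by ring
  rw [bf_apply, e1, e2, ← sum_sub_distrib, mul_sum]
  refine sum_congr rfl fun i _ => ?_
  rw [← sum_sub_distrib, mul_sum]
  exact sum_congr rfl fun _ _ => by ring

lemma abs_pair_le {ι : Type*} (U : Finset ι) (p q : ι → ℝ) (f : ℝ) {l m : ℝ} (hl : 0 < l)
    (hm : f ^ 2 / 4 ≤ l * m) :
    |f / 2 * ∑ a ∈ U, p a * q a| ≤ (l * ∑ a ∈ U, p a ^ 2 + m * ∑ a ∈ U, q a ^ 2) / 2 := by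
  rw [mul_sum, mul_sum, mul_sum, ← sum_add_distrib, sum_div]
  refine (abs_sum_le_sum_abs _ _).trans (sum_le_sum fun a _ => ?_)
  have h1 : f ^ 2 / (4 * l) ≤ m := by rw [div_le_iff₀ (by positivity)]; linarith
  have h2 : f ^ 2 / (4 * l) * q a ^ 2 ≤ m * q a ^ 2 := by gcongr
  have h3 : ∀ s : ℝ, s ^ 2 = 1 → s * (f / 2 * (p a * q a))
      ≤ (l * p a ^ 2 + f ^ 2 / (4 * l) * q a ^ 2) / 2 := by
    intro s hs
    have h4 : 0 ≤ l * (p a - s * f / (2 * l) * q a) ^ 2 := by positivity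
    have h5 : l * (p a - s * f / (2 * l) * q a) ^ 2
        = l * p a ^ 2 - s * f * (p a * q a) + s ^ 2 * (f ^ 2 / (4 * l) * q a ^ 2) := by
      field_simp; ring
    rw [h5, hs] at h4; linarith
  rw [abs_le]
  have := h3 1 (by norm_num); have := h3 (-1) (by norm_num)
  constructor <;> linarith

lemma adm_op (k : ℕ) {ι : Type*} (U : Finset ι) (B C : ι → Fin n → ℝ) (f : ℝ) {b c θ : ℝ}
    (hb : 0 < b) (hc : 0 < c) (hθ : 0 < θ) (w : Fin n → ℝ)
    (hB : ∀ i, ∑ a ∈ U, B a i ^ 2 ≤ b * w i) (hC : ∀ i, ∑ a ∈ U, C a i ^ 2 ≤ c * w i)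
    (hf : f ^ 2 * b * c ≤ θ ^ 2) :
    Adm k (fun i j => f / 2 * (∑ a ∈ U, B a i * C a j - ∑ a ∈ U, B a j * C a i))
      (fun i => θ * w i) 0 := by
  refine ⟨fun x => θ / (2 * b) * ∑ a ∈ U, lc (B a) x ^ 2 + θ / (2 * c) * ∑ a ∈ U, lc (C a) x ^ 2,
    ((isQ_sos U B).mul (by positivity)).add ((isQ_sos U C).mul (by positivity)),
    fun i => ?_, fun x y _ _ => ?_⟩
  · simp only [lc_single]
    calc _ ≤ θ / (2 * b) * (b * w i) + θ / (2 * c) * (c * w i) := by
          gcongr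
          · exact hB i
          · exact hC i
      _ = _ := by field_simp; ring
  · rw [add_zero, sum_div]
    refine sum_le_sum fun i _ => ?_
    rw [bf_pair, mul_sub]
    have hm : f ^ 2 / 4 ≤ θ / (2 * b) * (θ / (2 * c)) := by
      rw [div_mul_div_comm, div_le_div_iff₀ (by positivity) (by positivity)]; nlinarith
    have a1 := abs_pair_le U (fun a => lc (B a) (x i)) (fun a => lc (C a) (y i)) f
      (by positivity) hm
    have a2 := abs_pair_le U (fun a => lc (B a) (y i)) (fun a => lc (C a) (x i)) f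
      (by positivity) hm
    refine (abs_sub _ _).trans ?_
    linarith

lemma bessel {k : ℕ} {N : (Fin n → ℝ) → ℝ} {x : Fin k → Fin n → ℝ} (hx : SubON N x)
    {L : Fin n → ℝ} {h : ℝ} (h0 : 0 ≤ h) (hL : ∀ v, lc L v ^ 2 ≤ h * N v) :
    ∑ i, lc L (x i) ^ 2 ≤ h := by
  have h1 := hL (∑ i, lc L (x i) • x i)
  have h2 := hx fun i => lc L (x i)
  rw [lc_sum] at h1
  simp only [← sq] at h1
  set σ := ∑ i, lc L (x i) ^ 2
  have h3 : 0 ≤ σ := sum_nonneg fun _ _ => sq_nonneg _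
  have h4 : σ ^ 2 ≤ h * σ := h1.trans (by gcongr)
  by_contra h5
  push Not at h5
  nlinarith

lemma adm_hs (k : ℕ) {ι ι' : Type*} (U : Finset ι) (U' : Finset ι') (B L : ι → Fin n → ℝ)
    (B' : ι' → Fin n → ℝ) (f : ℝ) {b b' θ : ℝ} (hb : 0 < b) (hb' : 0 < b') (hθ : 0 < θ)
    (w : Fin n → ℝ) (hs : ι → ℝ) (hs0 : ∀ a ∈ U, 0 ≤ hs a)
    (hB : ∀ i, ∑ a ∈ U, B a i ^ 2 ≤ b * w i) (hB' : ∀ i, ∑ a ∈ U', B' a i ^ 2 ≤ b' * w i)
    (hL : ∀ a ∈ U, ∀ v, lc (L a) v ^ 2 ≤ hs a * ∑ a' ∈ U', lc (B' a') v ^ 2)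
    (hf : f ^ 2 * b * b' * ∑ a ∈ U, hs a ≤ k * θ ^ 4) :
    Adm k (fun i j => f / 2 * (∑ a ∈ U, B a i * L a j - ∑ a ∈ U, B a j * L a i))
      (fun i => 2 * θ * w i) (k * θ ^ 2) := by
  set N : (Fin n → ℝ) → ℝ :=
    fun x => θ / b * ∑ a ∈ U, lc (B a) x ^ 2 + θ / b' * ∑ a ∈ U', lc (B' a) x ^ 2 with hN
  have q1 := isQ_sos U B
  have q2 := isQ_sos U' B'
  refine ⟨N, (q1.mul (by positivity)).add (q2.mul (by positivity)), fun i => ?_,
    fun x y hx hy => ?_⟩
  · simp only [hN, lc_single]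
    calc _ ≤ θ / b * (b * w i) + θ / b' * (b' * w i) := by
          gcongr
          · exact hB i
          · exact hB' i
      _ = _ := by field_simp; ring
  · set m := f ^ 2 * b / (4 * θ)
    have hm : f ^ 2 / 4 ≤ θ / b * m := by simp only [m]; field_simp; rfl
    have hm0 : 0 ≤ m := by positivity
    have key : ∀ z : Fin k → Fin n → ℝ, SubON N z →
        ∑ i, ∑ a ∈ U, lc (L a) (z i) ^ 2 ≤ b' / θ * ∑ a ∈ U, hs a := by
      intro z hz
      rw [sum_comm, mul_sum]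
      refine sum_le_sum fun a ha => bessel hz (by have := hs0 a ha; positivity) fun v => ?_
      refine (hL a ha v).trans ?_
      have := q1.nonneg v
      have h3 : b' / θ * hs a * N v = hs a * ∑ a' ∈ U', lc (B' a') v ^ 2
          + b' / θ * hs a * (θ / b * ∑ a ∈ U, lc (B a) v ^ 2) := by
        simp only [hN]; field_simp; ring
      have h4 : 0 ≤ b' / θ * hs a * (θ / b * ∑ a ∈ U, lc (B a) v ^ 2) := by
        have := hs0 a ha; positivity
      linarith
    have a3 : ∑ i, |bf (fun i j => f / 2 * (∑ a ∈ U, B a i * L a j - ∑ a ∈ U, B a j * L a i))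
        (x i) (y i)| ≤ ∑ i, ((N (x i) + N (y i)) / 2 + m / 2 * ∑ a ∈ U, lc (L a) (x i) ^ 2
          + m / 2 * ∑ a ∈ U, lc (L a) (y i) ^ 2) := by
      refine sum_le_sum fun i _ => ?_
      rw [bf_pair, mul_sub]
      have a1 := abs_pair_le U (fun a => lc (B a) (x i)) (fun a => lc (L a) (y i)) f
        (by positivity) hm
      have a2 := abs_pair_le U (fun a => lc (B a) (y i)) (fun a => lc (L a) (x i)) f
        (by positivity) hm
      refine (abs_sub _ _).trans ?_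
      have c1 : 0 ≤ θ / b' * ∑ a ∈ U', lc (B' a) (x i) ^ 2 := by have := q2.nonneg (x i); positivity
      have c2 : 0 ≤ θ / b' * ∑ a ∈ U', lc (B' a) (y i) ^ 2 := by have := q2.nonneg (y i); positivity
      simp only [hN]
      linarith
    refine a3.trans ?_
    rw [sum_add_distrib, sum_add_distrib, ← sum_div, ← mul_sum, ← mul_sum]
    have k1 := mul_le_mul_of_nonneg_left (key x hx) hm0
    have k2 := mul_le_mul_of_nonneg_left (key y hy) hm0
    have k3 : m * (b' / θ * ∑ a ∈ U, hs a) ≤ k * θ ^ 2 := by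
      have : m * (b' / θ * ∑ a ∈ U, hs a) = (f ^ 2 * b * b' * ∑ a ∈ U, hs a) / (4 * θ ^ 2) := by
        simp only [m]; field_simp
      rw [this, div_le_iff₀ (by positivity)]
      have : (0 : ℝ) ≤ k * θ ^ 4 := by positivity
      nlinarith
    linarith

lemma Mon_finRange (k : ℕ) (Ω : Fin n → Fin n → ℝ) :
    Mon (List.replicate k fun u v => bf Ω u v) (List.ofFn fun i => Pi.single i 1)
      = Mon (List.replicate k Ω) (List.finRange n) := by
  rw [List.ofFn_eq_map, congrFun (Mon_map _ _) _]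
  simp only [List.map_replicate, bf_single]

lemma Adm.pf_le {k : ℕ} {Ω : Fin (2 * k) → Fin (2 * k) → ℝ} {d : Fin (2 * k) → ℝ} {h : ℝ}
    (H : Adm k Ω d h) (hΩ : ∀ i j, Ω i j = - Ω j i) {ε : ℝ} (hε : 0 < ε) :
    |Mon (List.replicate k Ω) (List.finRange (2 * k))|
      ≤ 2 ^ k * k.factorial * Real.exp h * ∏ i, √(d i + ε) := by
  obtain ⟨N, h1, h2, h3⟩ := H
  have q := isQ_id (n := 2 * k)
  have := pf_le_of_pd (by simp) (bf Ω) (bf_anti hΩ) (h1.add (q.mul hε.le)) (h := h) ?_ ?_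
    fun i => Pi.single i 1
  · rw [Mon_finRange] at this
    refine this.trans ?_
    gcongr with i
    · exact h2 i
    · simp [Pi.single_apply]
  · intro x hx
    have a1 := h1.nonneg x
    have a2 := q.nonneg x
    have a3 : ∑ i, x i ^ 2 = 0 := by
      have : ε * ∑ i, x i ^ 2 = 0 := by nlinarith
      exact (mul_eq_zero.1 this).resolve_left hε.ne'
    funext i
    exact pow_eq_zero_iff (two_ne_zero) |>.1
      ((sum_eq_zero_iff_of_nonneg fun _ _ => sq_nonneg _).1 a3 i (mem_univ _))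
  · intro x y hx hy
    have b1 : ∀ v, 0 ≤ ε * ∑ i, (v : Fin (2 * k) → ℝ) i ^ 2 := fun v => by
      have := q.nonneg v; positivity
    refine (h3 x y (fun c => le_trans (by linarith [b1 (∑ i, c i • x i)]) (hx c))
      (fun c => le_trans (by linarith [b1 (∑ i, c i • y i)]) (hy c))).trans ?_
    gcongr with i <;> linarith [b1 (x i), b1 (y i)]

/-- Mixed second difference. -/
def d2 (K : ℕ → ℕ → ℝ) (i j : ℕ) : ℝ := K (i + 1) (j + 1) - K i (j + 1) - K (i + 1) j + K i j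

lemma sum_d2 (K : ℕ → ℕ → ℝ) (i j : ℕ) :
    ∑ a ∈ range i, ∑ b ∈ range j, d2 K a b = K i j - K 0 j - K i 0 + K 0 0 := by
  have : ∀ a, ∑ b ∈ range j, d2 K a b = (K (a + 1) j - K (a + 1) 0) - (K a j - K a 0) := by
    intro a
    have := sum_range_sub (fun b => K (a + 1) b - K a b) j
    rw [show (K (a + 1) j - K (a + 1) 0) - (K a j - K a 0)
      = K (a + 1) j - K a j - (K (a + 1) 0 - K a 0) by ring, ← this]
    exact sum_congr rfl fun _ _ => by unfold d2; ring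
  simp only [this]
  rw [sum_range_sub (fun a => K a j - K a 0)]; ring

lemma del_Mon_range {K : ℕ → ℕ → ℝ} (hK : ∀ i j, K i j = - K j i) (k n : ℕ) :
    del (Mon (List.replicate (k + 1) K)) (List.range (n + 1))
      = Mon (List.replicate (k + 1) fun i j : Fin n => d2 K i j) (List.finRange n) := by
  have hΩ : ∀ i j : Fin n, d2 K i j = - d2 K j i := by
    intro i j; unfold d2; rw [hK (i + 1), hK i, hK (i + 1) j, hK i j]; ring
  let v : Fin n → Fin n → ℝ := fun i a => if a ≤ i then 1 else 0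
  have h1 := (pfMap _ (bf_anti hΩ) (k + 1) n).eq_smul_basis_det (Pi.basisFun ℝ (Fin n))
  have h2 : (Pi.basisFun ℝ (Fin n)).det v = 1 := by
    rw [Pi.basisFun_det_apply, Matrix.det_of_isLowerTriangular]
    · simp [v]
    · intro i j hij
      have : ¬ j ≤ i := not_le.2 hij
      simp [v, this]
  have h3 : pfMap _ (bf_anti hΩ) (k + 1) n v
      = pfMap _ (bf_anti hΩ) (k + 1) n (Pi.basisFun ℝ (Fin n)) := by
    conv_lhs => rw [h1]
    rw [AlternatingMap.smul_apply, h2, smul_eq_mul, mul_one]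
  have h4 : (Pi.basisFun ℝ (Fin n) : Fin n → Fin n → ℝ) = fun i => Pi.single i 1 := by
    funext i; simp
  rw [h4, pfMap_apply, pfMap_apply, Mon_finRange] at h3
  rw [← h3, List.range_succ_eq_map, del_Mon_cons hK, List.ofFn_eq_map,
    ← List.map_coe_finRange_eq_range, List.map_map, congrFun (Mon_map _ _) _,
    congrFun (Mon_map _ _) _]
  simp only [List.map_replicate]
  congr 2
  funext i j
  rw [bf_apply]
  have e1 : ∀ (i : Fin n) (g : ℕ → ℝ), ∑ a : Fin n, v i a * g a = ∑ a ∈ range (i + 1), g a := by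
    intro i g
    simp only [v, ite_mul, one_mul, zero_mul]
    have : ∀ a : Fin n, (if a ≤ i then g a else 0) = (fun a : ℕ => if a ≤ i then g a else 0) a :=
      fun a => rfl
    simp only [this]
    rw [Fin.sum_univ_eq_sum_range (fun a : ℕ => if a ≤ i then g a else 0), ← sum_filter]
    congr 1
    ext a; simp only [mem_filter, mem_range]; have := i.2; omega
  have e2 : ∀ a : Fin n, ∑ b : Fin n, v i a * d2 K a b * v j b
      = v i a * ∑ b ∈ range (j + 1), d2 K a b := by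
    intro a
    rw [← e1 j, mul_sum]
    exact sum_congr rfl fun _ _ => by ring
  simp only [e2]
  rw [e1 i fun a => ∑ b ∈ range (j + 1), d2 K a b, sum_d2]
  have := hK 0 0
  simp only [Function.comp, Nat.succ_eq_add_one]
  rw [hK 0 (j + 1)]; linarith

end Vale.Agent.P184
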