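import Vale.Agent.P184.Four

/-! Admissibility of the curvature of the level kernels. -/

namespace Vale.Agent.P184

set_option linter.unusedSectionVars false

open Finset

variable {G : Type*} [Group G] {M : ℕ} {g : G} {ℓ : G → ℝ} {T E : ℝ} {Bl : Finset G}

structure Alc (g : G) (M : ℕ) (ℓ : G → ℝ) (T : ℝ) (n : ℕ) (Z : ℕ → ℤ → G) : Prop where
  tw : ∀ i, Tw g M (Z i)
  le : ∀ i < n, Dz ℓ M (Z i) (Z (i + 1)) ≤ T

noncomputable def wt (ℓ : G → ℝ) (M n : ℕ) (Z : ℕ → ℤ → G) (i : Fin n) : ℝ :=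
  (1 + Dz ℓ M (Z i) (Z (i + 1))) ^ 2

variable {n : ℕ} {Z : ℕ → ℤ → G} {F m : (ℤ → G) → ℤ → G →₀ ℝ} {κ σ p Γ : ℝ} {s : ℕ}

lemma Len.sq_le_wt (hl : Len ℓ T Bl) (i : Fin n) :
    Dz ℓ M (Z i) (Z (i + 1)) ^ 2 ≤ wt ℓ M n Z i := by
  have := hl.Dz_nonneg (M := M) (Z i) (Z (i + 1))
  unfold wt; gcongr; linarith

lemma exists_supp (A : ℕ → ℤ → G →₀ ℝ) (n N : ℕ) :
    ∃ Y : Finset G, ∀ i < n, ∀ t < N, (A i (t : ℕ)).support ⊆ Y := by
  classical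
  exact ⟨(range n ×ˢ range N).biUnion fun x => (A x.1 x.2).support, fun i hi t ht =>
    subset_biUnion_of_mem (fun x : ℕ × ℕ => (A x.1 x.2).support)
      (mem_product.2 ⟨mem_range.2 hi, mem_range.2 ht⟩ : (i, t) ∈ range n ×ˢ range N)⟩

/-- Weighted factorisation of the increments of the gradient field. -/
structure Fac (M n : ℕ) (w : Fin n → ℝ) (A : ℕ → ℤ → G →₀ ℝ) (b : ℝ) (μ : ℤ → G → ℝ)
    (B : ℕ × G → Fin n → ℝ) : Prop where
  m0 : ∀ t y, 0 ≤ μ t y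
  m2 : ∀ t (Y : Finset G), ∑ y ∈ Y, μ t y ≤ 2
  eq : ∀ (t : ℕ) y (i : Fin n), A i t y = B (t, y) i * √(μ t y)
  sq : ∀ (r : ℕ) (Y : Finset G) i, ∑ a ∈ range (r * M) ×ˢ Y, B a i ^ 2 ≤ r * b * w i

lemma Fld.fac (hm : Fld g M ℓ T E m κ σ) (hl : Len ℓ T Bl) (H : SP0 p s (2 * T * E) Γ)
    (hZ : Alc g M ℓ T n Z) (hκ : 0 ≤ κ) (hσ : 0 ≤ σ) (hs : (n + 1) * (Γ * (σ * (n * T))) ≤ 0.5) :
    ∃ μ B, Fac M n (wt ℓ M n Z) (fun i => lX p s m (Z (i + 1)) - lX p s m (Z i))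
      (2 * Γ ^ 2 * σ * κ) μ B := by
  have T0 := hl.T0
  have Γ0 := H.gam_pos
  have key := fun t => exists_weight H (n := n) (m := fun i => m (Z i) t) (fun i => hm.ok _ _)
    (d := σ * (n * T)) (by positivity) (fun i hi y => by
      obtain ⟨ψ, _, p2, _, _, p5⟩ := hm.lip _ _ (hZ.tw 0) (hZ.tw i)
      refine (p2 t y).trans ((p5 t).trans ?_)
      gcongr
      refine (hl.Dz_steps Z (Nat.zero_le i)).trans ((sum_le_sum (g := fun _ => T) fun r hr =>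
        hZ.le r (by have := mem_Ico.1 hr; omega)).trans ?_)
      rw [sum_const, Nat.card_Ico, nsmul_eq_mul]
      gcongr; omega) hs
  choose μ m0 m2 m3 using key
  refine ⟨μ, fun a i => (lX p s m (Z (i + 1)) a.1 - lX p s m (Z i) a.1) a.2 / √(μ a.1 a.2),
    m0, m2, fun t y i => ?_, fun r Y i => ?_⟩
  · obtain ⟨ψ, _, p2, _⟩ := hm.lip _ _ (hZ.tw i) (hZ.tw (i + 1))
    have := m3 t i i.2 _ (p2 t) y
    rcases (m0 t y).eq_or_lt with h | h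
    · rw [← h, mul_zero, abs_nonpos_iff] at this
      rw [← h, Real.sqrt_zero, mul_zero]; exact this
    · rw [div_mul_cancel₀ _ (Real.sqrt_pos.2 h).ne']; rfl
  · obtain ⟨ψ, p1, p2, _, p4, p5⟩ := hm.lip _ _ (hZ.tw i) (hZ.tw (i + 1))
    have p0 : ∀ t, 0 ≤ ψ t := fun t => (abs_nonneg _).trans (p2 t 1)
    have d0 := hl.Dz_nonneg (M := M) (Z i) (Z (i + 1))
    have d1 := hl.sq_le_wt (M := M) (Z := Z) i
    set D := Dz ℓ M (Z i) (Z (i + 1))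
    rw [sum_product]
    refine (sum_le_sum (g := fun t : ℕ => 2 * Γ ^ 2 * (σ * D) * ψ t) fun t _ => ?_).trans ?_
    · refine (sum_le_sum (g := fun y => (Γ * ψ t) ^ 2 * μ t y) fun y _ => ?_).trans ?_
      · rw [div_pow, Real.sq_sqrt (m0 _ _)]
        refine div_le_of_le_mul₀ (m0 _ _) (by have := m0 t y; positivity) ?_
        have := pow_le_pow_left₀ (abs_nonneg _) (m3 t i i.2 _ (p2 t) y) 2
        rw [sq_abs] at this
        exact this.trans (le_of_eq (by ring))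
      · rw [← mul_sum]
        have := p0 t
        calc _ ≤ (Γ * ψ t) ^ 2 * 2 := by gcongr; exact m2 _ _
          _ = 2 * Γ ^ 2 * ψ t * ψ t := by ring
          _ ≤ _ := by gcongr; exact p5 t
    · rw [← mul_sum]
      have := sum_win p1 p0 (H := r * M) le_rfl 0
      simp only [zero_add] at this
      calc _ ≤ 2 * Γ ^ 2 * (σ * D) * (r * (κ * D)) := by
            gcongr; exact this.trans (by gcongr)
        _ = r * (2 * Γ ^ 2 * σ * κ) * D ^ 2 := by ring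
        _ ≤ _ := by gcongr

variable {w : Fin n → ℝ} {A : ℕ → ℤ → G →₀ ℝ} {b : ℝ} {μ : ℤ → G → ℝ} {B : ℕ × G → Fin n → ℝ}

lemma Fac.tp_eq (h : Fac M n w A b μ B) {Y : Finset G} (hY : ∀ i < n, ∀ t < M, (A i (t : ℕ)).support ⊆ Y)
    (i : Fin n) (W : ℤ → G → ℝ) :
    tp M (A i) W = ∑ a ∈ range M ×ˢ Y, B a i * (√(μ a.1 a.2) * W a.1 a.2) := by
  rw [tp, sum_product]
  refine sum_congr rfl fun t ht => ?_
  rw [ip_eq (hY i i.2 t (mem_range.1 ht))]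
  exact sum_congr rfl fun y _ => by rw [h.eq, mul_assoc]

lemma Fac.sq_le (h : Fac M n w A b μ B) {Y : Finset G} {t : ℕ} (hY : ∀ i < n, (A i t).support ⊆ Y)
    {k : G → ℝ} {a : ℝ} (hk : ∀ y, |k y| ≤ a) (v : Fin n → ℝ) :
    (∑ i, v i * ip (A i t) k) ^ 2 ≤ 2 * a ^ 2 * ∑ y ∈ Y, lc (B (t, y)) v ^ 2 := by
  have e : ∑ i, v i * ip (A i t) k = ∑ y ∈ Y, (√(μ t y) * k y) * lc (B (t, y)) v := by
    simp only [lc, mul_sum]
    rw [sum_comm]
    refine sum_congr rfl fun i _ => ?_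
    rw [ip_eq (hY i i.2), mul_sum]
    exact sum_congr rfl fun y _ => by rw [h.eq]; ring
  rw [e]
  refine (sum_mul_sq_le_sq_mul_sq _ _ _).trans (mul_le_mul_of_nonneg_right ?_ (by positivity))
  refine (sum_le_sum (g := fun y => μ t y * a ^ 2) fun y _ => ?_).trans ?_
  · rw [mul_pow, Real.sq_sqrt (h.m0 _ _), ← sq_abs (k y)]
    have := h.m0 t y
    gcongr; exact hk y
  · rw [← sum_mul]; gcongr; exact h.m2 _ _

variable {Ξ : (ℤ → G) → ℤ → G →₀ ℝ} {W : (ℤ → G) → ℤ → G → ℝ} {K : ℕ} {f θ : ℝ}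

lemma Fac.adm_op (h : Fac M n w (fun i => Ξ (Z (i + 1)) - Ξ (Z i)) b μ B) (hb : 0 < b) {c : ℝ}
    (hc : 0 < c) (hθ : 0 < θ) (hW : ∀ i : Fin n, ∃ ω : ℤ → ℝ,
      (∀ t y, |W (Z (i + 1)) t y - W (Z i) t y| ≤ ω t) ∧ ∑ t ∈ range M, ω t ^ 2 ≤ c * w i)
    (hf : f ^ 2 * b * (2 * c) ≤ θ ^ 2) :
    AdmW K (fun i j : Fin n => f * d2 (fun i j => tz M Ξ W (Z i) (Z j)) i j) w θ := by
  obtain ⟨Y, hY⟩ := exists_supp (fun i => Ξ (Z (i + 1)) - Ξ (Z i)) n M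
  have := P184.adm_op K (range M ×ˢ Y) B (fun a i => √(μ a.1 a.2) * (W (Z (i + 1)) - W (Z i)) a.1 a.2)
    f hb (by positivity : 0 < 2 * c) hθ w (fun i => by simpa using h.sq 1 Y i) (fun i => ?_) hf
  · refine Adm.mono ?_ (fun _ => le_rfl) (by positivity : 0 ≤ K * θ)
    convert this using 3 with i j
    rw [d2, d2_tz, h.tp_eq hY, h.tp_eq hY]; ring
  · obtain ⟨ω, h1, h2⟩ := hW i
    rw [sum_product]
    refine (sum_le_sum (g := fun t : ℕ => 2 * ω t ^ 2) fun t _ => ?_).trans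
      (by rw [← mul_sum]; linarith)
    refine (sum_le_sum (g := fun y => μ t y * ω t ^ 2) fun y _ => ?_).trans ?_
    · rw [mul_pow, Real.sq_sqrt (h.m0 _ _), ← sq_abs (_ : ℝ)]
      have := h.m0 t y
      gcongr; exact h1 t y
    · rw [← sum_mul]; gcongr; exact h.m2 _ _

lemma Fac.adm_hs (h : Fac M n w (fun i => Ξ (Z (i + 1)) - Ξ (Z i)) b μ B) (hb : 0 < b) {b' η : ℝ}
    (hb' : 0 < b') (hη : 0 ≤ η) (hθ : 0 < θ) (hθ' : θ ≤ 2)
    (hW : ∀ Y : Finset G, ∃ (U : Finset (ℕ × G)) (B' : ℕ × G → Fin n → ℝ),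
      (∀ i, ∑ a ∈ U, B' a i ^ 2 ≤ b' * w i) ∧ ∀ t < M, ∀ y ∈ Y, ∀ v : Fin n → ℝ,
        (∑ i, v i * (W (Z (i + 1)) (t : ℕ) y - W (Z i) t y)) ^ 2 ≤ η * ∑ a ∈ U, lc (B' a) v ^ 2)
    (hf : f ^ 2 * b * b' * (2 * M * η) ≤ K * θ ^ 4) :
    AdmW K (fun i j : Fin n => f * d2 (fun i j => tz M Ξ W (Z i) (Z j)) i j) w (2 * θ) := by
  obtain ⟨Y, hY⟩ := exists_supp (fun i => Ξ (Z (i + 1)) - Ξ (Z i)) n M
  obtain ⟨U, B', h1, h2⟩ := hW Y
  have := P184.adm_hs K (range M ×ˢ Y) U B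
    (fun a i => √(μ a.1 a.2) * (W (Z (i + 1)) - W (Z i)) a.1 a.2) B' f hb hb' hθ w
    (fun a => μ a.1 a.2 * η) (fun a _ => mul_nonneg (h.m0 _ _) hη)
    (fun i => by simpa using h.sq 1 Y i) h1 (fun a ha v => ?_) (le_trans ?_ hf)
  · refine Adm.mono ?_ (fun _ => le_rfl) (by gcongr; nlinarith : K * θ ^ 2 ≤ K * (2 * θ))
    convert this using 3 with i j
    rw [d2, d2_tz, h.tp_eq hY, h.tp_eq hY]; ring
  · have := h2 a.1 (mem_range.1 (mem_product.1 ha).1) a.2 (mem_product.1 ha).2 v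
    simp only [lc, mul_left_comm (v _), ← mul_sum]
    rw [mul_pow, Real.sq_sqrt (h.m0 _ _), mul_assoc]
    exact mul_le_mul_of_nonneg_left this (h.m0 _ _)
  · gcongr
    rw [sum_product]
    refine (sum_le_sum (g := fun _ => 2 * η) fun t _ => ?_).trans (by simp; linarith)
    rw [← sum_mul]; gcongr; exact h.m2 t Y

lemma Fld.op1 (hm : Fld g M ℓ T E m κ σ) (hl : Len ℓ T Bl) (hZ : Alc g M ℓ T n Z) (hκ : 0 ≤ κ)
    {N : ℕ} (hN : N ≤ M) (i : Fin n) : ∃ ω : ℤ → ℝ,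
      (∀ t y, |lW N m (Z (i + 1)) t y - lW N m (Z i) t y| ≤ ω t) ∧
        ∑ t ∈ range M, ω t ^ 2 ≤ N * κ ^ 2 / 4 * wt ℓ M n Z i := by
  obtain ⟨ψ, p1, p2, _, p4, _⟩ := hm.lip _ _ (hZ.tw i) (hZ.tw (i + 1))
  have p0 : ∀ t, 0 ≤ ψ t := fun t => (abs_nonneg _).trans (p2 t 1)
  have d0 := hl.Dz_nonneg (M := M) (Z i) (Z (i + 1))
  have d1 := hl.sq_le_wt (M := M) (Z := Z) i
  set D := Dz ℓ M (Z i) (Z (i + 1))
  refine ⟨_, lW_lip N p2, (sum_le_sum (g := fun t : ℕ => κ * D / 4 * ∑ h ∈ range N, ψ (t + h))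
    fun t _ => ?_).trans ?_⟩
  · have := sum_win p1 p0 (H := N) (r := 1) (by omega) t
    have := sum_nonneg (s := range N) fun (h : ℕ) _ => p0 (t + h)
    push_cast at *
    nlinarith
  · rw [← mul_sum, sum_box p1]
    calc _ ≤ κ * D / 4 * (N * (κ * D)) := by gcongr
      _ = N * κ ^ 2 / 4 * D ^ 2 := by ring
      _ ≤ _ := by gcongr

lemma sum_shift_le {β : ℕ → ℝ} (h : ∀ t, 0 ≤ β t) {a H N : ℕ} (hN : a + H ≤ N) :
    ∑ i ∈ range H, β (a + i) ≤ ∑ t ∈ range N, β t := by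
  refine le_trans ?_ (sum_le_sum_of_subset_of_nonneg (range_subset_range.2 hN) fun _ _ _ => h _)
  rw [sum_range_add]
  exact le_add_of_nonneg_left (sum_nonneg fun _ _ => h _)

lemma sq_lW {N : ℕ} (t : ℤ) (y : G) (v : Fin n → ℝ) :
    (∑ i, v i * (lW N m (Z (i + 1)) t y - lW N m (Z i) t y)) ^ 2
      ≤ N / 4 * ∑ h ∈ range N, (∑ i, v i * (m (Z (i + 1)) (t + h) y - m (Z i) (t + h) y)) ^ 2 := by
  have e : ∑ i, v i * (lW N m (Z (i + 1)) t y - lW N m (Z i) t y)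
      = -(1 / 2) * ∑ h ∈ range N, ∑ i, v i * (m (Z (i + 1)) (t + h) y - m (Z i) (t + h) y) := by
    rw [sum_comm, mul_sum]
    refine sum_congr rfl fun i _ => ?_
    rw [lW, lW, ← mul_sum, sum_sub_distrib]; ring
  have := sq_sum_le_card_mul_sum_sq (s := range N)
    (f := fun h : ℕ => ∑ i, v i * (m (Z (i + 1)) (t + h) y - m (Z i) (t + h) y))
  rw [card_range] at this
  rw [e, mul_pow]; linarith

lemma sq_bx {N : ℕ} (t : ℤ) (y : G) (v : Fin n → ℝ) :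
    (∑ i, v i * (bx N F (Z (i + 1)) t y - bx N F (Z i) t y)) ^ 2
      ≤ 1 / N * ∑ h ∈ range N, (∑ i, v i * (F (Z (i + 1)) (t + h) y - F (Z i) (t + h) y)) ^ 2 := by
  have e : ∑ i, v i * (bx N F (Z (i + 1)) t y - bx N F (Z i) t y)
      = 1 / N * ∑ h ∈ range N, ∑ i, v i * (F (Z (i + 1)) (t + h) y - F (Z i) (t + h) y) := by
    rw [sum_comm, mul_sum]
    refine sum_congr rfl fun i _ => ?_
    rw [bx_apply, bx_apply, ← mul_sum, sum_sub_distrib]; ring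
  have := sq_sum_le_card_mul_sum_sq (s := range N)
    (f := fun h : ℕ => ∑ i, v i * (F (Z (i + 1)) (t + h) y - F (Z i) (t + h) y))
  rw [card_range] at this
  rw [e, mul_pow]
  refine (mul_le_mul_of_nonneg_left this (by positivity)).trans (le_of_eq ?_)
  rcases Nat.eq_zero_or_pos N with rfl | hN
  · simp
  · field_simp

lemma Fld.hs3 (hm : Fld g M ℓ T E m κ σ) (hl : Len ℓ T Bl) (hZ : Alc g M ℓ T n Z) (hκ : 0 ≤ κ)
    (hσ : 0 ≤ σ) (hE : 0 ≤ E) {N : ℕ} (hN : N ≤ M) (Y : Finset G) :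
    ∃ (U : Finset (ℕ × G)) (B' : ℕ × G → Fin n → ℝ),
      (∀ i, ∑ a ∈ U, B' a i ^ 2 ≤ 4 * E * σ * κ * wt ℓ M n Z i) ∧ ∀ t < M, ∀ y ∈ Y, ∀ v : Fin n → ℝ,
        (∑ i, v i * (lW N m (Z (i + 1)) (t : ℕ) y - lW N m (Z i) t y)) ^ 2
          ≤ N / 4 * ∑ a ∈ U, lc (B' a) v ^ 2 := by
  refine ⟨range (2 * M) ×ˢ Y, fun a i => m (Z (i + 1)) a.1 a.2 - m (Z i) a.1 a.2, fun i => ?_,
    fun t ht y hy v => (sq_lW _ _ _).trans ?_⟩
  · obtain ⟨ψ, p1, p2, p3, p4, p5⟩ := hm.lip _ _ (hZ.tw i) (hZ.tw (i + 1))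
    have p0 : ∀ t, 0 ≤ ψ t := fun t => (abs_nonneg _).trans (p2 t 1)
    have d0 := hl.Dz_nonneg (M := M) (Z i) (Z (i + 1))
    have d1 := hl.sq_le_wt (M := M) (Z := Z) i
    set D := Dz ℓ M (Z i) (Z (i + 1))
    rw [sum_product]
    refine (sum_le_sum (g := fun t : ℕ => σ * D * (2 * E * ψ t)) fun t _ => ?_).trans ?_
    · refine (sum_le_sum (g := fun y => σ * D * |(m (Z (i + 1)) t - m (Z i) t) y|)
        fun y _ => ?_).trans ?_
      · rw [← sq_abs, sq]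
        exact mul_le_mul_of_nonneg_right ((p2 t y).trans (p5 t)) (abs_nonneg _)
      · rw [← mul_sum]; gcongr; exact (sum_le_n1 _ _).trans (p3 t)
    · rw [← mul_sum, ← mul_sum]
      have := sum_win p1 p0 (H := 2 * M) le_rfl 0
      simp only [zero_add] at this
      calc _ ≤ σ * D * (2 * E * ((2 : ℕ) * (κ * D))) := by
            gcongr; exact this.trans (by gcongr)
        _ = 4 * E * σ * κ * D ^ 2 := by push_cast; ring
        _ ≤ _ := by gcongr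
  · gcongr
    rw [sum_product]
    refine le_trans (sum_le_sum fun h _ => ?_) (sum_shift_le (a := t) (H := N)
      (fun _ => by positivity) (by omega))
    refine le_trans (le_of_eq ?_) (single_le_sum (fun _ _ => sq_nonneg _) hy)
    simp [lc]

lemma Fac.hs2 (hl : Len ℓ T Bl)
    (h : Fac M n w (fun i => lX p s m (Z (i + 1)) - lX p s m (Z i)) b μ B)
    {N : ℕ} (hN : N ≤ M) (hN0 : 0 < N) (Y : Finset G) :
    ∃ (U : Finset (ℕ × G)) (B' : ℕ × G → Fin n → ℝ),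
      (∀ i, ∑ a ∈ U, B' a i ^ 2 ≤ 3 * b * w i) ∧ ∀ t < M, ∀ y ∈ Y, ∀ v : Fin n → ℝ,
        (∑ i, v i * (lW N (bx N (hl.sm p s m)) (Z (i + 1)) (t : ℕ) y
          - lW N (bx N (hl.sm p s m)) (Z i) t y)) ^ 2
          ≤ N * T ^ 2 / 2 * ∑ a ∈ U, lc (B' a) v ^ 2 := by
  obtain ⟨Y', hY⟩ := exists_supp (fun i => lX p s m (Z (i + 1)) - lX p s m (Z i)) n (3 * M)
  refine ⟨range (3 * M) ×ˢ Y', B, fun i => by simpa using h.sq 3 Y' i,
    fun t ht y _ v => (sq_lW _ _ _).trans ?_⟩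
  rw [sum_product]
  set β : ℕ → ℝ := fun u => ∑ y ∈ Y', lc (B (u, y)) v ^ 2
  refine (mul_le_mul_of_nonneg_left (sum_le_sum (g := fun _ =>
    1 / N * (2 * T ^ 2 * ∑ u ∈ range (3 * M), β u)) fun j hj => (sq_bx _ _ _).trans ?_)
    (by positivity)).trans (le_of_eq ?_)
  · gcongr
    have hj' := mem_range.1 hj
    refine le_trans ?_ (mul_le_mul_of_nonneg_left (sum_shift_le (a := t + j) (H := N)
      (fun _ => by positivity) (by omega)) (by positivity))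
    rw [mul_sum]
    refine sum_le_sum fun i hi => ?_
    have hi' := mem_range.1 hi
    refine le_trans (le_of_eq ?_) (h.sq_le (t := t + j + i) (fun r hr => hY r hr _ (by omega))
      (fun y' => hl.abs_chi y' y) v)
    simp only [hl.sm_apply, lX, Pi.sub_apply, map_sub, LinearMap.sub_apply, Nat.cast_add]
  · rw [sum_const, card_range, nsmul_eq_mul]; field_simp; ring

lemma Fac.hs4 {k : ℤ → G → G → ℝ} {a : ℝ} (hk : ∀ h y y', |k h y y'| ≤ a)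
    (h : Fac M n w (fun i => Ξ (Z (i + 1)) - Ξ (Z i)) b μ B) (Y : Finset G) :
    ∃ (U : Finset (ℕ × G)) (B' : ℕ × G → Fin n → ℝ),
      (∀ i, ∑ a ∈ U, B' a i ^ 2 ≤ b * w i) ∧ ∀ t < M, ∀ y ∈ Y, ∀ v : Fin n → ℝ,
        (∑ i, v i * (W4 M k Ξ (Z (i + 1)) (t : ℕ) y - W4 M k Ξ (Z i) t y)) ^ 2
          ≤ M * (2 * a ^ 2) * ∑ a ∈ U, lc (B' a) v ^ 2 := by
  obtain ⟨Y', hY⟩ := exists_supp (fun i => Ξ (Z (i + 1)) - Ξ (Z i)) n M
  refine ⟨range M ×ˢ Y', B, fun i => by simpa using h.sq 1 Y' i, fun t ht y _ v => ?_⟩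
  have e : ∑ i, v i * (W4 M k Ξ (Z (i + 1)) (t : ℕ) y - W4 M k Ξ (Z i) t y)
      = ∑ u ∈ range M, ∑ i, v i * ip ((Ξ (Z (i + 1)) - Ξ (Z i)) u) (k (u - t) y) := by
    rw [sum_comm]
    refine sum_congr rfl fun i _ => ?_
    simp only [W4, ← mul_sum, Pi.sub_apply, map_sub, LinearMap.sub_apply, sum_sub_distrib]
  rw [e, sum_product, mul_assoc, mul_sum]
  refine sq_sum_le_card_mul_sum_sq.trans ?_
  rw [card_range]
  gcongr with u hu
  exact h.sq_le (fun r hr => hY r hr _ (mem_range.1 hu)) (hk _ y) v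

end Vale.Agent.P184
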