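import Vale.Agent.P184.Param

/-! Almost idempotents and their traces. -/

namespace Vale.Agent.P184

set_option linter.unusedSectionVars false

open Finset Filter Topology

section ring
variable {R : Type*} [Ring R] (N : RingSeminorm R)

lemma N_mul_pow (x a : R) {r : ℝ} (h : N a ≤ r) (m : ℕ) : N (x * a ^ m) ≤ N x * r ^ m := by
  induction m with
  | zero => simp
  | succ m ih =>
    rw [pow_succ, ← mul_assoc, pow_succ, ← mul_assoc]
    exact (map_mul_le_mul N _ _).trans (mul_le_mul ih h (apply_nonneg _ _)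
      ((apply_nonneg _ _).trans ih))

lemma N_pow_sub (a : R) {r : ℝ} (h : N a ≤ r) (hr : 1 ≤ r) (m : ℕ) :
    N (a ^ (m + 1) - a) ≤ m * r ^ m * N (a * a - a) := by
  induction m with
  | zero => simp
  | succ m ih =>
    have e : a ^ (m + 1 + 1) - a = (a * a - a) * a ^ m + (a ^ (m + 1) - a) := by
      rw [sub_mul, mul_assoc, ← pow_succ', ← pow_succ']; abel
    rw [e]
    refine (map_add_le_add N _ _).trans ((add_le_add (N_mul_pow N _ a h m) ih).trans ?_)
    have h0 := apply_nonneg N (a * a - a)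
    have h1 : r ^ m ≤ r ^ (m + 1) := pow_le_pow_right₀ hr (by omega)
    have h2 : 0 ≤ r ^ m := by positivity
    push_cast
    calc _ = (m + 1) * r ^ m * N (a * a - a) := by ring
      _ ≤ _ := by gcongr

/-- The Newton step. -/
def nw (a : R) : R := a + (a * a - a) - ((a * a - a) * a + (a * a - a) * a)

lemma nw_sq (a : R) : nw a * nw a - nw a = (a * a - a) * ((a * a - a) *
    ((a * a - a) + (a * a - a) + (a * a - a) + (a * a - a)) - ((a * a - a) + (a * a - a) + (a * a - a))) := by
  unfold nw; noncomm_ring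

lemma newton (a : R) {ε C : ℝ} (h : N (a * a - a) ≤ ε) (hε : ε ≤ 1 / 8) (hC : 2 * N a + 1 ≤ C)
    (i : ℕ) : N (nw^[i] a * nw^[i] a - nw^[i] a) ≤ ε / 2 ^ i ∧
      N (nw^[i] a) + 1 / 2 ≤ C * (1 - 4 * (ε / 2 ^ i)) ∧
      N (nw^[i] a - a) ≤ 4 * C * (ε - ε / 2 ^ i) := by
  have ε0 := (apply_nonneg _ _).trans h
  have a0 := apply_nonneg N a
  induction i with
  | zero => refine ⟨by simpa using h, ?_, by simp⟩
            simp only [Function.iterate_zero, id, pow_zero, div_one]; nlinarith
  | succ i ih =>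
    obtain ⟨h1, h2, h3⟩ := ih
    rw [Function.iterate_succ_apply', pow_succ, ← div_div]
    have y0 : 0 ≤ ε / 2 ^ i := by positivity
    have y1 : ε / 2 ^ i ≤ 1 / 8 := (div_le_self ε0 (one_le_pow₀ one_le_two)).trans hε
    generalize ε / 2 ^ i = y at *
    generalize nw^[i] a = b at *
    have b0 := apply_nonneg N b
    have c1 : N (nw b - b) ≤ y * (1 + 2 * N b) := by
      rw [show nw b - b = (b * b - b) - ((b * b - b) * b + (b * b - b) * b) by unfold nw; abel]
      have d1 := map_sub_le_add N (b * b - b) ((b * b - b) * b + (b * b - b) * b)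
      have d2 := map_add_le_add N ((b * b - b) * b) ((b * b - b) * b)
      have d3 := (map_mul_le_mul N (b * b - b) b).trans (mul_le_mul_of_nonneg_right h1 b0)
      linarith
    refine ⟨?_, ?_, ?_⟩
    · rw [nw_sq]
      generalize b * b - b = x at *
      have x0 := apply_nonneg N x
      have d1 := map_add_le_add N x x
      have d2 := map_add_le_add N (x + x) x
      have d3 := map_add_le_add N (x + x + x) x
      have d4 := map_mul_le_mul N x (x + x + x + x)
      have d5 := map_sub_le_add N (x * (x + x + x + x)) (x + x + x)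
      have d6 : N (x * (x + x + x + x) - (x + x + x)) ≤ 1 / 2 := by nlinarith
      refine (map_mul_le_mul N _ _).trans ?_
      have := mul_le_mul h1 d6 (apply_nonneg _ _) y0
      linarith
    · have := map_add_le_add N (nw b - b) b
      rw [sub_add_cancel] at this
      have d : (N b + 1 / 2) * (1 + 2 * y) ≤ C * (1 - 4 * y) * (1 + 2 * y) := by gcongr
      nlinarith [mul_nonneg (by linarith : 0 ≤ C) (sq_nonneg y)]
    · have := map_add_le_add N (nw b - b) (b - a)
      rw [sub_add_sub_cancel] at this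
      nlinarith [mul_nonneg (by linarith : 0 ≤ C) y0, mul_nonneg (mul_nonneg (by linarith : 0 ≤ C) y0) y0]

variable {φ : R →+ ℝ} {κ : ℝ}

lemma tr_close (hκ : 0 ≤ κ) (hφ' : ∀ x, |φ x| ≤ κ * N x) (hφ : ∀ x y, φ (x * y) = φ (y * x))
    {u v : R} (h : N (u - v) ≤ 1 / 2) {C δ : ℝ} (hC : N (1 - u - v) ≤ C)
    (hδ : N (u * u - u) + N (v * v - v) ≤ δ) (j : ℕ) :
    |φ u - φ v| ≤ κ / 2 ^ j + j * (κ * (2 * j * C + 2) * δ) := by
  set x := u - v
  set y := 1 - u - v
  have δ0 : 0 ≤ δ := (add_nonneg (apply_nonneg _ _) (apply_nonneg _ _)).trans hδ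
  have C0 : 0 ≤ C := (apply_nonneg _ _).trans hC
  have e1 : N (x * y + y * x) ≤ 2 * δ := by
    rw [show x * y + y * x = ((v * v - v) - (u * u - u)) + ((v * v - v) - (u * u - u)) by
      simp only [x, y]; noncomm_ring]
    have := map_sub_le_add N (v * v - v) (u * u - u)
    exact (map_add_le_add N _ _).trans (by linarith)
  have e2 : N (x * x + y * y - 1) ≤ 2 * δ := by
    rw [show x * x + y * y - 1 = ((v * v - v) + (u * u - u)) + ((v * v - v) + (u * u - u)) by
      simp only [x, y]; noncomm_ring]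
    have := map_add_le_add N (v * v - v) (u * u - u)
    exact (map_add_le_add N _ _).trans (by linarith)
  have x1 : N x ≤ 1 := by linarith
  have p1 : ∀ (z : R) i, N (z * x ^ i) ≤ N z := fun z i => by simpa using N_mul_pow N z x x1 i
  have c : ∀ i : ℕ, N (y * x ^ (2 * i + 1) + x ^ (2 * i + 1) * y) ≤ (2 * i + 1) * (2 * δ) := by
    intro i
    induction i with
    | zero => simpa [add_comm] using e1
    | succ i ih =>
      have e : y * x ^ (2 * (i + 1) + 1) + x ^ (2 * (i + 1) + 1) * y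
          = (x * y + y * x) * x ^ (2 * i + 2) - x * ((x * y + y * x) * x ^ (2 * i + 1))
            + x * (x * (y * x ^ (2 * i + 1) + x ^ (2 * i + 1) * y)) := by
        rw [show 2 * (i + 1) + 1 = 2 * i + 1 + 1 + 1 by ring, show 2 * i + 2 = 2 * i + 1 + 1 by ring,
          pow_succ' x (2 * i + 1 + 1), pow_succ' x (2 * i + 1)]
        generalize x ^ (2 * i + 1) = w
        noncomm_ring
      have q : ∀ z : R, N (x * z) ≤ N z := fun z => (map_mul_le_mul N _ _).trans
        (mul_le_of_le_one_left (apply_nonneg _ _) x1)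
      rw [e]
      refine (map_add_le_add N _ _).trans ((add_le_add (map_sub_le_add N _ _)
        ((q _).trans ((q _).trans ih))).trans ?_)
      have a1 := (p1 _ (2 * i + 2)).trans e1
      have a2 := (q _).trans ((p1 _ (2 * i + 1)).trans e1)
      push_cast; linarith
  have st : ∀ i < j, |φ (x ^ (2 * (i + 1) + 1)) - φ (x ^ (2 * i + 1))| ≤ κ * (2 * j * C + 2) * δ := by
    intro i hi
    have a1 := hφ' ((y * x ^ (2 * i + 1) + x ^ (2 * i + 1) * y) * y)
    have a2 := hφ' ((x * x + y * y - 1) * x ^ (2 * i + 1))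
    have a3 := mul_le_mul_of_nonneg_left ((map_mul_le_mul N _ _).trans
      (mul_le_mul (c i) hC (apply_nonneg _ _) (by positivity))) hκ
    have a4 := mul_le_mul_of_nonneg_left ((p1 _ (2 * i + 1)).trans e2) hκ
    have b1 : φ ((y * x ^ (2 * i + 1) + x ^ (2 * i + 1) * y) * y) = 2 * φ (y * y * x ^ (2 * i + 1)) := by
      rw [add_mul, map_add, hφ (y * _) y, mul_assoc (x ^ _), hφ (x ^ _), mul_assoc, two_mul (φ _)]
    have b2 : φ ((x * x + y * y - 1) * x ^ (2 * i + 1))
        = φ (x ^ (2 * (i + 1) + 1)) + φ (y * y * x ^ (2 * i + 1)) - φ (x ^ (2 * i + 1)) := by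
      rw [sub_mul, add_mul, map_sub, map_add, one_mul, mul_assoc x, ← pow_succ', ← pow_succ']
      rfl
    rw [b1] at a1; rw [b2] at a2
    have hi' : (i : ℝ) + 1 ≤ j := by exact_mod_cast hi
    have a5 : κ * ((2 * i + 1) * (2 * δ) * C) ≤ κ * ((2 * j) * (2 * δ) * C) := by gcongr; linarith
    rw [abs_le] at *
    constructor <;> linarith
  have a := abs_step_le (f := fun i => φ (x ^ (2 * i + 1))) st (by positivity) (Nat.zero_le j) le_rfl
  have b := hφ' (x ^ (2 * j + 1))
  have d : N (x ^ (2 * j + 1)) ≤ 1 / 2 ^ j := by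
    rw [pow_succ']
    refine (N_mul_pow N x x h _).trans ((mul_le_of_le_one_left (by positivity) x1).trans ?_)
    rw [one_div_pow]; gcongr
    · norm_num
    · omega
  have d' := mul_le_mul_of_nonneg_left d hκ
  simp only [mul_zero, zero_add, pow_one] at a
  rw [mul_one_div] at d'
  rw [← map_sub]
  rw [abs_le] at *
  constructor <;> linarith

end ring

variable {G A : Type*} [Group G] [NormedRing A]

lemma Nw_eq {w : G → ℝ} {a : MonoidAlgebra A G} {Y : Finset G} (h : a.coeff.support ⊆ Y) :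
    Nw w a = ∑ y ∈ Y, ‖a.coeff y‖ * w y :=
  Finsupp.sum_of_support_subset _ h _ (by simp)

lemma sum_le_Nw {w : G → ℝ} (hw : ∀ s, 0 ≤ w s) (a : MonoidAlgebra A G) (Y : Finset G) :
    ∑ y ∈ Y, ‖a.coeff y‖ * w y ≤ Nw w a := by
  classical
  rw [Nw_eq (Y := Y ∪ a.coeff.support) subset_union_right]
  exact sum_le_sum_of_subset_of_nonneg subset_union_left fun y _ _ =>
    mul_nonneg (norm_nonneg _) (hw y)

lemma Nw_add {w : G → ℝ} (hw : ∀ s, 0 ≤ w s) (a b : MonoidAlgebra A G) :
    Nw w (a + b) ≤ Nw w a + Nw w b := by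
  rw [Nw_eq subset_rfl]
  refine le_trans (sum_le_sum fun y _ => ?_) (sum_add_distrib.trans_le
    (add_le_add (sum_le_Nw hw a _) (sum_le_Nw hw b _)))
  rw [← add_mul]
  exact mul_le_mul_of_nonneg_right (norm_add_le _ _) (hw y)

lemma Nw_sum {w : G → ℝ} (hw : ∀ s, 0 ≤ w s) {ι : Type*} (s : Finset ι) (a : ι → MonoidAlgebra A G) :
    Nw w (∑ i ∈ s, a i) ≤ ∑ i ∈ s, Nw w (a i) := by
  classical
  induction s using Finset.induction_on with
  | empty => simp [Nw]
  | insert i s hi ih => rw [sum_insert hi, sum_insert hi]; exact (Nw_add hw _ _).trans (by linarith)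

/-- The weighted norm as a ring seminorm. -/
noncomputable def NS (w : G → ℝ) (hw : ∀ s, 0 ≤ w s) (hm : ∀ s t, w (s * t) ≤ w s * w t) :
    RingSeminorm (MonoidAlgebra A G) where
  toFun := Nw w
  map_zero' := by simp [Nw]
  add_le' := Nw_add hw
  neg' a := by
    rw [Nw_eq (a := -a) (Y := a.coeff.support) (by simp), Nw_eq subset_rfl]; simp
  mul_le' a b := by
    rw [MonoidAlgebra.mul_def, Nw_eq (a := a) subset_rfl, Nw_eq (a := b) subset_rfl, sum_mul_sum]
    refine (Nw_sum hw _ _).trans (sum_le_sum fun s _ => (Nw_sum hw _ _).trans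
      (sum_le_sum fun t _ => ?_))
    rw [Nw, MonoidAlgebra.coeff_single, Finsupp.sum_single_index (by simp)]
    refine (mul_le_mul (norm_mul_le _ _) (hm s t) (hw _) (by positivity)).trans (le_of_eq (by ring))

/-- The unweighted norm. -/
noncomputable def N1 : RingSeminorm (MonoidAlgebra A G) := NS (fun _ => 1) (by simp) (by simp)

variable {τ : A →+ ℝ} {κ : ℝ}

lemma trC_comm (hτ : ∀ x y, τ (x * y) = τ (y * x)) (g : G) (a b : MonoidAlgebra A G) :
    trC τ g (a * b) = trC τ g (b * a) := by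
  rw [trC, lf_mul, lf_mul, Finsupp.sum_comm]
  refine Finsupp.sum_congr fun s _ => Finsupp.sum_congr fun t _ => ?_
  have : IsConj (t * s) (s * t) := isConj_iff.2 ⟨s, by group⟩
  by_cases h : IsConj g (t * s)
  · rw [if_pos h, if_pos (h.trans this), hτ]
  · rw [if_neg h, if_neg fun h' => h (h'.trans this.symm)]; rfl

lemma trC_le (hκ : 0 ≤ κ) (hτ' : ∀ x, |τ x| ≤ κ * ‖x‖) (g : G) (a : MonoidAlgebra A G) :
    |trC τ g a| ≤ κ * Nw (fun _ => 1) a := by
  rw [trC, lf_apply, Nw, Finsupp.mul_sum]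
  refine (abs_sum_le_sum_abs _ _).trans (sum_le_sum fun s _ => ?_)
  beta_reduce
  split_ifs
  · simpa using hτ' _
  · simp only [AddMonoidHom.zero_apply, abs_zero]; positivity

/-- Truncation. -/
noncomputable def trunc (e : G → A) (V : Finset G) : MonoidAlgebra A G :=
  .ofCoeff (Finsupp.indicator V fun s _ => e s)

open Classical in
lemma trunc_apply (e : G → A) (V : Finset G) (s : G) :
    (trunc e V).coeff s = if s ∈ V then e s else 0 := by
  simp [trunc, Finsupp.indicator_apply]

lemma trunc_supp (e : G → A) (V : Finset G) : (trunc e V).coeff.support ⊆ V :=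
  Finsupp.support_indicator_subset _ _

section trunc
variable {e : G → A} {S : ℝ} (he : HasSum (fun s => ‖e s‖) S)
include he

lemma tail_le (V H : Finset G) :
    ∑ h ∈ H, ‖e h - (trunc e V).coeff h‖ ≤ S - ∑ s ∈ V, ‖e s‖ := by
  classical
  have a := sum_le_hasSum (H \ V ∪ V) (fun _ _ => norm_nonneg _) he
  rw [sum_union sdiff_disjoint] at a
  rw [← sum_subset (sdiff_subset (t := V)) fun x hx hx' => by
    rw [trunc_apply, if_pos (by simpa [hx] using hx'), sub_self, norm_zero]]
  rw [sum_congr rfl (g := fun h => ‖e h‖) fun x hx => by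
    rw [trunc_apply, if_neg (mem_sdiff.1 hx).2, sub_zero]]
  linarith

lemma N1_trunc (V : Finset G) : Nw (fun _ => 1) (trunc e V) ≤ S := by
  rw [Nw_eq (trunc_supp e V)]
  exact (sum_congr rfl fun s hs => by rw [trunc_apply, if_pos hs, mul_one]).trans_le
    (sum_le_hasSum V (fun _ _ => norm_nonneg _) he)

lemma N1_trunc_sub {U V : Finset G} (h : U ⊆ V) :
    Nw (fun _ => 1) (trunc e U - trunc e V) ≤ S - ∑ s ∈ U, ‖e s‖ := by
  classical
  rw [Nw_eq (a := trunc e U - trunc e V) (Y := V) (Finsupp.support_sub.trans (union_subset ((trunc_supp e U).trans h)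
    (trunc_supp e V)))]
  refine (sum_congr rfl fun s hs => ?_).trans_le (tail_le he U V)
  rw [mul_one, norm_sub_rev, ← if_pos (c := s ∈ V) (t := e s) (e := 0) hs, ← trunc_apply]; rfl

lemma N1_trunc_sq (hi : ∀ g, HasSum (fun h => e h * e (h⁻¹ * g)) (e g)) (V : Finset G) :
    Nw (fun _ => 1) (trunc e V * trunc e V - trunc e V) ≤ (2 * S + 1) * (S - ∑ s ∈ V, ‖e s‖) := by
  classical
  set v := trunc e V
  set t := S - ∑ s ∈ V, ‖e s‖
  have t0 : 0 ≤ t := le_trans (by simp) (tail_le he V ∅)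
  have S0 : 0 ≤ S := he.nonneg fun _ => norm_nonneg _
  rw [Nw_eq subset_rfl]
  set W := (v * v - v).coeff.support
  have h1 : ∀ g, HasSum (fun h => e h * e (h⁻¹ * g) - v.coeff h * v.coeff (h⁻¹ * g))
      (e g - (v * v).coeff g) := fun g => (hi g).sub (by
    rw [MonoidAlgebra.coeff_mul_apply_left]
    exact hasSum_sum_of_ne_finset_zero fun h hh => by
      rw [Finsupp.notMem_support_iff.1 hh, zero_mul])
  have sh : ∀ (f : G → ℝ) (h : G), ∑ g ∈ W, f (h⁻¹ * g) = ∑ g ∈ W.image (h⁻¹ * ·), f g :=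
    fun f h => (sum_image fun _ _ _ _ e => mul_left_cancel e).symm
  have h2 : ∑ g ∈ W, ‖e g - (v * v).coeff g‖ ≤ 2 * S * t := by
    refine le_of_tendsto' (tendsto_finsetSum W fun g _ => (h1 g).norm) fun H => ?_
    refine (sum_le_sum fun g _ => norm_sum_le _ _).trans ?_
    rw [sum_comm]
    refine (sum_le_sum (g := fun h => ‖e h - v.coeff h‖ * S + ‖e h‖ * t) fun h _ => ?_).trans ?_
    · refine (sum_le_sum (g := fun g => ‖e h - v.coeff h‖ * ‖e (h⁻¹ * g)‖
        + ‖e h‖ * ‖e (h⁻¹ * g) - v.coeff (h⁻¹ * g)‖) fun g _ => ?_).trans ?_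
      · rw [show e h * e (h⁻¹ * g) - v.coeff h * v.coeff (h⁻¹ * g) = (e h - v.coeff h) * e (h⁻¹ * g)
          + v.coeff h * (e (h⁻¹ * g) - v.coeff (h⁻¹ * g)) by noncomm_ring]
        refine (norm_add_le _ _).trans (add_le_add (norm_mul_le _ _) ((norm_mul_le _ _).trans ?_))
        gcongr
        rw [trunc_apply]; split_ifs <;> simp
      · rw [sum_add_distrib, ← mul_sum, ← mul_sum, sh fun g => ‖e g‖,
          sh fun g => ‖e g - v.coeff g‖]
        gcongr
        · exact sum_le_hasSum _ (fun _ _ => norm_nonneg _) he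
        · exact tail_le he V _
    · rw [sum_add_distrib, ← sum_mul, ← sum_mul]
      have a := mul_le_mul_of_nonneg_right (tail_le he V H) S0
      have b := mul_le_mul_of_nonneg_right (sum_le_hasSum H (fun _ _ => norm_nonneg _) he) t0
      linarith
  refine (sum_le_sum (g := fun g => ‖e g - (v * v).coeff g‖ + ‖e g - v.coeff g‖)
    fun g _ => ?_).trans ?_
  · rw [mul_one, norm_sub_rev (e g)]
    exact norm_sub_le_norm_sub_add_norm_sub _ _ _
  · rw [sum_add_distrib]; linarith [tail_le he V W]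

end trunc

open Classical in
lemma trC_trunc (g : G) (e : G → A) (V : Finset G) :
    trC τ g (trunc e V) = ∑ s ∈ V, if IsConj g s then τ (e s) else 0 := by
  rw [trC, lf_apply, Finsupp.sum_of_support_subset _ (trunc_supp e V) _ (by simp)]
  refine sum_congr rfl fun s hs => ?_
  rw [trunc_apply, if_pos hs]; split_ifs <;> rfl

end Vale.Agent.P184
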