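import Vale.Agent.P184.AdmL

/-! The multiscale kernel. -/

namespace Vale.Agent.P184

set_option linter.unusedSectionVars false

open Finset

variable {G : Type*} [Group G] {M : ℕ} {g : G} {ℓ : G → ℝ} {T E : ℝ} {Bl : Finset G}
  {F m : (ℤ → G) → ℤ → G →₀ ℝ} {κ σ p Γ : ℝ} {s : ℕ}

lemma Len.PP_zero (hl : Len ℓ T Bl) (hE : Bl.card ≤ E) (hp : 0 < p) {H : ℕ} (hH : 0 < H)
    (hH' : H ≤ M) {z : ℤ → G} (hz : Tw g M z) :
    M * T - H * Dz ℓ M z (sh z) ≤ PP M p s (bx H fun z t => hl.chi (z t)) z := by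
  have h1 := (hl.raw (g := g) (M := M) hE (by omega)).box hH (r := 1) (by omega)
  have h2 := sum_box (ψ := fun t => ℓ ((z t)⁻¹ * z (t + 1))) (fun t => congrArg ℓ (hz.per hz.sh t)) H
  have h3 : (M : ℝ) * T = ∑ _t ∈ range M, T := by simp
  change _ = H * Dz ℓ M z (sh z) at h2
  rw [← h2, h3, ← sum_sub_distrib]
  refine sum_le_sum fun t _ => le_trans ?_ (le_Psi hp (h1.ok z t).nonneg (z t))
  have key : ∀ j : ℕ, ℓ ((z (t + j))⁻¹ * z t) ≤ ∑ h ∈ range j, ℓ ((z (t + h))⁻¹ * z (t + h + 1)) := by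
    intro j
    induction j with
    | zero => simp [hl.one]
    | succ j ih =>
      rw [sum_range_succ, hl.symm (z (t + j))]
      push_cast
      rw [← add_assoc]
      linarith [hl.tri (z (t + j + 1)) (z (t + j)) (z t)]
  have := avg_le (c := ∑ h ∈ range H, ℓ ((z (t + h))⁻¹ * z (t + h + 1))) hH
    (f := fun j => ℓ ((z (t + j))⁻¹ * z t)) fun j hj => (key j).trans
      (sum_le_sum_of_subset_of_nonneg (range_subset_range.2 hj.le) fun _ _ _ => hl.nonneg _)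
  simp only [bx_apply, hl.chi_apply, sum_sub_distrib, sum_const, card_range, nsmul_eq_mul, mul_sub]
  rw [← mul_assoc, one_div_mul_cancel (by positivity)]
  linarith

lemma Len.bx_chi (hl : Len ℓ T Bl) {H : ℕ} (hH : 0 < H) (z : ℤ → G) (t : ℤ) (y : G) :
    T - bx H (fun z t => hl.chi (z t)) z t y = 1 / H * ∑ h ∈ range H, ℓ ((z (t + h))⁻¹ * y) := by
  simp only [bx_apply, hl.chi_apply, sum_sub_distrib, sum_const, card_range, nsmul_eq_mul, mul_sub]
  rw [← mul_assoc, one_div_mul_cancel (by positivity)]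
  ring

lemma Len.PP_two (hl : Len ℓ T Bl) (hE : Bl.card ≤ E) (S : SP0 p s (2 * T * E) Γ) {H : ℕ}
    (hH : 0 < H) (hH' : H ≤ M) (g : G) (z : ℤ → G) :
    M * (T - p - 4.1 * (T + p)) + 4.059 * PP M p s (bx (2 * H) fun z t => hl.chi (z t)) z
      ≤ PP M p s (bx H (hl.sm p s (bx H fun z t => hl.chi (z t)))) z := by
  have hp := S.pos
  have h0 := hl.raw (g := g) (M := M) hE (by omega)
  have h1 := h0.box hH (r := 1) (by omega)
  have h2 := h0.box (H := 2 * H) (by omega) (r := 2) (by omega)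
  have h3 := (h1.sm hl hE S).box hH (r := 1) (by omega)
  rw [PP, PP, mul_sum, show ∀ x : ℝ, M * x = ∑ _t ∈ range M, x by simp, ← sum_add_distrib]
  refine sum_le_sum fun t _ => ?_
  obtain ⟨y, hy⟩ := (h2.ok z t).exists_ge S
  refine le_trans ?_ (le_Psi hp (h3.ok z t).nonneg y)
  rw [← neg_le_neg_iff, bx_apply, ← mul_neg, ← sum_neg_distrib]
  refine avg_le hH fun j hj => ?_
  set m := bx H fun z t => hl.chi (z t) with hm
  have a1 : T - m z (t + j) y ≤ 2 * (T - bx (2 * H) (fun z t => hl.chi (z t)) z t y) := by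
    rw [hm, hl.bx_chi hH, hl.bx_chi (by omega)]
    have := sum_shift_le (β := fun h => ℓ ((z (t + h))⁻¹ * y)) (fun _ => hl.nonneg _) (a := j)
      (H := H) (N := 2 * H) (by omega)
    simp only [Nat.cast_add, ← add_assoc] at this
    refine (mul_le_mul_of_nonneg_left this (by positivity)).trans (le_of_eq ?_)
    push_cast; field_simp
  have a0 : 0 ≤ T - m z (t + j) y := by
    rw [hm, hl.bx_chi hH]
    exact mul_nonneg (by positivity) (sum_nonneg fun _ _ => hl.nonneg _)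
  have a2 : ∀ y', m z (t + j) y' - (T - m z (t + j) y) ≤ hl.chi y' y := by
    intro y'
    have b1 := hl.bx_chi hH z (t + j) y
    have b2 := hl.bx_chi hH z (t + j) y'
    have := avg_le hH (f := fun h => - (ℓ ((z (t + j + h))⁻¹ * y) + ℓ ((z (t + j + h))⁻¹ * y')))
      (c := - ℓ (y'⁻¹ * y)) fun h _ => by
        have := hl.tri y' (z (t + j + h)) y
        rw [hl.symm y' (z _)] at this; linarith
    rw [sum_neg_distrib, sum_add_distrib] at this
    rw [hl.chi_apply]; linarith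
  have a3 := ip_nonneg (xi_nonneg (s := s) hp (h1.ok z (t + j)).nonneg)
    (B := (fun y' => hl.chi y' y) - (⇑(m z (t + j)) - fun _ => T - m z (t + j) y))
    fun y' => sub_nonneg.2 (a2 y')
  have a4 := abs_ip_le (A := xi p s (m z (t + j))) (B := fun _ => T - m z (t + j) y)
    (c := T - m z (t + j) y) fun _ => (abs_of_nonneg a0).le
  have a5 := mul_le_mul_of_nonneg_right ((h1.ok z (t + j)).n1_xi S) a0
  have a6 := ip_xi_ge (s := s) hp (h1.ok z (t + j)).nonneg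
  have a7 := le_Psi (s := s) hp (h1.ok z (t + j)).nonneg y
  rw [map_sub, map_sub] at a3
  rw [hl.sm_apply]
  have := (abs_le.1 a4).2
  linarith

structure Par (g : G) (ℓ : G → ℝ) (T E : ℝ) (Bl : Finset G) (s : ℕ) (Γ : ℝ) (k4 : ℤ → G → G → ℝ)
    (a K θ θ2 : ℝ) (k J b j1 N M : ℕ) : Prop where
  len : Len ℓ T Bl
  hT : 10 ≤ T
  hΓ : 1 ≤ Γ
  hE : Bl.card ≤ E
  hE1 : 1 ≤ E
  sp : SP0 (T / 50) s (2 * T * E) Γ
  k4 : K4 g M Bl k4 (200 * T) a
  a0 : 0 < a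
  hK : 400 * T ^ 2 * Γ ^ 2 * (1 + a) ≤ K
  hn : 2 * k + 2 = 2 ^ J
  hM : M = 2 ^ J * (10 * N)
  hN : 0 < N
  hb : b ≤ J
  θ0 : 0 < θ
  θ1 : θ ≤ 1
  θ20 : 0 < θ2
  tot : (b + 1) * (41 * Γ / T) + 2 * θ2 * (j1 + 9) ≤ θ
  h2 : 2400 * Γ ^ 6 * T ^ 2 ≤ 2 ^ b * θ2 ^ 4
  h3 : 800 * Γ ^ 6 * T ^ 2 * E ≤ 2 ^ j1 * θ2 ^ 4
  h4 : 1600 * Γ ^ 8 * T ^ 2 * a ^ 2 ≤ (k + 1 : ℕ) * θ2 ^ 4
  rank : (14 * (J + 1) * K ^ 2) ^ 4 ≤ (k + 1 : ℕ) * θ ^ 4
  small : ((2 * k + 2 : ℕ) + 1) * (Γ * (K * ((2 * k + 2 : ℕ) * T))) ≤ 5 * N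
  den : 70 * (J + 1) * K ^ 2 * (2 * k + 3) ≤ M
  err : (2 * k + 2) * (4 * (14 * (J + 1) * K ^ 2) ^ 2 * ((2 * k + 3) * T) ^ 2
    + 16 * (7 * (J + 1) * K ^ 2 * 2 ^ J) * ((2 * k + 3) * T) ^ 2
    + (2 * k + 2) * (14 * (J + 1) * K ^ 2) * ((2 * k + 3) * T)
    + 2 * (2 * k + 2) * (14 * (J + 1) * K ^ 2) ^ 2 * ((2 * k + 3) * T) ^ 3) ≤ θ * M

variable {k4 : ℤ → G → G → ℝ} {a K θ θ2 : ℝ} {k J b j1 N : ℕ}

namespace Par

variable (P : Par g ℓ T E Bl s Γ k4 a K θ θ2 k J b j1 N M)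

noncomputable def m1 (j : ℕ) : (ℤ → G) → ℤ → G →₀ ℝ :=
  bx (2 ^ j * (10 * N)) fun z t => P.len.chi (z t)

noncomputable def m2 (j : ℕ) : (ℤ → G) → ℤ → G →₀ ℝ :=
  bx (2 ^ j * (10 * N)) (P.len.sm (T / 50) s (P.m1 b))

noncomputable def t1 (j : ℕ) : (ℤ → G) → (ℤ → G) → ℝ :=
  tz M (lX (T / 50) s (P.m1 j)) (lW (2 ^ j * (10 * N)) (P.m1 j))

noncomputable def t2 (j : ℕ) : (ℤ → G) → (ℤ → G) → ℝ :=
  tz M (lX (T / 50) s (P.m2 j)) (lW (2 ^ j * (10 * N)) (P.m2 j))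

noncomputable def m4 : (ℤ → G) → ℤ → G →₀ ℝ := bx (2 * M) (P.len.sm (T / 50) s (P.m1 b))

noncomputable def t4 : (ℤ → G) → (ℤ → G) → ℝ :=
  tz M (lX (T / 50) s P.m4) (W4 M k4 (lX (T / 50) s P.m4))

/-- The kernel. -/
noncomputable def ker (z z' : ℤ → G) : ℝ :=
  4.059 * ∑ j ∈ range (b + 1), P.t1 j z z' + ∑ j ∈ Ico b (J + 1), P.t2 j z z' + P.t4 z z'

include P

lemma H0 (j : ℕ) : 0 < 2 ^ j * (10 * N) := by have := P.hN; positivity
lemma M0 : 0 < M := P.hM ▸ P.H0 J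
lemma HM {j : ℕ} (h : j ≤ J) : 2 ^ j * (10 * N) ≤ M :=
  P.hM ▸ Nat.mul_le_mul_right _ (Nat.pow_le_pow_right two_pos h)

lemma f1 {j : ℕ} (h : j ≤ J) : Fld g M ℓ T E (P.m1 j) 1 (1 / (2 ^ j * (10 * N))) := by
  unfold m1
  simpa using (P.len.raw (g := g) P.hE P.M0).box (P.H0 j) (r := 1) (by simpa using P.HM h)

lemma fs : Fld g M ℓ T E (P.len.sm (T / 50) s (P.m1 b)) (T * Γ) (T * Γ / (2 ^ b * (10 * N))) := by
  simpa [div_eq_mul_inv] using (P.f1 P.hb).sm P.len P.hE P.sp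

lemma f2 {j : ℕ} (h : j ≤ J) : Fld g M ℓ T E (P.m2 j) (T * Γ) (T * Γ / (2 ^ j * (10 * N))) := by
  unfold m2
  simpa using P.fs.box (P.H0 j) (r := 1) (by simpa using P.HM h)

lemma f4 : Fld g M ℓ T E P.m4 (T * Γ) (T * Γ / M) := by
  have := P.fs.box (H := 2 * M) (by have := P.M0; omega) (r := 2) le_rfl
  unfold m4
  convert this using 1
  push_cast; rw [mul_div_mul_left _ _ two_ne_zero]

lemma Kb : 400 * T * (T * Γ * Γ) ≤ K ∧ 400 * (T * Γ * Γ) * a ≤ K ∧ 10 ≤ T * Γ ∧ T * Γ ≤ T * Γ * Γ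
    ∧ T ≤ T * Γ ∧ Γ ≤ T * Γ := by
  have := P.hK; have := P.hT; have := P.hΓ; have := P.a0
  have h1 : 0 ≤ T ^ 2 * Γ ^ 2 := by positivity
  have h2 : T * Γ * Γ ≤ T ^ 2 * Γ ^ 2 := by nlinarith [mul_nonneg (sq_nonneg Γ) (by linarith : 0 ≤ T)]
  have h3 : T ≤ T * Γ := by nlinarith
  refine ⟨by nlinarith, by nlinarith, by nlinarith, by nlinarith, h3, by nlinarith⟩

lemma p1 {j : ℕ} (h : j ≤ J) : Pp g M ℓ (lX (T / 50) s (P.m1 j)) (lW (2 ^ j * (10 * N)) (P.m1 j)) K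
    (1 / (2 ^ j * (10 * N))) := by
  obtain ⟨a1, a2, a3, a4, a5, a6⟩ := P.Kb
  have := P.hT
  exact (P.f1 h).pp P.len P.sp (P.HM h) (by nlinarith) (by nlinarith) (by nlinarith) (by nlinarith)

lemma p2 {j : ℕ} (h : j ≤ J) : Pp g M ℓ (lX (T / 50) s (P.m2 j)) (lW (2 ^ j * (10 * N)) (P.m2 j)) K
    (T * Γ / (2 ^ j * (10 * N))) := by
  obtain ⟨a1, a2, a3, a4, a5, a6⟩ := P.Kb
  have := P.hT
  exact (P.f2 h).pp P.len P.sp (P.HM h) (by nlinarith) (by nlinarith) (by nlinarith) (by nlinarith)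

lemma p4 : Pp g M ℓ (lX (T / 50) s P.m4) (W4 M k4 (lX (T / 50) s P.m4)) K (K / M) := by
  obtain ⟨a1, a2, a3, a4, a5, a6⟩ := P.Kb
  have := P.hT; have := P.a0
  exact P.f4.pp4 P.len P.sp P.k4 P.M0 (by nlinarith) (by nlinarith) (by nlinarith) (by nlinarith)
    (by nlinarith) (by nlinarith)

lemma K1 : 1 ≤ K ∧ T * Γ ≤ K := by
  obtain ⟨a1, a2, a3, a4, a5, a6⟩ := P.Kb
  have := P.hT
  constructor <;> nlinarith

lemma sig {x : ℝ} (h : x ≤ K) (j : ℕ) : x / (2 ^ j * (10 * N)) ≤ K / (10 * N) := by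
  have := P.K1.1; have := P.hN
  refine div_le_div₀ (by linarith) h (by positivity) ?_
  exact le_mul_of_one_le_left (by positivity) (one_le_pow₀ one_le_two)

lemma sig4 : K / M ≤ K / (10 * N) := by
  have := P.sig le_rfl J
  rw [P.hM]; exact_mod_cast this

lemma tk : TK g M ℓ P.ker (14 * (J + 1) * K ^ 2) (7 * (J + 1) * K ^ 2 * 2 ^ J / M) := by
  have K1 := P.K1
  have K0 : 0 ≤ K := by linarith [K1.1]
  have hN := P.hN
  have a1 := (tk_sum (range (b + 1)) (t := P.t1) (B := K * (K / (10 * N))) fun j hj =>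
    (P.p1 (by have := mem_range.1 hj; have := P.hb; omega)).tk.mono P.len le_rfl
      (mul_le_mul_of_nonneg_left (P.sig K1.1 j) K0)).mul (c := 4.059) (by norm_num)
  have a2 := tk_sum (Ico b (J + 1)) (t := P.t2) (B := K * (K / (10 * N))) fun j hj =>
    (P.p2 (by have := mem_Ico.1 hj; omega)).tk.mono P.len le_rfl
      (mul_le_mul_of_nonneg_left (P.sig K1.2 j) K0)
  have a4 := P.p4.tk.mono P.len le_rfl (mul_le_mul_of_nonneg_left P.sig4 K0)
  have c1 : (((range (b + 1)).card : ℕ) : ℝ) ≤ J + 1 := by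
    rw [card_range]; exact_mod_cast Nat.succ_le_succ P.hb
  have c2 : (((Ico b (J + 1)).card : ℕ) : ℝ) ≤ J + 1 := by
    rw [Nat.card_Ico]; exact_mod_cast Nat.sub_le _ _
  have c3 : ∀ x : ℝ, 0 ≤ x → 4.059 * ((range (b + 1)).card * x) + (Ico b (J + 1)).card * x + x
      ≤ 7 * (J + 1) * x := fun x hx => by
    have : (0 : ℝ) ≤ J := J.cast_nonneg
    nlinarith
  refine ((a1.add a2).add a4).mono P.len ((c3 _ (by positivity)).trans (le_of_eq (by ring)))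
    ((c3 _ (by positivity)).trans (le_of_eq ?_))
  rw [P.hM]; push_cast; field_simp

lemma den' {z : ℤ → G} (hz : Tw g M z) (hL : Dz ℓ M z (sh z) ≤ (2 * k + 3) * T) :
    T / 10 * (1 - θ * Dz ℓ M z (sh z) / (2 * k + 2)) ≤ P.ker z (sh z) / M := by
  have hp := P.sp.pos
  have hT := P.hT
  have hM' : (0 : ℝ) < M := by have := P.M0; positivity
  have L0 := P.len.Dz_nonneg (M := M) z (sh z)
  set L := Dz ℓ M z (sh z)
  have e2 : ∀ j, 2 * (2 ^ j * (10 * N)) = 2 ^ (j + 1) * (10 * N) := fun j => by ring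
  have a1 := sum_le_sum (s := range (b + 1)) (g := fun j => P.t1 j z (sh z))
    (f := fun j => (PP M (T / 50) s (P.m1 j) z - PP M (T / 50) s (P.m1 (j + 1)) z) - K ^ 2 * L / 2)
    fun j hj => by
      have hj' : j ≤ J := by have := mem_range.1 hj; have := P.hb; omega
      have := (P.len.raw (g := g) P.hE P.M0).gap (s := s) hp (P.H0 j) (P.HM hj') hz
      rw [e2] at this
      exact le_trans (sub_le_sub_right this _) ((P.p1 hj').gap hz)
  have a2 := sum_le_sum (s := Ico b (J + 1)) (g := fun j => P.t2 j z (sh z))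
    (f := fun j => - (PP M (T / 50) s (P.m2 (j + 1)) z - PP M (T / 50) s (P.m2 j) z) - K ^ 2 * L / 2)
    fun j hj => by
      have hj' : j ≤ J := by have := mem_Ico.1 hj; omega
      have := P.fs.gap (s := s) hp (P.H0 j) (P.HM hj') hz
      rw [e2] at this
      rw [neg_sub]
      exact le_trans (sub_le_sub_right this _) ((P.p2 hj').gap hz)
  rw [sum_sub_distrib, sum_range_sub', sum_const, card_range, nsmul_eq_mul] at a1
  rw [sum_sub_distrib, sum_neg_distrib, sum_Ico_sub (fun j => PP M (T / 50) s (P.m2 j) z)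
    (by have := P.hb; omega), sum_const, Nat.card_Ico, nsmul_eq_mul] at a2
  have a3 := P.len.PP_zero (s := s) P.hE hp (P.H0 0) (P.HM (Nat.zero_le _)) hz
  have a4 := P.len.PP_two P.hE P.sp (P.H0 b) (P.HM P.hb) g z
  rw [e2] at a4
  have a5 := P.p4.gap hz
  have e4 : P.m2 (J + 1) = P.m4 := by rw [m2, m4, ← e2, ← P.hM]
  have a6 : PP M (T / 50) s P.m4 z - tp M (lX (T / 50) s P.m4 z) (W4 M k4 (lX (T / 50) s P.m4) (sh z)
      - W4 M k4 (lX (T / 50) s P.m4) z) ≤ M * (0.7 * T) := by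
    by_cases h : ∃ t0, 0.7 * T < Psi (T / 50) s (P.m4 z t0)
    · obtain ⟨t0, h⟩ := h
      have b1 := P.fs.gap4 ((P.f1 P.hb).sep P.len P.sp) P.sp P.k4 (N := 2 ^ J * N)
        (by rw [P.hM]; ring) P.M0 hz h
      have b2 : PP M (T / 50) s P.m4 z ≤ M * (1.07 * T) :=
        (sum_le_sum (g := fun _ => 1.07 * T) fun t _ => by
          have := (P.f4.ok z t).Psi_le P.sp (P.f4.le z t) (by linarith)
          linarith).trans (by simp)
      change M * T ≤ tp M (lX (T / 50) s P.m4 z) (W4 M k4 (lX (T / 50) s P.m4) (sh z)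
        - W4 M k4 (lX (T / 50) s P.m4) z) at b1
      nlinarith
    · push Not at h
      have b2 : PP M (T / 50) s P.m4 z ≤ M * (0.7 * T) :=
        (sum_le_sum (s := range M) (g := fun _ => 0.7 * T) fun t _ => h t).trans (by simp)
      have b1 : 0 ≤ tp M (lX (T / 50) s P.m4 z) (W4 M k4 (lX (T / 50) s P.m4) (sh z)
        - W4 M k4 (lX (T / 50) s P.m4) z) := sum_nonneg fun t _ =>
          ip_nonneg (xi_nonneg hp (P.f4.ok _ _).nonneg) (P.f4.gap4_nonneg hp P.k4 hz t)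
      linarith
  have c1 : ((b + 1 : ℕ) : ℝ) ≤ J + 1 := by exact_mod_cast Nat.succ_le_succ P.hb
  have c2 : ((J + 1 - b : ℕ) : ℝ) ≤ J + 1 := by exact_mod_cast Nat.sub_le _ _
  have c3 : (J + 1) * (K ^ 2 * L / 2) ≤ M * T / 140 := by
    have := mul_le_mul_of_nonneg_right P.den (by linarith : 0 ≤ T)
    have : (J + 1) * K ^ 2 * L ≤ (J + 1) * K ^ 2 * ((2 * k + 3) * T) := by gcongr
    linarith
  have c4 : 0 ≤ K ^ 2 * L / 2 := by positivity
  have c5 := mul_le_mul_of_nonneg_right c1 c4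
  have c6 := mul_le_mul_of_nonneg_right c2 c4
  have c7 : K ^ 2 * L / 2 ≤ (J + 1) * (K ^ 2 * L / 2) :=
    le_mul_of_one_le_left c4 (by have : (0 : ℝ) ≤ J := J.cast_nonneg; linarith)
  have c8 : 41 ≤ θ * T := by
    have h1 := P.tot; have h2 := P.θ20; have h3 := P.hΓ
    have h4 : 41 * Γ / T ≤ (b + 1) * (41 * Γ / T) :=
      le_mul_of_one_le_left (by positivity) (by have : (0 : ℝ) ≤ b := b.cast_nonneg; linarith)
    have h5 : 0 ≤ 2 * θ2 * (j1 + 9) := by positivity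
    have h6 : 41 * Γ / T ≤ θ := by linarith
    rw [div_le_iff₀ (by linarith)] at h6; linarith
  have c9 : (M : ℝ) = (2 * k + 2) * (10 * N) := by
    rw [P.hM, ← P.hn]; push_cast; ring
  have c10 : T / 10 * (1 - θ * L / (2 * k + 2)) * M = M * T / 10 - θ * T * (N * L) := by
    rw [c9]; field_simp
  have c11 : 41 * (N * L) ≤ θ * T * (N * L) := by gcongr
  rw [e4] at a2
  rw [le_div_iff₀ hM', c10, ker]
  change M * T - ((2 ^ 0 * (10 * N) : ℕ) : ℝ) * L ≤ PP M (T / 50) s (P.m1 0) z at a3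
  change M * (T - T / 50 - 4.1 * (T + T / 50)) + 4.059 * PP M (T / 50) s (P.m1 (b + 1)) z
    ≤ PP M (T / 50) s (P.m2 b) z at a4
  change _ ≤ P.t4 z (sh z) at a5
  push_cast at a3
  have : 0 ≤ N * L := by positivity
  have : 0 ≤ M * T := by positivity
  nlinarith

variable {Z : ℕ → ℤ → G} {f : ℝ}

lemma fac (hZ : Alc g M ℓ T (2 * k + 2) Z) (hm : Fld g M ℓ T E m κ σ) (hκ : 0 ≤ κ) (hσ : 0 ≤ σ)
    (h : σ ≤ K / (10 * N)) : ∃ μ B, Fac M (2 * k + 2) (wt ℓ M (2 * k + 2) Z)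
      (fun i => lX (T / 50) s m (Z (i + 1)) - lX (T / 50) s m (Z i)) (2 * Γ ^ 2 * σ * κ) μ B := by
  refine hm.fac P.len P.sp hZ hκ hσ ?_
  have := P.hT; have := P.hΓ; have := P.hN
  calc _ ≤ ((2 * k + 2 : ℕ) + 1) * (Γ * (K / (10 * N) * ((2 * k + 2 : ℕ) * T))) := by gcongr
    _ = ((2 * k + 2 : ℕ) + 1) * (Γ * (K * ((2 * k + 2 : ℕ) * T))) / (10 * N) := by ring
    _ ≤ _ := by rw [div_le_iff₀ (by positivity)]; linarith [P.small]

lemma fsq (hf : |f| ≤ 10 / T) : f ^ 2 * T ^ 2 ≤ 100 := by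
  have := P.hT
  rw [le_div_iff₀ (by linarith)] at hf
  rw [← sq_abs f, ← mul_pow]
  exact (pow_le_pow_left₀ (by positivity) hf 2).trans (by norm_num)

lemma adm1 (hZ : Alc g M ℓ T (2 * k + 2) Z) (hf : |f| ≤ 10 / T) {j : ℕ} (h : j ≤ J) :
    AdmW (k + 1) (fun i i' : Fin (2 * k + 2) =>
      4.059 * f * d2 (fun i i' => P.t1 j (Z i) (Z i')) i i') (wt ℓ M (2 * k + 2) Z) (41 * Γ / T) := by
  have := P.hT; have := P.hΓ; have := P.hN
  obtain ⟨μ, B, h1⟩ := P.fac hZ (P.f1 h) zero_le_one (by positivity) (P.sig P.K1.1 j)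
  refine h1.adm_op (by positivity) (by positivity) (by positivity)
    ((P.f1 h).op1 P.len hZ zero_le_one (P.HM h)) ?_
  have a := mul_le_mul_of_nonneg_right (P.fsq hf) (sq_nonneg Γ)
  rw [div_pow, le_div_iff₀ (by positivity)]
  refine le_trans (le_of_eq (b := 4.059 ^ 2 * (f ^ 2 * T ^ 2 * Γ ^ 2)) ?_) (by nlinarith)
  push_cast; field_simp; ring

lemma Mk : (M : ℝ) = 2 * (k + 1 : ℕ) * (10 * N) := by rw [P.hM, ← P.hn]; push_cast; ring

lemma θ21 : θ2 ≤ 1 := by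
  have := P.hT; have := P.hΓ; have := P.tot; have := P.θ1; have := P.θ20
  have : 0 ≤ (b + 1) * (41 * Γ / T) := by positivity
  have : (0 : ℝ) ≤ j1 := j1.cast_nonneg
  nlinarith

lemma adm2 (hZ : Alc g M ℓ T (2 * k + 2) Z) (hf : |f| ≤ 10 / T) {j : ℕ} (h : j ≤ J) :
    AdmW (k + 1) (fun i i' : Fin (2 * k + 2) => f * d2 (fun i i' => P.t2 j (Z i) (Z i')) i i')
      (wt ℓ M (2 * k + 2) Z) (2 * (θ2 * (7 / 8) ^ (j - j1))) := by
  have := P.hT; have := P.hΓ; have := P.hN; have := P.hE1; have := P.θ20; have := P.θ21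
  have a := P.fsq hf
  obtain ⟨μ, B, h1⟩ := P.fac hZ (P.f2 h) (by positivity) (by positivity) (P.sig P.K1.2 j)
  have h0 : θ2 * (7 / 8) ^ (j - j1) ≤ 2 := by
    have : (7 / 8 : ℝ) ^ (j - j1) ≤ 1 := pow_le_one₀ (by norm_num) (by norm_num)
    nlinarith
  rcases le_total j j1 with hj | hj
  · obtain ⟨μ', B', h2⟩ := P.fac hZ (P.f1 P.hb) zero_le_one (by positivity) (P.sig P.K1.1 b)
    refine h1.adm_hs (by positivity) (by positivity) (by positivity) (by positivity) h0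
      (h2.hs2 P.len (P.HM h) (P.H0 j)) ?_
    rw [Nat.sub_eq_zero_of_le hj, pow_zero, mul_one]
    calc _ = (k + 1 : ℕ) * ((f ^ 2 * T ^ 2) * (24 * Γ ^ 6 * T ^ 2) / 2 ^ b) := by
          rw [P.Mk]; push_cast; field_simp; ring
      _ ≤ (k + 1 : ℕ) * (100 * (24 * Γ ^ 6 * T ^ 2) / 2 ^ b) := by gcongr
      _ ≤ _ := by gcongr; rw [div_le_iff₀ (by positivity)]; linarith [P.h2]
  · refine h1.adm_hs (by positivity) (by positivity) (by positivity) (by positivity) h0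
      ((P.f2 h).hs3 P.len hZ (by positivity) (by positivity) (by positivity) (P.HM h)) ?_
    obtain ⟨r, rfl⟩ := Nat.exists_eq_add_of_le hj
    rw [Nat.add_sub_cancel_left]
    have e : (1 : ℝ) ≤ 2 ^ r * ((7 / 8) ^ r) ^ 4 := by
      rw [← pow_mul, mul_comm r, pow_mul, ← mul_pow]; exact one_le_pow₀ (by norm_num)
    calc _ = (k + 1 : ℕ) * ((f ^ 2 * T ^ 2) * (8 * Γ ^ 6 * T ^ 2 * E) / 2 ^ (j1 + r)) := by
          rw [P.Mk]; push_cast; field_simp; ring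
      _ ≤ (k + 1 : ℕ) * (100 * (8 * Γ ^ 6 * T ^ 2 * E) / 2 ^ (j1 + r)) := by gcongr
      _ ≤ _ := by
        gcongr
        rw [div_le_iff₀ (by positivity), pow_add, mul_pow]
        have := mul_le_mul_of_nonneg_left e (by positivity : 0 ≤ 2 ^ j1 * θ2 ^ 4)
        linarith [P.h3]

lemma adm4 (hZ : Alc g M ℓ T (2 * k + 2) Z) (hf : |f| ≤ 10 / T) :
    AdmW (k + 1) (fun i i' : Fin (2 * k + 2) => f * d2 (fun i i' => P.t4 (Z i) (Z i')) i i')
      (wt ℓ M (2 * k + 2) Z) (2 * θ2) := by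
  have := P.hT; have := P.hΓ; have := P.M0; have := P.θ20; have := P.θ21
  have a' := P.fsq hf
  obtain ⟨μ, B, h1⟩ := P.fac hZ P.f4 (by positivity) (by positivity)
    ((div_le_div_of_nonneg_right P.K1.2 (by positivity)).trans P.sig4)
  refine h1.adm_hs (by positivity) (by positivity) (by positivity) (by positivity) (by linarith)
    (h1.hs4 P.k4.bd) ?_
  calc _ = (f ^ 2 * T ^ 2) * (16 * Γ ^ 8 * T ^ 2 * a ^ 2) := by field_simp; ring
    _ ≤ 100 * (16 * Γ ^ 8 * T ^ 2 * a ^ 2) := by gcongr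
    _ ≤ _ := by linarith [P.h4]

omit P in
lemma sum_geo (j1 n : ℕ) : ∑ j ∈ range n, (7 / 8 : ℝ) ^ (j - j1) ≤ j1 + 8 := by
  refine (sum_le_sum_of_subset_of_nonneg (range_subset_range.2 (Nat.le_add_left n j1))
    fun _ _ _ => by positivity).trans ?_
  rw [sum_range_add]
  refine add_le_add ((sum_le_sum (g := fun _ => 1) fun j _ =>
    pow_le_one₀ (by norm_num) (by norm_num)).trans (by simp)) ?_
  simp only [Nat.add_sub_cancel_left]
  rw [geom_sum_eq (by norm_num), div_le_iff_of_neg (by norm_num)]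
  have : 0 ≤ (7 / 8 : ℝ) ^ n := by positivity
  linarith

theorem est : EstH g M ℓ T P.ker k (14 * (J + 1) * K ^ 2) (7 * (J + 1) * K ^ 2 * 2 ^ J) θ where
  tk := P.tk
  hT := P.hT
  hA := by
    have := P.K1.1; have : (0 : ℝ) ≤ J := J.cast_nonneg
    nlinarith [mul_nonneg this (sq_nonneg K)]
  hB := by positivity
  θ0 := P.θ0
  θ1 := P.θ1
  den z := P.den'
  rank := P.rank
  err := P.err
  adm Z h1 h2 f hf := by
    have hZ : Alc g M ℓ T (2 * k + 2) Z := ⟨h1, h2⟩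
    have a1 := admW_sum (range (b + 1)) fun j hj => P.adm1 hZ hf (j := j)
      (by have := mem_range.1 hj; have := P.hb; omega)
    have a2 := admW_sum (Ico b (J + 1)) fun j hj => P.adm2 hZ hf (j := j)
      (by have := mem_Ico.1 hj; omega)
    refine AdmW.mono (w := wt ℓ M (2 * k + 2) Z) ?_ (fun i => sq_nonneg _)
      (θ := ∑ _j ∈ range (b + 1), 41 * Γ / T + ∑ j ∈ Ico b (J + 1), 2 * (θ2 * (7 / 8) ^ (j - j1))
        + 2 * θ2) ?_
    · convert (a1.add a2).add (P.adm4 hZ hf) using 3 with i j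
      simp only [d2, ker, mul_add, mul_sub, sum_add_distrib, sum_sub_distrib, ← mul_sum]
      ring
    · have b1 := (sum_le_sum_of_subset_of_nonneg (s := Ico b (J + 1))
        (f := fun j => (7 / 8 : ℝ) ^ (j - j1)) (fun j hj => mem_range.2 (mem_Ico.1 hj).2)
        fun _ _ _ => by positivity).trans (sum_geo j1 (J + 1))
      have b2 := mul_le_mul_of_nonneg_left b1 P.θ20.le
      rw [sum_const, card_range, nsmul_eq_mul, ← mul_sum, ← mul_sum]
      have := P.tot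
      push_cast; linarith

end Par

end Vale.Agent.P184
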