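import Vale.Agent.P184.Stokes

/-! Comparison of the Pfaffian cocycles of two natural kernels. -/

namespace Vale.Agent.P184

set_option linter.unusedSectionVars false

open Finset

variable {G A : Type*} [Group G] [NormedRing A]

structure NatK (g : G) (M : ℕ) (K : Pt G → Pt G → ℝ) (s : ℝ) : Prop where
  anti : ∀ x y, K x y = - K y x
  bdd : ∃ κ, ∀ x y, |K x y| ≤ κ
  zinv : ∀ c, c * g = g * c → ∀ x y, K (act c x) (act c y) = K x y
  relab : ∀ φ, StrictMono φ → ∀ x y, K (rel φ x) (rel φ y) = K x y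
  shift : ∀ m, 0 < m → ∀ x y, Good g M m x → Good g M m y → Btw x y → K (SP x) y = K x y - s

variable {M : ℕ} {g : G} {τ : A →+ ℝ}

lemma NatK.sub {K K' : Pt G → Pt G → ℝ} {s : ℝ} (h : NatK g M K s) (h' : NatK g M K' s) :
    NatK g M (fun x y => K' x y - K x y) 0 where
  anti x y := by rw [h.anti x, h'.anti x]; ring
  bdd := by
    obtain ⟨a, ha⟩ := h.bdd; obtain ⟨b, hb⟩ := h'.bdd
    exact ⟨b + a, fun x y => (abs_sub _ _).trans (add_le_add (hb x y) (ha x y))⟩
  zinv c hc x y := by rw [h.zinv c hc, h'.zinv c hc]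
  relab φ hφ x y := by rw [h.relab φ hφ, h'.relab φ hφ]
  shift m hm x y hx hy hb := by rw [h.shift m hm x y hx hy hb, h'.shift m hm x y hx hy hb]; ring

lemma map_pull_eq {X : Type*} {ψ : X → X} {Ks : List (X → X → ℝ)}
    (h : ∀ K ∈ Ks, ∀ x y, K (ψ x) (ψ y) = K x y) :
    (Ks.map fun K x y => K (ψ x) (ψ y)) = Ks := by
  conv_rhs => rw [← List.map_id Ks]
  exact List.map_congr_left fun K hK => funext fun x => funext fun y => h K hK x y

lemma natC_eta {B : Pt G → Pt G → ℝ} {Ks : List (Pt G → Pt G → ℝ)} {s : ℝ} (hB : NatK g M B 0)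
    (hK : ∀ K ∈ Ks, NatK g M K s) : NatC g (eta B Ks) where
  zinv c hc l := by
    rw [eta_map, map_pull_eq fun K h => (hK K h).zinv c hc]
    simp only [hB.zinv c hc]
  relab φ hφ l := by
    rw [eta_map, map_pull_eq fun K h => (hK K h).relab φ hφ]
    simp only [hB.relab φ hφ]

lemma rotC_eta {B : Pt G → Pt G → ℝ} {Ks : List (Pt G → Pt G → ℝ)} {s : ℝ} (hB : NatK g M B 0)
    (hK : ∀ K ∈ Ks, NatK g M K s) : RotC g M (eta B Ks) := by
  intro m hm x l hx hl
  rw [(alt_eta B Ks).rot, eta_repl hB.anti (x := x)]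
  · intro y hy
    simpa using hB.shift m hm x y hx (hl y hy).1 (hl y hy).2
  · intro K h
    exact ⟨(hK K h).anti, s, fun y hy => (hK K h).shift m hm x y hx (hl y hy).1 (hl y hy).2⟩

lemma natC_del_Mon {Ks : List (Pt G → Pt G → ℝ)} {s : ℝ} (hK : ∀ K ∈ Ks, NatK g M K s) :
    NatC g (del (Mon Ks)) where
  zinv c hc l := by rw [del_map, Mon_map, map_pull_eq fun K h => (hK K h).zinv c hc]
  relab φ hφ l := by rw [del_map, Mon_map, map_pull_eq fun K h => (hK K h).relab φ hφ]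

/-- The total pairing of a cochain with the subdivided cycle. -/
noncomputable def tot (τ : A →+ ℝ) (g : G) (a : MonoidAlgebra A G) (M m : ℕ)
    (F : List (Pt G) → ℝ) : ℝ := TS M m fun q => sgn M q * val τ g a M F (List.range m) q

lemma compare_one {κ : ℝ} (hκ : 0 ≤ κ) (hτ' : ∀ x, |τ x| ≤ κ * ‖x‖)
    (hτ : ∀ x y, τ (x * y) = τ (y * x)) (hM : 0 < M) (k : ℕ) {K K' : Pt G → Pt G → ℝ} {s : ℝ}
    (h : NatK g M K s) (h' : NatK g M K' s) {Ks : List (Pt G → Pt G → ℝ)}
    (hK : ∀ K ∈ Ks, NatK g M K s) :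
    ∃ C, ∀ a : MonoidAlgebra A G,
      |tot τ g a M (2 * k + 3) (del (Mon (K' :: Ks))) - tot τ g a M (2 * k + 3) (del (Mon (K :: Ks)))|
        ≤ C * (Nw (fun _ => 1) (a * a - a) * Nw (fun _ => 1) a ^ (2 * k + 1)) := by
  have hB := h.sub h'
  obtain ⟨C, hC⟩ := stokes hκ hτ' hτ (natC_eta hB hK) (rotC_eta hB hK) hM k
    (bdd_eta hB.bdd (fun K h => (hK K h).bdd) _)
  refine ⟨C / 2, fun a => ?_⟩
  have e : ∀ l, del (eta (fun x y => K' x y - K x y) Ks) l
      = 2 * (del (Mon (K' :: Ks)) l - del (Mon (K :: Ks)) l) := by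
    intro l
    have : Mon (K' :: Ks) = fun l => Mon (K :: Ks) l + Mon ((fun x y => K' x y - K x y) :: Ks) l := by
      funext l
      simp only [Mon]
      rw [← W_addK]; simp
    rw [del_eta, this, del_add]; ring
  have e2 : TS M (2 * k + 3) (fun q => sgn M q *
      val τ g a M (del (eta (fun x y => K' x y - K x y) Ks)) (List.range (2 * k + 3)) q)
      = 2 * (tot τ g a M (2 * k + 3) (del (Mon (K' :: Ks)))
        - tot τ g a M (2 * k + 3) (del (Mon (K :: Ks)))) := by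
    rw [tot, tot, ← TS_sub, ← TS_mul]
    congr 1
    funext q
    simp only [val, e]
    have := map_smul (Pr τ g a q.length) (2 : ℝ)
      ((fun X => del (Mon (K' :: Ks)) (sel M X q (List.range (2 * k + 3))))
        - fun X => del (Mon (K :: Ks)) (sel M X q (List.range (2 * k + 3))))
    rw [map_sub, smul_eq_mul] at this
    rw [← mul_sub, mul_left_comm, ← this]
    rfl
  have := hC a
  rw [e2, abs_mul, abs_two] at this
  linarith

lemma compare {κ : ℝ} (hκ : 0 ≤ κ) (hτ' : ∀ x, |τ x| ≤ κ * ‖x‖)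
    (hτ : ∀ x y, τ (x * y) = τ (y * x)) (hM : 0 < M) (k : ℕ) {K K' : Pt G → Pt G → ℝ} {s : ℝ}
    (h : NatK g M K s) (h' : NatK g M K' s) (i j : ℕ) :
    ∃ C, ∀ a : MonoidAlgebra A G,
      |tot τ g a M (2 * k + 3) (del (Mon (List.replicate i K' ++ List.replicate j K')))
        - tot τ g a M (2 * k + 3) (del (Mon (List.replicate i K' ++ List.replicate j K)))|
        ≤ C * (Nw (fun _ => 1) (a * a - a) * Nw (fun _ => 1) a ^ (2 * k + 1)) := by
  induction j generalizing i with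
  | zero => exact ⟨0, fun a => by simp⟩
  | succ j ih =>
    obtain ⟨C, hC⟩ := ih (i + 1)
    obtain ⟨C', hC'⟩ := compare_one hκ hτ' hτ hM k h h'
      (Ks := List.replicate i K' ++ List.replicate j K) (fun K0 h0 => by
        rcases List.mem_append.1 h0 with h1 | h1 <;> rw [List.eq_of_mem_replicate h1]
        exacts [h', h])
    refine ⟨C + C', fun a => ?_⟩
    have a1 := hC a
    have a2 := hC' a
    rw [List.replicate_succ (n := j), List.replicate_succ (n := j), Mon_move, Mon_move]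
    rw [List.replicate_succ, List.cons_append, List.cons_append] at a1
    refine (abs_sub_le _ _ _).trans ((add_le_add a1 a2).trans (le_of_eq ?_))
    ring

/-- Normalised alcoves. -/
def Nrm (M : ℕ) (l : List ℤ) (d : ℤ) : Prop := ∀ y ∈ l, d - M < y ∧ y ≤ d

lemma exists_nrm (hM : 0 < M) (l : List ℤ) (d : ℤ) : ∃ l', Nrm M l' d ∧
    List.Forall₂ (fun x y => ∃ j : ℤ, x = y + j * M) (l ++ [d]) (l' ++ [d]) := by
  induction l with
  | nil => exact ⟨[], by simp [Nrm], by simp⟩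
  | cons x l ih =>
    obtain ⟨l', h1, h2⟩ := ih
    have c1 := Int.emod_add_mul_ediv (d - x) M
    have c2 := Int.emod_nonneg (d - x) (by omega : (M : ℤ) ≠ 0)
    have c3 := Int.emod_lt_of_pos (d - x) (by omega : (0 : ℤ) < M)
    refine ⟨(d - (d - x) % M) :: l', ?_, List.Forall₂.cons ⟨-((d - x) / M), by linarith⟩ h2⟩
    intro y hy
    rcases List.mem_cons.1 hy with rfl | h
    · constructor <;> linarith
    · exact h1 y h

lemma nrm_red (hτ : ∀ x y, τ (x * y) = τ (y * x)) (a : MonoidAlgebra A G) (hM : 0 < M) (k : ℕ)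
    {F : List (Pt G) → ℝ} (hF : NatC g F) (q : List ℤ) (hq : q.length = 2 * k + 3) :
    ∃ l d, l.length = 2 * k + 2 ∧ Nrm M l d ∧
      sgn M q * val τ g a M F (List.range (2 * k + 3)) q
        = sgn M (l ++ [d]) * val τ g a M F (List.range (2 * k + 3)) (l ++ [d]) := by
  obtain ⟨l, d, rfl⟩ : ∃ l d, q = l ++ [d] := by
    rcases List.eq_nil_or_concat q with rfl | ⟨l, d, rfl⟩
    · simp at hq
    · exact ⟨l, d, by simp⟩
  obtain ⟨l', h1, h2⟩ := exists_nrm hM l d
  refine ⟨l', d, ?_, h1, ?_⟩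
  · have := h2.length_eq; simp at this hq; omega
  · exact per_congr (M := M) (m := 2 * k + 3)
      (h := fun q => sgn M q * val τ g a M F (List.range (2 * k + 3)) q)
      (fun l1 c l2 hl => by rw [val_per hτ a hF hM, sgn_per_even hM c (by omega)]) h2 []
      (by simpa using hq)

theorem trace_est {κ : ℝ} (hκ : 0 ≤ κ) (hτ' : ∀ x, |τ x| ≤ κ * ‖x‖)
    (hτ : ∀ x y, τ (x * y) = τ (y * x)) (hM : 0 < M) (k : ℕ) {K K' : Pt G → Pt G → ℝ} {s : ℝ}
    (h : NatK g M K s) (h' : NatK g M K' s) {c C' : ℝ} (hC' : 0 ≤ C') {w : G → ℝ}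
    (hw : ∀ s, 0 ≤ w s)
    (H1 : ∀ l d X, l.length = 2 * k + 2 → Nrm M l d → Tw g (2 * k + 3) X → sgn M (l ++ [d]) *
      del (Mon (List.replicate (k + 1) K)) (sel M X (l ++ [d]) (List.range (2 * k + 3))) = c)
    (H2 : ∀ l d X, l.length = 2 * k + 2 → Nrm M l d → Tw g (2 * k + 3) X →
      |del (Mon (List.replicate (k + 1) K')) (sel M X (l ++ [d]) (List.range (2 * k + 3)))|
        ≤ C' * ((incr (2 * k + 3) X).map w).prod) :
    ∃ C, ∀ a : MonoidAlgebra A G, |c * trC τ g (a ^ (2 * k + 3))|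
      ≤ κ * ‖(1 : A)‖ * C' * Nw w a ^ (2 * k + 3)
        + C * (Nw (fun _ => 1) (a * a - a) * Nw (fun _ => 1) a ^ (2 * k + 1)) := by
  obtain ⟨C, hC⟩ := compare hκ hτ' hτ hM k h h' 0 (k + 1)
  refine ⟨C / M ^ (2 * k + 3), fun a => ?_⟩
  have a1 := hC a
  simp only [List.replicate_zero, List.nil_append] at a1
  have n1 : NatC g (del (Mon (List.replicate (k + 1) K))) :=
    natC_del_Mon fun K0 h0 => by rw [List.eq_of_mem_replicate h0]; exact h
  have n2 : NatC g (del (Mon (List.replicate (k + 1) K'))) :=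
    natC_del_Mon fun K0 h0 => by rw [List.eq_of_mem_replicate h0]; exact h'
  have a2 : tot τ g a M (2 * k + 3) (del (Mon (List.replicate (k + 1) K)))
      = M ^ (2 * k + 3) * (c * trC τ g (a ^ (2 * k + 3))) := by
    rw [tot, ← TS_const]
    refine TS_congr fun q hq _ => ?_
    obtain ⟨l, d, h1, h2, h3⟩ := nrm_red hτ a hM k n1 q hq
    rw [h3, val, ← Pr_one τ g a (by omega), ← smul_eq_mul (sgn M _), ← smul_eq_mul c,
      ← map_smul, ← map_smul, List.length_append, h1]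
    refine Pr_congr _ _ _ _ fun X hX => ?_
    simpa using H1 l d X h1 h2 hX
  have a3 : |tot τ g a M (2 * k + 3) (del (Mon (List.replicate (k + 1) K')))|
      ≤ M ^ (2 * k + 3) * (κ * ‖(1 : A)‖ * C' * Nw w a ^ (2 * k + 3)) := by
    refine TS_bound fun q hq => ?_
    obtain ⟨l, d, h1, h2, h3⟩ := nrm_red hτ a hM k n2 q hq
    rw [h3, abs_mul, sgn, abs_neg_one_zpow, one_mul, val, List.length_append, h1]
    exact Pr_bound hκ hτ' g a _ hw hC' fun X hX => H2 l d X h1 h2 hX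
  have hp : (0 : ℝ) < M ^ (2 * k + 3) := by positivity
  rw [a2] at a1
  have a4 := abs_sub_abs_le_abs_sub (M ^ (2 * k + 3) * (c * trC τ g (a ^ (2 * k + 3))))
    (tot τ g a M (2 * k + 3) (del (Mon (List.replicate (k + 1) K'))))
  rw [abs_sub_comm, abs_mul, abs_of_pos hp] at a4
  rw [div_mul_eq_mul_div, ← sub_le_iff_le_add', le_div_iff₀ hp]
  linarith

end Vale.Agent.P184
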