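import Vale.Agent.P184.TK

/-! The trace estimate for a normalised kernel. -/

namespace Vale.Agent.P184

set_option linter.unusedSectionVars false

open Finset

variable {G : Type*} [Group G] {M : ℕ} {g : G} {ℓ : G → ℝ} {T : ℝ} {Bl : Finset G}

def AdmW {n : ℕ} (K : ℕ) (Ω : Fin n → Fin n → ℝ) (w : Fin n → ℝ) (θ : ℝ) : Prop :=
  Adm K Ω (fun i => θ * w i) (K * θ)

lemma AdmW.add {n K : ℕ} {Ω Ω' : Fin n → Fin n → ℝ} {w : Fin n → ℝ} {θ θ' : ℝ}
    (h : AdmW K Ω w θ) (h' : AdmW K Ω' w θ') : AdmW K (fun i j => Ω i j + Ω' i j) w (θ + θ') :=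
  (Adm.add h h').mono (fun i => le_of_eq (by ring)) (le_of_eq (by ring))

lemma AdmW.mono {n K : ℕ} {Ω : Fin n → Fin n → ℝ} {w : Fin n → ℝ} {θ θ' : ℝ}
    (h : AdmW K Ω w θ) (hw : ∀ i, 0 ≤ w i) (h' : θ ≤ θ') : AdmW K Ω w θ' :=
  Adm.mono h (fun i => by have := hw i; gcongr) (by gcongr)

lemma admW_sum {n K : ℕ} {ι : Type*} (s : Finset ι) {Ω : ι → Fin n → Fin n → ℝ} {w : Fin n → ℝ}
    {θ : ι → ℝ} (h : ∀ a ∈ s, AdmW K (Ω a) w (θ a)) :
    AdmW K (fun i j => ∑ a ∈ s, Ω a i j) w (∑ a ∈ s, θ a) :=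
  (adm_sum s h).mono (fun i => le_of_eq (by rw [sum_mul])) (le_of_eq (by rw [mul_sum]))

lemma adm_rank {n : ℕ} (K : ℕ) (u v w : Fin n → ℝ) {A θ : ℝ} (hA : 0 < A) (hθ : 0 < θ)
    (hu : ∀ i, u i ^ 2 ≤ A ^ 2 * w i) (hv : ∀ i, v i ^ 2 ≤ A ^ 2 * w i) (h : A ^ 4 ≤ K * θ ^ 4) :
    Adm K (fun i j => 1 / 2 * (u i * v j - u j * v i)) (fun i => 2 * θ * w i) (K * θ ^ 2) := by
  have := adm_hs K (univ : Finset Unit) (univ : Finset Unit) (fun _ => u) (fun _ => v) (fun _ => v)
    1 (b := A ^ 2) (b' := A ^ 2) (by positivity) (by positivity) hθ w (fun _ => 1) (by simp)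
    (by simpa using hu) (by simpa using hv) (by simp) (by simpa [← pow_add] using h)
  simpa using this

lemma sum_pk_le {n : ℕ} {ν : Fin n → ℤ} (h : Function.Injective ν) (a : ℤ) :
    ∑ j, |pk a (ν j)| ≤ 2 := by
  have key : ∀ b : ℤ, ∑ j, (if ν j = b then (1 : ℝ) else 0) ≤ 1 := by
    intro b
    rw [sum_boole]
    exact_mod_cast card_le_one.2 fun i hi j hj => h (by
      rw [(mem_filter.1 hi).2, (mem_filter.1 hj).2])
  refine (sum_le_sum (g := fun j => (if ν j = a + 1 then (1 : ℝ) else 0)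
    + if ν j = a - 1 then 1 else 0) fun j _ => ?_).trans ?_
  · unfold pk; split_ifs <;> first | omega | norm_num
  · rw [sum_add_distrib]; linarith [key (a + 1), key (a - 1)]

variable {t : (ℤ → G) → (ℤ → G) → ℝ} {A B θ : ℝ}

noncomputable def F2 (M : ℕ) (T : ℝ) (t : (ℤ → G) → (ℤ → G) → ℝ) (z : ℤ → G) : ℝ :=
  1 / max (t z (sh z) / M) (T / 10)

noncomputable def F1 (M : ℕ) (T : ℝ) (t : (ℤ → G) → (ℤ → G) → ℝ) (z : ℤ → G) : ℝ :=
  1 - F2 M T t z * (t z (sh z) / M)

lemma F2_le (hT : 0 < T) (z : ℤ → G) : |F2 M T t z| ≤ 10 / T := by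
  have : 0 < max (t z (sh z) / M) (T / 10) := lt_max_of_lt_right (by positivity)
  rw [F2, abs_of_pos (by positivity), div_le_div_iff₀ this hT]
  linarith [le_max_right (t z (sh z) / M) (T / 10)]

lemma F1_eq (hT : 0 < T) (z : ℤ → G) : F1 M T t z = max (1 - 10 / T * (t z (sh z) / M)) 0 := by
  rw [F1, F2]
  generalize t z (sh z) / M = x
  rcases le_total x (T / 10) with h | h
  · rw [max_eq_right h, max_eq_left, one_div_div]
    rw [sub_nonneg, div_mul_eq_mul_div, div_le_one hT]; linarith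
  · rw [max_eq_left h, max_eq_right, one_div_mul_cancel (by linarith), sub_self]
    rw [sub_nonpos, div_mul_eq_mul_div, one_le_div hT]; linarith

lemma F1_lip (hT : 10 ≤ T) (z z' : ℤ → G) :
    |F1 M T t z' - F1 M T t z| ≤ |t z' (sh z') - t z (sh z)| / M := by
  rw [F1_eq (by linarith), F1_eq (by linarith)]
  refine (abs_max_sub_max_le_abs _ _ _).trans ?_
  rw [show 1 - 10 / T * (t z' (sh z') / M) - (1 - 10 / T * (t z (sh z) / M))
    = -(10 / T) * ((t z' (sh z') - t z (sh z)) / M) by ring, abs_mul, abs_neg, abs_div _ (M : ℝ),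
    Nat.abs_cast, abs_of_pos (by have : 0 < T := by linarith
                                 positivity)]
  exact mul_le_of_le_one_left (by positivity) ((div_le_one (by linarith)).2 hT)

lemma F2_lip (hT : 10 ≤ T) (z z' : ℤ → G) :
    |F2 M T t z' - F2 M T t z| ≤ |t z' (sh z') - t z (sh z)| / M := by
  have a := abs_max_sub_max_le_abs (t z (sh z) / M) (t z' (sh z') / M) (T / 10)
  have b : 1 ≤ max (t z (sh z) / M) (T / 10) := le_max_of_le_right (by linarith)
  have c : 1 ≤ max (t z' (sh z') / M) (T / 10) := le_max_of_le_right (by linarith)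
  rw [← sub_div, abs_div, Nat.abs_cast, abs_sub_comm (t z _)] at a
  rw [F2, F2, div_sub_div _ _ (by linarith) (by linarith), one_mul, mul_one, abs_div]
  refine (div_le_self (abs_nonneg _) ?_).trans a
  rw [abs_of_pos (by positivity)]; exact one_le_mul_of_one_le_of_one_le c b

lemma TK.dat (h : TK g M ℓ t A B) (hM : 0 < M) (hT : 0 < T) :
    Dat g M (fun z z' => t z z' / M ^ 2) (F1 M T t) (F2 M T t) where
  anti z z' := by rw [h.anti]; ring
  bdd := by
    obtain ⟨κ, hκ⟩ := h.bdd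
    have k0 := (abs_nonneg _).trans (hκ 1 1)
    have k1 : 0 ≤ 10 / T := by positivity
    have k2 : 0 ≤ 10 / T * κ := by positivity
    have hM' : (1 : ℝ) ≤ M := by exact_mod_cast hM
    refine ⟨κ + 10 / T + (1 + 10 / T * κ), fun z z' => ⟨?_, ?_, (F2_le hT z).trans (by linarith)⟩⟩
    · rw [abs_div, abs_of_pos (by positivity : (0 : ℝ) < M ^ 2)]
      exact (div_le_self (abs_nonneg _) (one_le_pow₀ hM')).trans ((hκ z z').trans (by linarith))
    · refine (abs_sub _ _).trans ?_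
      have : |F2 M T t z * (t z (sh z) / M)| ≤ 10 / T * κ := by
        rw [abs_mul, abs_div _ (M : ℝ), Nat.abs_cast]
        exact mul_le_mul (F2_le hT z) ((div_le_self (abs_nonneg _) hM').trans (hκ _ _))
          (by positivity) k1
      rw [abs_one]; linarith
  zinv c hc z z' := by
    have : t (fun s => c * z s) (sh fun s => c * z s) = t z (sh z) := h.zinv c hc z (sh z)
    simp only [F1, F2, this, h.zinv c hc, and_self]
  shift z z' a b := by simp only [F1, F2, h.shift _ _ a b, h.shift _ _ a a.sh, and_self]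
  one z _ := by rw [F1]; field_simp; ring

/-- The hypotheses of the estimate. -/
structure EstH (g : G) (M : ℕ) (ℓ : G → ℝ) (T : ℝ) (t : (ℤ → G) → (ℤ → G) → ℝ) (k : ℕ)
    (A B θ : ℝ) : Prop where
  tk : TK g M ℓ t A (B / M)
  hT : 10 ≤ T
  hA : 5 ≤ A
  hB : 0 ≤ B
  θ0 : 0 < θ
  θ1 : θ ≤ 1
  den : ∀ z, Tw g M z → Dz ℓ M z (sh z) ≤ (2 * k + 3) * T →
    T / 10 * (1 - θ * Dz ℓ M z (sh z) / (2 * k + 2)) ≤ t z (sh z) / M
  adm : ∀ Z : ℕ → ℤ → G, (∀ i, Tw g M (Z i)) → (∀ i < 2 * k + 2, Dz ℓ M (Z i) (Z (i + 1)) ≤ T) →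
    ∀ f, |f| ≤ 10 / T → AdmW (k + 1)
      (fun i j : Fin (2 * k + 2) => f * d2 (fun i j => t (Z i) (Z j)) i j)
      (fun i => (1 + Dz ℓ M (Z i) (Z (i + 1))) ^ 2) θ
  rank : A ^ 4 ≤ (k + 1 : ℕ) * θ ^ 4
  err : (2 * k + 2) * (4 * A ^ 2 * ((2 * k + 3) * T) ^ 2 + 16 * B * ((2 * k + 3) * T) ^ 2
    + (2 * k + 2) * A * ((2 * k + 3) * T) + 2 * (2 * k + 2) * A ^ 2 * ((2 * k + 3) * T) ^ 3)
    ≤ θ * M

lemma EstH.admK {k : ℕ} (H : EstH g M ℓ T t k A B θ) (hl : Len ℓ T Bl) (hM : 0 < M) {X : ℤ → G}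
    {l : List ℤ} {d : ℤ} (hl' : l.length = 2 * k + 2) (hn : Nrm M l d)
    (hX : Tw g (l ++ [d]).length X) :
    Adm (k + 1) (fun i j : Fin (2 * k + 2) => M ^ 2 * d2 (fun i j =>
      Kp M (fun z z' => t z z' / M ^ 2) (F1 M T t) (F2 M T t)
        (pt M X (vtx i (l ++ [d]))) (pt M X (vtx j (l ++ [d])))) i j)
      (fun i => 6 * θ * ((1 + lj ℓ M X (l ++ [d]) i) ^ 2 *
        (1 + (∑ r ∈ range (2 * k + 3), lj ℓ M X (l ++ [d]) r) / (2 * k + 2)))) (3 * (k + 1)) := by
  set q := l ++ [d] with hq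
  have hql : q.length = 2 * k + 3 := by simp [hq, hl']
  have hT := H.hT; have hA := H.hA; have hB := H.hB; have θ0 := H.θ0; have θ1 := H.θ1
  have hM' : (0 : ℝ) < M := by positivity
  set Z := zz M X q with hZ
  have tw := tw_zz hM hX
  set R : ℝ := (2 * k + 3) * T with hR
  have RT : T ≤ R := by have : (0 : ℝ) ≤ k := k.cast_nonneg; nlinarith
  have R0 : 0 ≤ R := by linarith
  have st : ∀ r < 2 * k + 3, Dz ℓ M (Z r) (Z (r + 1)) = lj ℓ M X q r := fun r hr =>
    hl.Dz_zz hM hX (by omega)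
  have l0 : ∀ r, 0 ≤ lj ℓ M X q r := fun r => hl.nonneg _
  have l1 : ∀ r, lj ℓ M X q r ≤ T := fun r => hl.le _
  set L := ∑ r ∈ range (2 * k + 3), lj ℓ M X q r with hL
  have L0 : 0 ≤ L := sum_nonneg fun r _ => l0 r
  have LR : L ≤ R := (sum_le_sum fun r _ => l1 r).trans (by simp [hR])
  have dL : ∀ i j, i ≤ j → j ≤ 2 * k + 3 → Dz ℓ M (Z i) (Z j) ≤ L := fun i j hij hj =>
    (hl.Dz_steps Z hij).trans ((sum_congr rfl fun r hr => st r (by
      have := mem_Ico.1 hr; omega)).trans_le (sum_le_sum_of_subset_of_nonneg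
        (fun r hr => mem_range.2 (by have := mem_Ico.1 hr; omega)) fun r _ _ => l0 r))
  have last : Z (2 * k + 3) = sh (Z 0) := by rw [← hql]; exact zz_last X q
  have sL : ∀ i ≤ 2 * k + 3, Dz ℓ M (Z i) (sh (Z i)) ≤ 2 * R := fun i hi => by
    have a := hl.Dz_tri (M := M) (Z i) (sh (Z 0)) (sh (Z i))
    rw [Dz_sh (tw 0) (tw i)] at a
    have b := dL i _ hi le_rfl
    rw [last] at b
    linarith [dL 0 i (by omega) hi]
  have q2 : ∀ i j, |t (Z j) (sh (Z j)) - t (Z i) (sh (Z i))| / M ≤ A * Dz ℓ M (Z i) (Z j) / M :=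
    fun i j => by gcongr; exact H.tk.q2 _ _ (tw i) (tw j)
  have q2' : ∀ i j, i ≤ j → j ≤ 2 * k + 3 →
      |t (Z j) (sh (Z j)) - t (Z i) (sh (Z i))| / M ≤ A * R / M := fun i j a b =>
    (q2 i j).trans (by gcongr; exact (dL i j a b).trans LR)
  have e2 : ∀ i j, d2 (fun i j => t (Z i) (Z j) / M ^ 2) i j
      = d2 (fun i j => t (Z i) (Z j)) i j / M ^ 2 := fun i j => by unfold d2; ring
  have E := fun i j hi hj => (H.tk.dat hM (T := T) (by linarith)).d2_Kp hM hn hX (φ := 1)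
    (δ1 := A * R / M) (δ2 := A * R / M / M) (ε := B / M * (4 * R * R) / M ^ 2) (c1 := A * R / M)
    (c2 := A * R / M) (c3 := A * (R * R) / M ^ 2)
    (fun z => (F2_le (by linarith) z).trans ((div_le_one (by linarith)).2 hT))
    (fun i j hij hj => ⟨by
      rw [abs_sub_comm]; exact (F2_lip hT _ _).trans (q2' i j hij.le (by rw [← hql]; exact hj.le)),
      by
      rw [abs_sub_comm, ← sub_div, abs_div, abs_of_pos (by positivity : (0 : ℝ) < M ^ 2), sq,
        ← div_div]
      exact div_le_div_of_nonneg_right (q2' i j hij.le (by rw [← hql]; exact hj.le)) hM'.le, by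
      rw [← add_div, ← mul_div_assoc, ← sub_div, ← sub_div, abs_div,
        abs_of_pos (by positivity : (0 : ℝ) < M ^ 2)]
      gcongr
      refine (H.tk.q3 _ _ (tw i) (tw j)).trans ?_
      have a := (dL i j hij.le (by rw [← hql]; exact hj.le)).trans LR
      have b := sL i (by rw [← hql]; exact (hij.trans hj).le)
      have c := hl.Dz_nonneg (M := M) (Z i) (Z j)
      gcongr
      linarith⟩)
    (by positivity)
    (fun i hi => (F1_lip hT _ _).trans (q2' i (i + 1) (by omega) (by omega)))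
    (fun i hi => (F2_lip hT _ _).trans (q2' i (i + 1) (by omega) (by omega)))
    (fun i hi j hj => by
      rw [← hq, ← hZ, e2, abs_div, abs_of_pos (by positivity : (0 : ℝ) < M ^ 2)]
      gcongr
      refine (H.tk.q4 _ _ _ _ (tw i) (tw _) (tw j) (tw _)).trans ?_
      have a := (dL i (i + 1) (by omega) (by omega)).trans LR
      have b := (dL j (j + 1) (by omega) (by omega)).trans LR
      have c := hl.Dz_nonneg (M := M) (Z j) (Z (j + 1))
      gcongr) (i := i) (j := j) hi hj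
  simp only [← hq, ← hZ, hl', e2] at E
  set w : Fin (2 * k + 2) → ℝ := fun i => (1 + lj ℓ M X q i) ^ 2 with hw
  have w1 : ∀ i, 1 ≤ w i := fun i => one_le_pow₀ (by linarith [l0 i])
  have sqb : ∀ (x : ℝ) (i : Fin (2 * k + 2)), |x| ≤ A * (1 + lj ℓ M X q i) → x ^ 2 ≤ A ^ 2 * w i :=
    fun x i h => by
      rw [hw, ← mul_pow, ← sq_abs]; exact pow_le_pow_left₀ (abs_nonneg _) h 2
  have stp : ∀ (F : (ℤ → G) → ℝ), (∀ z z', |F z' - F z| ≤ |t z' (sh z') - t z (sh z)| / M) →
      ∀ i : Fin (2 * k + 2), (M * (F (Z (i + 1)) - F (Z i))) ^ 2 ≤ A ^ 2 * w i := by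
    intro F hF i
    refine sqb _ _ ?_
    have := (hF _ _).trans (q2 i (i + 1))
    rw [st i (by omega), le_div_iff₀ hM'] at this
    rw [abs_mul, Nat.abs_cast]; nlinarith
  have n0 : (0 : ℝ) < 2 * k + 2 := by positivity
  have f1b : |F1 M T t (Z 0)| ≤ θ * L / (2 * k + 2) := by
    have a := dL 0 _ (by omega) le_rfl
    rw [last] at a
    have b := H.den _ (tw 0) (a.trans LR)
    have c : θ * Dz ℓ M (Z 0) (sh (Z 0)) / (2 * k + 2) ≤ θ * L / (2 * k + 2) := by gcongr
    rw [F1_eq (by linarith), abs_of_nonneg (le_max_right _ _)]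
    refine max_le ?_ (by positivity)
    have e := mul_le_mul_of_nonneg_left b (by positivity : 0 ≤ 10 / T)
    rw [← mul_assoc, show 10 / T * (T / 10) = 1 by field_simp] at e
    linarith
  have inj : Function.Injective fun i : Fin (2 * k + 2) => nu M i q := fun i j h =>
    Fin.ext (nu_inj (hn.win hM) (by rw [← hq]; omega) (by rw [← hq]; omega) h)
  have a1 := adm_band (k + 1) (Ω := fun i j : Fin (2 * k + 2) =>
      F1 M T t (Z 0) * (pk (nu M i q) (nu M j q) / 2)) (ρ := θ * L / (2 * k + 2)) (by positivity)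
    (fun i => by
      simp only [abs_mul, abs_div, abs_two, ← mul_sum, ← sum_div]
      have := sum_pk_le inj (nu M i q)
      exact (mul_le_mul f1b (by linarith : _ ≤ (1 : ℝ)) (by positivity) (by positivity)).trans
        (by rw [mul_one]))
    (fun j => by
      simp only [abs_mul, abs_div, abs_two, ← mul_sum, ← sum_div, pk_anti _ (nu M j q), abs_neg]
      have := sum_pk_le inj (nu M j q)
      exact (mul_le_mul f1b (by linarith : _ ≤ (1 : ℝ)) (by positivity) (by positivity)).trans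
        (by rw [mul_one]))
  have a2 := adm_rank (k + 1) (fun i : Fin (2 * k + 2) => M * (F1 M T t (Z (i + 1)) - F1 M T t (Z i)))
    (fun i => M * Uk M (pt M X (vtx i q)) (pt M X (vtx (i + 1) q))) w (by linarith) θ0
    (stp _ (F1_lip hT)) (fun i => sqb _ _ (by
      have := Uk_step hM hX (j := i) (by omega)
      rw [le_div_iff₀ hM'] at this
      rw [abs_mul, Nat.abs_cast]; nlinarith [l0 i])) H.rank
  have a3 := adm_rank (k + 1) (fun i : Fin (2 * k + 2) => M * (F2 M T t (Z (i + 1)) - F2 M T t (Z i)))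
    (fun i => t (Z i) (Z (i + 1)) / M) w (by linarith) θ0
    (stp _ (F2_lip hT)) (fun i => sqb _ _ (by
      have := H.tk.q1 _ _ (tw i) (tw (i + 1))
      rw [← hZ, st i (by omega)] at this
      rw [abs_div, Nat.abs_cast, div_le_iff₀ hM']; nlinarith [l0 i])) H.rank
  have a4 := H.adm Z tw (fun i hi => by rw [st i (by omega)]; exact l1 i) (F2 M T t (Z 0))
    (F2_le (by linarith) _)
  set Ω : Fin (2 * k + 2) → Fin (2 * k + 2) → ℝ := fun i j => M ^ 2 * d2 (fun i j =>
      Kp M (fun z z' => t z z' / M ^ 2) (F1 M T t) (F2 M T t)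
        (pt M X (vtx i q)) (pt M X (vtx j q))) i j
  set Ω' : Fin (2 * k + 2) → Fin (2 * k + 2) → ℝ := fun i j =>
    F1 M T t (Z 0) * (pk (nu M i q) (nu M j q) / 2) + 1 / 2 *
      (M * (F1 M T t (Z (i + 1)) - F1 M T t (Z i)) * (M * Uk M (pt M X (vtx j q)) (pt M X (vtx (j + 1) q)))
      - M * (F1 M T t (Z (j + 1)) - F1 M T t (Z j)) * (M * Uk M (pt M X (vtx i q)) (pt M X (vtx (i + 1) q))))
    + 1 / 2 * (M * (F2 M T t (Z (i + 1)) - F2 M T t (Z i)) * (t (Z j) (Z (j + 1)) / M)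
      - M * (F2 M T t (Z (j + 1)) - F2 M T t (Z j)) * (t (Z i) (Z (i + 1)) / M))
    + F2 M T t (Z 0) * d2 (fun i j => t (Z i) (Z j)) i j
  have er : ∀ i j, |Ω i j - Ω' i j| ≤ θ / (2 * k + 2) := by
    intro i j
    have a := mul_le_mul_of_nonneg_left (E i j i.2 j.2) (by positivity : (0 : ℝ) ≤ M ^ 2)
    rw [← abs_of_pos (by positivity : (0 : ℝ) < M ^ 2), ← abs_mul, abs_of_pos
      (by positivity : (0 : ℝ) < M ^ 2)] at a
    refine le_trans (le_of_eq ?_) (a.trans ?_)
    · congr 1; simp only [Ω, Ω']; field_simp; ring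
    · have b := H.err
      rw [← hR] at b
      rw [le_div_iff₀ n0, ← mul_le_mul_iff_left₀ hM']
      refine le_trans (le_of_eq ?_) b
      push_cast; field_simp; ring
  have sb : ∑ _i : Fin (2 * k + 2), θ / (2 * k + 2) ≤ θ := by
    simp only [sum_const, card_univ, Fintype.card_fin, nsmul_eq_mul]
    push_cast; rw [mul_div_cancel₀ _ n0.ne']
  have a5 := adm_band (k + 1) (Ω := fun i j => Ω i j - Ω' i j) θ0.le
    (fun i => (sum_le_sum fun j _ => er i j).trans sb) fun j => (sum_le_sum fun i _ => er i j).trans sb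
  have a6 := (((a1.add a2).add a3).add a4).add a5
  refine Adm.mono (by convert a6 using 3; simp only [Ω']; ring) (fun i => ?_) ?_
  · beta_reduce
    rw [st i (by omega)]
    have b1 := w1 i
    have b2 : 0 ≤ L / (2 * k + 2) := by positivity
    simp only [hw] at b1 ⊢
    rw [mul_div_assoc]
    generalize (1 + lj ℓ M X q i) ^ 2 = x at *
    generalize L / (2 * k + 2) = y at *
    nlinarith [mul_nonneg θ0.le (mul_nonneg b2 (sub_nonneg.2 b1)), mul_nonneg θ0.le b2,
      mul_nonneg θ0.le (sub_nonneg.2 b1)]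
  · have : θ ^ 2 ≤ 1 := pow_le_one₀ θ0.le θ1
    have : (0 : ℝ) ≤ k := k.cast_nonneg
    push_cast; nlinarith

theorem EstH.trace {k : ℕ} (H : EstH g M ℓ T t k A B θ) (hl : Len ℓ T Bl) (hM : 0 < M)
    {R : Type*} [NormedRing R] {τ : R →+ ℝ} {κ : ℝ} (hκ : 0 ≤ κ) (hτ' : ∀ x, |τ x| ≤ κ * ‖x‖)
    (hτ : ∀ x y, τ (x * y) = τ (y * x)) :
    ∃ C, ∀ a : MonoidAlgebra R G, |trC τ g (a ^ (2 * k + 3))|
      ≤ κ * ‖(1 : R)‖ * (14 * Real.exp 3 * θ) ^ (k + 1) *
          Nw (fun s => Real.exp (2 * ℓ s)) a ^ (2 * k + 3)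
        + C * (Nw (fun _ => 1) (a * a - a) * Nw (fun _ => 1) a ^ (2 * k + 1)) := by
  have θ0 := H.θ0
  have hM' : (0 : ℝ) < M := by positivity
  have hK := (H.tk.dat hM (T := T) (by linarith [H.hT])).natK hM
  set c : ℝ := (k + 1).factorial / M ^ (2 * k + 2) with hc
  have c0 : 0 < c := by positivity
  obtain ⟨C, hC⟩ := trace_est hκ hτ' hτ hM k (natK_Uk hM) hK (c := c)
    (C' := c * (14 * Real.exp 3 * θ) ^ (k + 1)) (by positivity)
    (w := fun s => Real.exp (2 * ℓ s)) (fun _ => (Real.exp_pos _).le)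
    (fun l d X a b e => univ_value hM k l d X a b e) fun l d X a b e => by
      have hql : (l ++ [d]).length = 2 * k + 3 := by simp [a]
      have e' : Tw g (l ++ [d]).length X := by rwa [hql]
      have h1 := (H.admK hl hM a b e').pf_le (k := k + 1) (fun i j => by
        rw [d2_anti fun _ _ => hK.anti _ _]; ring) θ0
      have h2 := prod_incr (ℓ := ℓ) hM b e' 2
      rw [hql] at h2
      erw [Mon_rep_mul] at h1
      rw [sel_eq _ hK.anti, h2]
      set L := ∑ r ∈ range (2 * k + 3), lj ℓ M X (l ++ [d]) r with hL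
      have l0 : ∀ r, 0 ≤ lj ℓ M X (l ++ [d]) r := fun r => hl.nonneg _
      have L0 : 0 ≤ L := sum_nonneg fun r _ => l0 r
      have h3 : ∏ i : Fin (2 * (k + 1)), √(6 * θ * ((1 + lj ℓ M X (l ++ [d]) i) ^ 2 *
          (1 + L / (2 * k + 2))) + θ) ≤ (7 * θ) ^ (k + 1) * Real.exp (2 * L) := by
        refine (prod_le_prod (g := fun i : Fin (2 * (k + 1)) => √(7 * θ) *
          Real.exp (lj ℓ M X (l ++ [d]) i + L / (2 * k + 2))) (fun _ _ => Real.sqrt_nonneg _)
          fun i _ => ?_).trans ?_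
        · rw [Real.sqrt_le_left (by positivity), mul_pow, Real.sq_sqrt (by positivity),
            Real.exp_add, mul_pow]
          have b1 := Real.add_one_le_exp (lj ℓ M X (l ++ [d]) i)
          have b2 := Real.add_one_le_exp (L / (2 * k + 2))
          have b3 : 0 ≤ L / (2 * k + 2) := by positivity
          have b4 := l0 i
          generalize lj ℓ M X (l ++ [d]) i = x at *
          generalize L / (2 * k + 2) = y at *
          have b5 : (1 + x) ^ 2 * (1 + y) ≤ Real.exp x ^ 2 * Real.exp y ^ 2 := by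
            gcongr
            · linarith
            · nlinarith
          have b6 : 1 ≤ (1 + x) ^ 2 * (1 + y) :=
            one_le_mul_of_one_le_of_one_le (one_le_pow₀ (by linarith)) (by linarith)
          nlinarith
        · rw [prod_mul_distrib, prod_const, card_univ, Fintype.card_fin, pow_mul,
            Real.sq_sqrt (by positivity), ← Real.exp_sum, sum_add_distrib, sum_const, card_univ,
            Fintype.card_fin, nsmul_eq_mul,
            Fin.sum_univ_eq_sum_range (fun i => lj ℓ M X (l ++ [d]) i)]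
          gcongr
          have : ∑ r ∈ range (2 * (k + 1)), lj ℓ M X (l ++ [d]) r ≤ L :=
            sum_le_sum_of_subset_of_nonneg (range_subset_range.2 (by omega)) fun r _ _ => l0 r
          have e : ((2 * (k + 1) : ℕ) : ℝ) * (L / (2 * k + 2)) = L := by push_cast; field_simp
          linarith
      have h4 := h1.trans (mul_le_mul_of_nonneg_left h3 (by positivity))
      beta_reduce at h4
      rw [abs_mul, abs_of_pos (by positivity), ← le_div_iff₀' (by positivity)] at h4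
      refine h4.trans (le_of_eq ?_)
      rw [hc, show (3 * (k + 1) : ℝ) = (k + 1 : ℕ) * 3 by push_cast; ring, Real.exp_nat_mul,
        ← pow_mul, show (14 : ℝ) * Real.exp 3 * θ = 2 * Real.exp 3 * (7 * θ) by ring,
        mul_pow _ (7 * θ), mul_pow 2, show 2 * (k + 1) = 2 * k + 2 by ring]
      field_simp
  refine ⟨C / c, fun a => ?_⟩
  have := hC a
  rw [abs_mul, abs_of_pos c0, ← le_div_iff₀' c0] at this
  refine this.trans (le_of_eq ?_)
  field_simp

end Vale.Agent.P184
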