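import Mathlib

/-! Exterior calculus for cochains on lists. -/

namespace Vale.Agent.P184

variable {X Y : Type*}

def ex : List X → (X → List X → ℝ) → ℝ
  | [], _ => 0
  | x :: l, H => H x l - ex l (fun y l' => H y (x :: l'))

/-- Alternating sum over the removal of one entry. -/
def E (H : X → List X → ℝ) (l : List X) : ℝ := ex l H

@[simp] lemma E_nil (H : X → List X → ℝ) : E H [] = 0 := rfl

lemma E_cons (H : X → List X → ℝ) (x : X) (l : List X) :
    E H (x :: l) = H x l - E (fun y l' => H y (x :: l')) l := rfl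

lemma E_congr {H H' : X → List X → ℝ} {l : List X}
    (h : ∀ y l', (y :: l').Perm l → H y l' = H' y l') : E H l = E H' l := by
  induction l generalizing H H' with
  | nil => rfl
  | cons x l ih =>
    rw [E_cons, E_cons, h x l (List.Perm.refl _), ih]
    intro y l' hp
    exact h y (x :: l') ((List.Perm.swap x y l').trans (hp.cons x))

lemma E_add (H H' : X → List X → ℝ) (l : List X) :
    E (fun y l' => H y l' + H' y l') l = E H l + E H' l := by
  induction l generalizing H H' with
  | nil => simp
  | cons x l ih => rw [E_cons, E_cons, E_cons, ih]; ring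

lemma E_mul (c : ℝ) (H : X → List X → ℝ) (l : List X) :
    E (fun y l' => c * H y l') l = c * E H l := by
  induction l generalizing H with
  | nil => simp
  | cons x l ih => rw [E_cons, E_cons, ih]; ring

lemma E_sub (H H' : X → List X → ℝ) (l : List X) :
    E (fun y l' => H y l' - H' y l') l = E H l - E H' l := by
  induction l generalizing H H' with
  | nil => simp
  | cons x l ih => rw [E_cons, E_cons, E_cons, ih]; ring

lemma E_neg (H : X → List X → ℝ) (l : List X) :
    E (fun y l' => - H y l') l = - E H l := by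
  induction l generalizing H with
  | nil => simp
  | cons x l ih => rw [E_cons, E_cons, ih]; ring

lemma E_zero (l : List X) : E (fun (_ : X) (_ : List X) => (0 : ℝ)) l = 0 := by
  induction l with
  | nil => simp
  | cons x l ih => rw [E_cons, ih]; ring

lemma E_lsum {ι : Type*} (s : List ι) (H : ι → X → List X → ℝ) (l : List X) :
    E (fun y l' => (s.map fun i => H i y l').sum) l = (s.map fun i => E (H i) l).sum := by
  induction s with
  | nil => simp [E_zero]
  | cons a s ih => simp only [List.map_cons, List.sum_cons]; rw [E_add, ih]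

lemma E_swap (H : X → X → List X → ℝ) (l : List X) :
    E (fun x => E (fun y => H x y)) l = - E (fun x => E (fun y => H y x)) l := by
  induction l generalizing H with
  | nil => simp
  | cons z l ih =>
    rw [E_cons, E_cons]
    simp only [E_cons]
    rw [E_sub, E_sub]
    have := ih (fun x y l' => H x y (z :: l'))
    linarith

lemma E_map (ψ : Y → X) (H : X → List X → ℝ) (l : List Y) :
    E H (l.map ψ) = E (fun y l' => H (ψ y) (l'.map ψ)) l := by
  induction l generalizing H with
  | nil => simp
  | cons x l ih => rw [List.map_cons, E_cons, E_cons, ih]; rfl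

lemma E_bound {H : X → List X → ℝ} {l : List X} {C : ℝ}
    (h : ∀ y l', (y :: l').Perm l → |H y l'| ≤ C) : |E H l| ≤ l.length * C := by
  induction l generalizing H with
  | nil => simp
  | cons x l ih =>
    rw [E_cons]
    have h1 := h x l (List.Perm.refl _)
    have h2 := @ih (fun y l' => H y (x :: l'))
      (fun y l' hp => h y (x :: l') ((List.Perm.swap x y l').trans (hp.cons x)))
    have h3 := abs_sub (H x l) (E (fun y l' => H y (x :: l')) l)
    simp only [List.length_cons]; push_cast; linarith

/-- Alternating cochains. -/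
def Alt (F : List X → ℝ) : Prop :=
  ∀ l1 x y l2, F (l1 ++ x :: y :: l2) = - F (l1 ++ y :: x :: l2)

lemma Alt.cons {F : List X → ℝ} (h : Alt F) (w : X) : Alt (fun l => F (w :: l)) :=
  fun l1 x y l2 => h (w :: l1) x y l2

lemma Alt.mul {F : List X → ℝ} (h : Alt F) (c : ℝ) : Alt (fun l => c * F l) := by
  intro l1 x y l2; simp only; rw [h]; ring

lemma alt_E {H : X → List X → ℝ} (h : ∀ y, Alt (H y)) : Alt (E H) := by
  intro l1 x y l2
  induction l1 generalizing H with
  | nil =>
    simp only [List.nil_append, E_cons]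
    have : E (fun z l' => H z (x :: y :: l')) l2 = - E (fun z l' => H z (y :: x :: l')) l2 := by
      rw [← E_neg]; exact E_congr fun z l' _ => h z [] x y l'
    rw [this]; ring
  | cons w l1 ih =>
    simp only [List.cons_append, E_cons]
    rw [h w l1 x y l2, ih (fun z => (h z).cons w)]; ring

lemma Alt.move {F : List X → ℝ} (h : Alt F) (l1 : List X) (x : X) (l2 : List X) :
    F (l1 ++ x :: l2) = (-1) ^ l1.length * F (x :: (l1 ++ l2)) := by
  induction l1 generalizing F with
  | nil => simp
  | cons w l1 ih =>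
    have := ih (h.cons w)
    have h2 := h [] w x (l1 ++ l2)
    simp only [List.nil_append] at h2
    simp only [List.cons_append, List.length_cons]
    rw [this, h2]; ring

lemma Alt.rot {F : List X → ℝ} (h : Alt F) (l : List X) (x : X) :
    F (l ++ [x]) = (-1) ^ l.length * F (x :: l) := by
  simpa using h.move l x []

lemma Alt.dup {F : List X → ℝ} (h : Alt F) {l : List X} {x : X} (hx : x ∈ l) :
    F (x :: l) = 0 := by
  obtain ⟨l1, l2, rfl⟩ := List.append_of_mem hx
  have h1 := (h.cons x).move l1 x l2
  have h2 := h [] x x (l1 ++ l2)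
  simp only [List.nil_append] at h1 h2
  have : F (x :: x :: (l1 ++ l2)) = 0 := by linarith
  rw [h1, this, mul_zero]

lemma euler {F : List X → ℝ} (h : Alt F) (l : List X) :
    E (fun z l' => F (z :: l')) l = l.length * F l := by
  induction l generalizing F with
  | nil => simp
  | cons x l ih =>
    rw [E_cons]
    have : E (fun z l' => F (z :: x :: l')) l = - E (fun z l' => F (x :: z :: l')) l := by
      rw [← E_neg]; exact E_congr fun z l' _ => h [] z x l'
    rw [this, ih (h.cons x)]
    simp only [List.length_cons]; push_cast; ring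

/-- Coboundary. -/
def del (F : List X → ℝ) : List X → ℝ := E (fun _ => F)

/-- Wedge with a one-cochain. -/
def D (c : X → ℝ) (F : List X → ℝ) : List X → ℝ := E (fun y l => c y * F l)

/-- Wedge with a kernel. -/
def W (K : X → X → ℝ) (F : List X → ℝ) : List X → ℝ := E (fun x => D (K x) F)

def one : List X → ℝ
  | [] => 1
  | _ :: _ => 0

/-- Product of kernels. -/
def Mon : List (X → X → ℝ) → List X → ℝ
  | [] => one
  | K :: Ks => W K (Mon Ks)

lemma alt_one : Alt (one : List X → ℝ) := by
  intro l1 x y l2
  cases l1 <;> simp [one]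

lemma alt_del {F : List X → ℝ} (h : Alt F) : Alt (del F) := alt_E fun _ => h
lemma alt_D {F : List X → ℝ} (h : Alt F) (c : X → ℝ) : Alt (D c F) := alt_E fun _ => h.mul _
lemma alt_W {F : List X → ℝ} (h : Alt F) (K : X → X → ℝ) : Alt (W K F) :=
  alt_E fun _ => alt_D h _

lemma alt_Mon (Ks : List (X → X → ℝ)) : Alt (Mon Ks) := by
  induction Ks with
  | nil => exact alt_one
  | cons K Ks ih => exact alt_W ih K

lemma D_E (c : X → ℝ) (H : X → List X → ℝ) :
    D c (E H) = fun l => - E (fun z => D c (H z)) l := by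
  funext l
  unfold D
  have : (fun y l => c y * E H l) = fun y => E (fun z l' => c y * H z l') := by
    funext y l; rw [E_mul]
  rw [this, E_swap]

lemma W_E (K : X → X → ℝ) (H : X → List X → ℝ) :
    W K (E H) = E (fun z => W K (H z)) := by
  funext l
  unfold W
  simp only [D_E]
  rw [E_neg, E_swap, neg_neg]

lemma D_mul (c : X → ℝ) (a : ℝ) (F : List X → ℝ) :
    D c (fun l => a * F l) = fun l => a * D c F l := by
  funext l; unfold D; rw [← E_mul]; exact E_congr fun _ _ _ => by ring

lemma W_mul (K : X → X → ℝ) (a : ℝ) (F : List X → ℝ) :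
    W K (fun l => a * F l) = fun l => a * W K F l := by
  funext l; unfold W; rw [← E_mul]; simp only [D_mul]

lemma D_sub (c : X → ℝ) (F F' : List X → ℝ) :
    D c (fun l => F l - F' l) = fun l => D c F l - D c F' l := by
  funext l; unfold D; rw [← E_sub]; exact E_congr fun _ _ _ => by ring

lemma W_sub (K : X → X → ℝ) (F F' : List X → ℝ) :
    W K (fun l => F l - F' l) = fun l => W K F l - W K F' l := by
  funext l; unfold W; rw [← E_sub]; simp only [D_sub]

lemma W_del (K : X → X → ℝ) (F : List X → ℝ) : W K (del F) = del (W K F) := W_E K _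

lemma W_D (K : X → X → ℝ) (c : X → ℝ) (F : List X → ℝ) : W K (D c F) = D c (W K F) := by
  unfold D; rw [W_E]; simp only [W_mul]

lemma W_W (K K' : X → X → ℝ) (F : List X → ℝ) : W K (W K' F) = W K' (W K F) := by
  conv_lhs => rw [W.eq_1 K' F, W_E]
  simp only [W_D]; rfl

lemma del_del (F : List X → ℝ) : del (del F) = fun _ => 0 := by
  funext l
  have := E_swap (fun (_ _ : X) => F) l
  unfold del; linarith

lemma W_addK (K K' : X → X → ℝ) (F : List X → ℝ) (l : List X) :
    W (fun x y => K x y + K' x y) F l = W K F l + W K' F l := by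
  unfold W D; rw [← E_add]
  refine E_congr fun x l' _ => ?_
  rw [← E_add]; exact E_congr fun _ _ _ => by ring

lemma W_cob (c : X → ℝ) (F : List X → ℝ) (l : List X) :
    W (fun x y => c y - c x) F l = 2 * del (D c F) l := by
  have h1 : W (fun x y => c y - c x) F l
      = E (fun _ => E (fun y l => c y * F l)) l - E (fun x => E (fun _ l => c x * F l)) l := by
    unfold W D; rw [← E_sub]
    refine E_congr fun x l' _ => ?_
    rw [← E_sub]; exact E_congr fun _ _ _ => by ring
  have h2 := E_swap (fun (x _ : X) l => c x * F l) l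
  rw [h1, h2]; unfold del D; ring

lemma del_add (F F' : List X → ℝ) (l : List X) :
    del (fun l => F l + F' l) l = del F l + del F' l := E_add _ _ _

lemma del_mul (a : ℝ) (F : List X → ℝ) (l : List X) :
    del (fun l => a * F l) l = a * del F l := E_mul _ _ _

/-- Gauge invariance. -/
lemma del_Mon_gauge {Ks Ks' : List (X → X → ℝ)}
    (h : List.Forall₂ (fun K K' => ∃ c : X → ℝ, ∀ x y, K' x y = K x y + (c y - c x)) Ks Ks') :
    del (Mon Ks') = del (Mon Ks) := by
  induction h with
  | nil => rfl
  | @cons K K' Ks Ks' h _ ih =>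
    obtain ⟨c, hc⟩ := h
    have hK : K' = fun x y => K x y + (c y - c x) := by funext x y; exact hc x y
    simp only [Mon]
    rw [← W_del, ih, W_del]
    funext l
    have : W K' (Mon Ks) = fun l => W K (Mon Ks) l + 2 * del (D c (Mon Ks)) l := by
      funext l; rw [hK, W_addK, W_cob]
    rw [this, del_add, del_mul, del_del]; ring

lemma Mon_move (l1 : List (X → X → ℝ)) (K : X → X → ℝ) (l2 : List (X → X → ℝ)) :
    Mon (l1 ++ K :: l2) = Mon (K :: (l1 ++ l2)) := by
  induction l1 with
  | nil => rfl
  | cons K' l1 ih => simp only [List.cons_append, Mon] at ih ⊢; rw [ih, W_W]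

lemma W_cons {K : X → X → ℝ} (hK : ∀ x y, K x y = - K y x) (F : List X → ℝ) (x : X)
    (l : List X) : W K F (x :: l) = 2 * D (K x) F l + W K (fun l' => F (x :: l')) l := by
  unfold W
  rw [E_cons]
  have : (fun y l' => D (K y) F (x :: l'))
      = fun y l' => - (K x y * F l') - D (K y) (fun l' => F (x :: l')) l' := by
    funext y l'; unfold D; rw [E_cons, hK y x]; ring
  rw [this, E_sub, E_neg]; unfold D; ring

/-- Expansion along the first entry. -/
lemma Mon_rep_cons {K : X → X → ℝ} (hK : ∀ x y, K x y = - K y x) (k : ℕ) (x : X) (l : List X) :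
    Mon (List.replicate (k + 1) K) (x :: l)
      = 2 * (k + 1) * D (K x) (Mon (List.replicate k K)) l := by
  induction k generalizing l with
  | zero =>
    simp only [List.replicate, Mon]
    rw [W_cons hK]
    have : (fun l' => (one : List X → ℝ) (x :: l')) = fun l => 0 * one l := by
      funext l'; simp [one]
    rw [this, W_mul]; simp
  | succ k ih =>
    rw [List.replicate_succ, Mon, W_cons hK]
    have : (fun l' => Mon (List.replicate (k + 1) K) (x :: l'))
        = fun l => 2 * (k + 1) * D (K x) (Mon (List.replicate k K)) l := funext ih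
    rw [this, W_mul, W_D]
    simp only [List.replicate_succ, Mon]
    push_cast; ring

lemma D_map (ψ : Y → X) (c : X → ℝ) (F : List X → ℝ) (l : List Y) :
    D c F (l.map ψ) = D (fun y => c (ψ y)) (fun l => F (l.map ψ)) l := E_map _ _ _

lemma W_map (ψ : Y → X) (K : X → X → ℝ) (F : List X → ℝ) (l : List Y) :
    W K F (l.map ψ) = W (fun x y => K (ψ x) (ψ y)) (fun l => F (l.map ψ)) l := by
  unfold W; rw [E_map]; simp only [D_map]

lemma del_map (ψ : Y → X) (F : List X → ℝ) (l : List Y) :
    del F (l.map ψ) = del (fun l => F (l.map ψ)) l := E_map _ _ _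

lemma Mon_map (ψ : Y → X) (Ks : List (X → X → ℝ)) :
    (fun l : List Y => Mon Ks (l.map ψ)) = Mon (Ks.map fun K x y => K (ψ x) (ψ y)) := by
  induction Ks with
  | nil => funext l; cases l <;> rfl
  | cons K Ks ih => funext l; simp only [Mon, List.map_cons]; rw [W_map, ih]

lemma W_congr {K K' : X → X → ℝ} {F F' : List X → ℝ} {l : List X}
    (hK : ∀ x ∈ l, ∀ y ∈ l, K x y = K' x y)
    (hF : ∀ l', l' ⊆ l → l'.length + 2 = l.length → F l' = F' l') :
    W K F l = W K' F' l := by
  unfold W D
  refine E_congr fun x l1 h1 => E_congr fun y l2 h2 => ?_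
  have hx : x ∈ l := h1.subset (by simp)
  have hs : l1 ⊆ l := fun z hz => h1.subset (by simp [hz])
  have hy : y ∈ l := hs (h2.subset (by simp))
  rw [hK x hx y hy, hF l2 (fun z hz => hs (h2.subset (by simp [hz])))]
  have := h1.length_eq; have := h2.length_eq
  simp only [List.length_cons] at *; omega

lemma Mon_congr {s : Set X} {Ks Ks' : List (X → X → ℝ)}
    (h : List.Forall₂ (fun K K' => ∀ x ∈ s, ∀ y ∈ s, K x y = K' x y) Ks Ks')
    (l : List X) (hl : ∀ x ∈ l, x ∈ s) : Mon Ks l = Mon Ks' l := by
  induction h generalizing l with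
  | nil => rfl
  | cons h _ ih =>
    exact W_congr (fun x hx y hy => h x (hl x hx) y (hl y hy))
      (fun l' hl' _ => ih l' fun x hx => hl x (hl' hx))

lemma del_congr {F F' : List X → ℝ} {l : List X} (hF : ∀ l', l' ⊆ l → F l' = F' l') :
    del F l = del F' l :=
  E_congr fun _ _ h => hF _ fun z hz => h.subset (by simp [hz])

/-- The homotopy cochain. -/
def eta (B : X → X → ℝ) (Ks : List (X → X → ℝ)) (l : List X) : ℝ :=
  (l.map fun x => W B (fun l' => del (Mon Ks) (x :: l')) l).sum

lemma alt_eta (B : X → X → ℝ) (Ks : List (X → X → ℝ)) : Alt (eta B Ks) := by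
  intro l1 x y l2
  unfold eta
  have hp : (l1 ++ x :: y :: l2).Perm (l1 ++ y :: x :: l2) :=
    List.Perm.append_left _ (List.Perm.swap _ _ _)
  rw [(hp.map _).sum_eq, List.sum_neg, List.map_map]
  congr 1
  refine List.map_congr_left fun z _ => ?_
  exact alt_W ((alt_del (alt_Mon Ks)).cons z) B l1 x y l2

lemma del_eta (B : X → X → ℝ) (Ks : List (X → X → ℝ)) (l : List X) :
    del (eta B Ks) l = 2 * del (Mon (B :: Ks)) l := by
  set U : X → List X → ℝ := fun x => W B (fun l' => del (Mon Ks) (x :: l')) with hU
  have h1 : del (eta B Ks) l = E (fun z l' => (l.map fun x => U x l').sum - U z l') l := by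
    refine E_congr fun z l' hp => ?_
    rw [← (hp.map _).sum_eq]; simp [eta, hU]
  rw [h1, E_sub, E_lsum l (fun x _ l' => U x l')]
  have h2 : ∀ x, E (fun _ l' => U x l') l = del (Mon (B :: Ks)) l := by
    intro x
    have : (fun l' => del (Mon Ks) (x :: l'))
        = fun l' => Mon Ks l' - del (fun l'' => Mon Ks (x :: l'')) l' := by
      funext l'; rfl
    change del (U x) l = _
    simp only [hU]
    rw [← W_del, Mon, ← W_del]
    congr 1
    funext l'
    rw [this]
    have h3 := E_sub (fun _ => Mon Ks) (fun _ => del fun l'' => Mon Ks (x :: l'')) l'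
    change del (fun l' => Mon Ks l' - del (fun l'' => Mon Ks (x :: l'')) l') l'
      = del (Mon Ks) l' - del (del fun l'' => Mon Ks (x :: l'')) l' at h3
    rw [h3, del_del]; ring
  have h4 : E (fun z l' => U z l') l = (l.length - 2) * del (Mon (B :: Ks)) l := by
    change E (fun z => W B (fun l' => del (Mon Ks) (z :: l'))) l = _
    rw [← W_E, Mon, ← W_del]
    have := congrFun (W_mul B ((l.length : ℝ) - 2) (del (Mon Ks))) l
    rw [← this]
    refine W_congr (fun _ _ _ _ => rfl) fun l' _ hl => ?_
    rw [euler (alt_del (alt_Mon Ks)), ← hl]; push_cast; ring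
  simp only [h2, h4]
  simp only [List.map_const', List.sum_replicate, nsmul_eq_mul]
  ring

lemma eta_map (ψ : Y → X) (B : X → X → ℝ) (Ks : List (X → X → ℝ)) (l : List Y) :
    eta B Ks (l.map ψ)
      = eta (fun x y => B (ψ x) (ψ y)) (Ks.map fun K x y => K (ψ x) (ψ y)) l := by
  unfold eta
  rw [List.map_map]
  congr 1
  refine List.map_congr_left fun z _ => ?_
  simp only [Function.comp]
  rw [W_map]
  congr 1
  funext l'
  rw [← List.map_cons, del_map, Mon_map]

lemma eta_congr {s : Set X} {B B' : X → X → ℝ} {Ks Ks' : List (X → X → ℝ)}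
    (hB : ∀ x ∈ s, ∀ y ∈ s, B x y = B' x y)
    (h : List.Forall₂ (fun K K' => ∀ x ∈ s, ∀ y ∈ s, K x y = K' x y) Ks Ks')
    (l : List X) (hl : ∀ x ∈ l, x ∈ s) : eta B Ks l = eta B' Ks' l := by
  unfold eta
  congr 1
  refine List.map_congr_left fun z hz => ?_
  refine W_congr (fun x hx y hy => hB x (hl x hx) y (hl y hy)) fun l' hl' _ => ?_
  refine del_congr fun l'' hl'' => Mon_congr h l'' fun x hx => ?_
  rcases List.mem_cons.1 (hl'' hx) with rfl | h
  · exact hl _ hz
  · exact hl _ (hl' h)

/-- Replacing the first entry by one that differs by a gauge shift. -/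
lemma eta_repl {B : X → X → ℝ} {Ks : List (X → X → ℝ)} {x x' : X} {l : List X}
    (hB : ∀ x y, B x y = - B y x) (hB' : ∀ y ∈ l, B x' y = B x y)
    (hK : ∀ K ∈ Ks, (∀ x y, K x y = - K y x) ∧ ∃ c, ∀ y ∈ l, K x' y = K x y - c) :
    eta B Ks (x' :: l) = eta B Ks (x :: l) := by
  classical
  have e1 : ∀ w : X, w :: l = (none :: l.map some).map (fun o : Option X => o.getD w) := by
    intro w; simp [List.map_map]
  rw [e1 x, e1 x', eta_map, eta_map]
  choose! c hc using fun K hk => (hK K hk).2
  have hs : ∀ (K : X → X → ℝ), (∀ x y, K x y = - K y x) → ∀ w, K w w = 0 := by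
    intro K h w; have := h w w; linarith
  let s : Set (Option X) := {o | o ∈ none :: l.map some}
  have hmem : ∀ o ∈ s, o = none ∨ ∃ y ∈ l, o = some y := by
    intro o ho
    rcases List.mem_cons.1 ho with h | h
    · exact Or.inl h
    · obtain ⟨y, hy, rfl⟩ := List.mem_map.1 h; exact Or.inr ⟨y, hy, rfl⟩
  rw [eta_congr (s := s) (B' := fun a b => B (a.getD x) (b.getD x))
    (Ks' := Ks.map fun K a b => K (a.getD x) (b.getD x) +
      ((fun o : Option X => if o = none then c K else 0) b
        - (fun o : Option X => if o = none then c K else 0) a))]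
  · unfold eta
    rw [del_Mon_gauge (Ks := Ks.map fun K a b => K (a.getD x) (b.getD x))]
    rw [List.forall₂_map_left_iff, List.forall₂_map_right_iff, List.forall₂_same]
    intro K _
    exact ⟨_, fun _ _ => rfl⟩
  · intro a ha b hb
    rcases hmem a ha with rfl | ⟨y, hy, rfl⟩ <;> rcases hmem b hb with rfl | ⟨z, hz, rfl⟩
    · simp [hs B hB]
    · simp [hB' z hz]
    · simp only [Option.getD_some, Option.getD_none]; rw [hB y x', hB y x, hB' y hy]
    · simp
  · rw [List.forall₂_map_left_iff, List.forall₂_map_right_iff, List.forall₂_same]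
    intro K hk a ha b hb
    have h1 := (hK K hk).1
    rcases hmem a ha with rfl | ⟨y, hy, rfl⟩ <;> rcases hmem b hb with rfl | ⟨z, hz, rfl⟩
    · simp [hs K h1]
    · simp [hc K hk z hz]; ring
    · simp only [Option.getD_some, Option.getD_none]; rw [h1 y x', h1 y x, hc K hk y hy]; simp
      ring
    · simp
  · exact fun _ h => h

/-- Gauge fixing at the first entry. -/
lemma del_Mon_cons {K : X → X → ℝ} (hK : ∀ x y, K x y = - K y x) (k : ℕ) (x : X) (l : List X) :
    del (Mon (List.replicate (k + 1) K)) (x :: l)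
      = Mon (List.replicate (k + 1) fun y z => K y z + (K z x - K y x)) l := by
  set K' : X → X → ℝ := fun y z => K y z + (K z x - K y x)
  have hK' : ∀ y z, K' y z = - K' z y := by intro y z; simp only [K']; rw [hK y z]; ring
  rw [← del_Mon_gauge (Ks' := List.replicate (k + 1) K')]
  · unfold del; rw [E_cons]
    have : (fun (_ : X) l' => Mon (List.replicate (k + 1) K') (x :: l')) = fun _ _ => 0 := by
      funext _ l'
      rw [Mon_rep_cons hK']
      have h0 : K' x = fun _ => 0 := by
        funext z; simp only [K']; rw [hK x z]; have := hK x x; linarith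
      have : D (K' x) (Mon (List.replicate k K')) l' = 0 := by
        rw [h0]; unfold D; simp only [zero_mul]; exact E_zero _
      rw [this, mul_zero]
    rw [this, E_zero, sub_zero]
  · rw [List.forall₂_iff_get]
    refine ⟨by simp, fun i h1 h2 => ⟨fun z => K z x, fun y z => by simp [K']⟩⟩

lemma del_eq_sum (F : List X → ℝ) (l : List X) :
    del F l = ∑ r ∈ Finset.range l.length, (-1) ^ r * F (l.eraseIdx r) := by
  induction l generalizing F with
  | nil => simp [del]
  | cons x l ih =>
    have := ih (fun l' => F (x :: l'))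
    unfold del at this ⊢
    rw [E_cons, this, List.length_cons, Finset.sum_range_succ', sub_eq_add_neg, add_comm,
      ← Finset.sum_neg_distrib]
    simp only [List.eraseIdx_cons_succ, List.eraseIdx_zero, List.tail_cons, pow_zero, one_mul]
    congr 1
    exact Finset.sum_congr rfl fun _ _ => by ring

/-- Uniformly bounded in each degree. -/
def Bdd (H : X → List X → ℝ) : Prop := ∀ n, ∃ C, ∀ y l, List.length l = n → |H y l| ≤ C

lemma Bdd.E {H : X → X → List X → ℝ}
    (h : ∀ n, ∃ C, ∀ x y l, List.length l = n → |H x y l| ≤ C) :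
    Bdd (fun x => E (H x)) := by
  intro n
  obtain ⟨C, hC⟩ := h (n - 1)
  refine ⟨n * C, fun x l hl => ?_⟩
  rw [← hl]
  refine E_bound fun y l' hp => hC _ _ _ ?_
  have := hp.length_eq; simp only [List.length_cons] at this; omega

lemma bdd_W {K : X → X → ℝ} (hK : ∃ κ, ∀ x y, |K x y| ≤ κ) {H : X → List X → ℝ} (h : Bdd H) :
    Bdd (fun x => W K (H x)) := by
  obtain ⟨κ, hκ⟩ := hK
  refine Bdd.E fun n => ?_
  obtain ⟨C, hC⟩ := h (n - 1)
  refine ⟨n * (κ * C), fun x y l hl => ?_⟩
  rw [← hl]
  refine E_bound fun z l' hp => ?_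
  rw [abs_mul]
  refine mul_le_mul (hκ _ _) (hC _ _ ?_) (abs_nonneg _) ((abs_nonneg _).trans (hκ y z))
  have := hp.length_eq; simp only [List.length_cons] at this; omega

lemma bdd_Mon {Ks : List (X → X → ℝ)} (hK : ∀ K ∈ Ks, ∃ κ, ∀ x y, |K x y| ≤ κ) :
    Bdd (fun _ => Mon Ks) := by
  induction Ks with
  | nil =>
    intro n; refine ⟨1, fun _ l _ => ?_⟩
    cases l <;> simp [Mon, one]
  | cons K Ks ih =>
    exact bdd_W (hK K (by simp)) (ih fun K' h => hK K' (by simp [h]))

lemma bdd_eta {B : X → X → ℝ} {Ks : List (X → X → ℝ)} (hB : ∃ κ, ∀ x y, |B x y| ≤ κ)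
    (hK : ∀ K ∈ Ks, ∃ κ, ∀ x y, |K x y| ≤ κ) (n : ℕ) :
    ∃ C, ∀ l : List X, l.length = n → |eta B Ks l| ≤ C := by
  have h1 : Bdd (fun _ : X => del (Mon Ks)) := by
    refine Bdd.E fun n => ?_
    obtain ⟨C, hC⟩ := bdd_Mon hK n
    exact ⟨C, fun x _ l hl => hC x l hl⟩
  have h2 : Bdd (fun x l' => del (Mon Ks) (x :: l')) := by
    intro n
    obtain ⟨C, hC⟩ := h1 (n + 1)
    exact ⟨C, fun x l hl => hC x _ (by simp [hl])⟩
  obtain ⟨C, hC⟩ := bdd_W hB h2 n
  refine ⟨n * C, fun l hl => ?_⟩
  unfold eta
  have : ∀ l0 : List X, |(l0.map fun x => W B (fun l' => del (Mon Ks) (x :: l')) l).sum|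
      ≤ l0.length * C := by
    intro l0
    induction l0 with
    | nil => simp
    | cons a l0 ih =>
      simp only [List.map_cons, List.sum_cons, List.length_cons]
      have := hC a l hl
      have h3 := abs_add_le (W B (fun l' => del (Mon Ks) (a :: l')) l)
        ((l0.map fun x => W B (fun l' => del (Mon Ks) (x :: l')) l).sum)
      push_cast; linarith
  rw [← hl]; exact this l

end Vale.Agent.P184
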