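import Vale.Agent.P184.Main

/-! The matrix form of the theorem. -/

namespace Vale.Agent.P184

open Finset Filter Topology

attribute [local instance] Matrix.linftyOpNormedRing in
theorem bass {G : Type*} [Group G] (q : ℕ) (e : Fin q → Fin q → G → ℂ)
    (hs : ∀ i j, Summable fun g => ‖e i j g‖)
    (he : ∀ i j g, ∑ k, ∑' h, e i k h * e k j (h⁻¹ * g) = e i j g) :
    ∃ F : Finset (ConjClasses G), (∀ C ∈ F, ∀ g ∈ C.carrier, IsOfFinOrder g) ∧
      ∀ C ∉ F, HasSum (fun g : C.carrier => ∑ i, e i i g) 0 := by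
  classical
  set E : G → Matrix (Fin q) (Fin q) ℂ := fun g => Matrix.of fun i j => e i j g
  have n1 : ∀ x : Matrix (Fin q) (Fin q) ℂ, ‖x‖ ≤ ∑ i, ∑ j, ‖x i j‖ := fun x => by
    rw [Matrix.linfty_opNorm_def]
    have : (univ.sup fun i => ∑ j, ‖x i j‖₊) ≤ ∑ i, ∑ j, ‖x i j‖₊ :=
      Finset.sup_le fun i _ => single_le_sum (f := fun i => ∑ j, ‖x i j‖₊) (fun _ _ => zero_le)
        (mem_univ i)
    simpa using NNReal.coe_le_coe.2 this
  have n2 : ∀ (x : Matrix (Fin q) (Fin q) ℂ) i, ‖x i i‖ ≤ ‖x‖ := fun x i => by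
    rw [Matrix.linfty_opNorm_def]
    have : ‖x i i‖₊ ≤ univ.sup fun i => ∑ j, ‖x i j‖₊ :=
      (single_le_sum (f := fun j => ‖x i j‖₊) (fun _ _ => zero_le) (mem_univ i)).trans
        (Finset.le_sup (f := fun i => ∑ j, ‖x i j‖₊) (mem_univ i))
    exact_mod_cast this
  have n3 : ∀ x : Matrix (Fin q) (Fin q) ℂ, ‖x.trace‖ ≤ q * ‖x‖ := fun x =>
    (norm_sum_le _ _).trans ((sum_le_sum fun i _ => n2 x i).trans (by simp))
  have h1 : Summable fun g => ‖E g‖ := Summable.of_nonneg_of_le (fun _ => norm_nonneg _)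
    (fun g => n1 (E g)) (summable_sum fun i _ => summable_sum fun j _ => hs i j)
  have h2 : ∀ g, HasSum (fun h => E h * E (h⁻¹ * g)) (E g) := fun g =>
    Pi.hasSum.2 fun i => Pi.hasSum.2 fun j => by
      have := hasSum_sum (s := univ) fun k _ => (Summable.of_norm_bounded
        (f := fun h => e i k h * e k j (h⁻¹ * g)) ((hs i k).mul_right (∑' x, ‖e k j x‖))
        fun h => by
          rw [norm_mul]; gcongr
          exact (hs k j).le_tsum _ fun _ _ => norm_nonneg _).hasSum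
      rw [he] at this
      exact this
  obtain ⟨Bl, hB⟩ := main_gen h1.hasSum h2
  refine ⟨((Bl ×ˢ Bl).image fun x => ConjClasses.mk (x.1⁻¹ * x.2)).filter
    fun C => ∀ g ∈ C.carrier, IsOfFinOrder g, fun C hC => (mem_filter.1 hC).2, fun C hC => ?_⟩
  obtain ⟨g, rfl, hg⟩ : ∃ g, ConjClasses.mk g = C ∧
      (¬ IsOfFinOrder g ∨ ∀ y, ¬ Short Bl (y⁻¹ * g * y)) := by
    by_cases h : ∀ g ∈ C.carrier, IsOfFinOrder g
    · obtain ⟨g, rfl⟩ := ConjClasses.mk_surjective C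
      refine ⟨g, rfl, Or.inr ?_⟩
      rintro y ⟨b, hb, b', hb', hy⟩
      refine hC (mem_filter.2 ⟨mem_image.2 ⟨(b, b'), mem_product.2 ⟨hb, hb'⟩, ?_⟩, h⟩)
      rw [← hy, ConjClasses.mk_eq_mk_iff_isConj, isConj_iff]
      exact ⟨y, by group⟩
    · push Not at h
      obtain ⟨g, h1, h2⟩ := h
      exact ⟨g, ConjClasses.mem_carrier_iff_mk_eq.1 h1, Or.inl h2⟩
  have key : ∀ f : ℂ →+ ℝ, (∀ z, |f z| ≤ ‖z‖) →
      HasSum (fun s : (ConjClasses.mk g).carrier => f (∑ i, e i i s)) 0 := by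
    intro f hf
    have := hB g hg (f.comp (Matrix.traceAddMonoidHom (Fin q) ℂ)) q q.cast_nonneg
      (fun x => (hf _).trans (n3 x)) fun x y => congrArg f (Matrix.trace_mul_comm x y)
    refine (hasSum_subtype_iff_indicator (f := fun s => f (∑ i, e i i s))).2 ?_
    convert this using 2 with s
    rw [Set.indicator_apply]
    refine if_congr ?_ rfl rfl
    rw [ConjClasses.mem_carrier_iff_mk_eq, ConjClasses.mk_eq_mk_iff_isConj, isConj_comm]
  exact (Complex.hasSum_iff _ _).2 ⟨key Complex.reAddGroupHom Complex.abs_re_le_norm,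
    key Complex.imAddGroupHom Complex.abs_im_le_norm⟩

end Vale.Agent.P184
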