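import Vale.Agent.P184.Level

/-! The winding kernel at the top scale. -/

namespace Vale.Agent.P184

set_option linter.unusedSectionVars false

open Finset

variable {G : Type*} [Group G] {M : ℕ} {g : G} {ℓ : G → ℝ} {T E : ℝ} {Bl : Finset G}

def Short (Bl : Finset G) (x : G) : Prop := ∃ b ∈ Bl, ∃ b' ∈ Bl, x = b⁻¹ * b'

structure K4 (g : G) (M : ℕ) (Bl : Finset G) (k : ℤ → G → G → ℝ) (lam a : ℝ) : Prop where
  zinv : ∀ c, c * g = g * c → ∀ h y y', k h (c * y) (c * y') = k h y y'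
  per : ∀ h y y', k (h + M) y (g * y') = k h y y'
  bd : ∀ h y y', |k h y y'| ≤ a
  s0 : ∀ h y y', 0 ≤ k (h - 1) y y' - k h y y'
  s1 : ∀ h y y', k (h - 1) y y' - k h y y' ≤ lam / M
  good : ∀ (h : ℤ) y y', |h| ≤ M → Short Bl (y⁻¹ * g * y) → Short Bl (y⁻¹ * y') →
    k (h - 1) y y' - k h y y' = lam / M

lemma exists_rep_sub (Z : Subgroup G) :
    ∃ r : G → G, (∀ x, x * (r x)⁻¹ ∈ Z) ∧ ∀ c ∈ Z, ∀ x, r (c * x) = r x := by
  refine ⟨fun x => (Quotient.mk (QuotientGroup.rightRel Z) x).out, fun x => ?_, fun c hc x => ?_⟩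
  · exact QuotientGroup.rightRel_apply.1 (Quotient.mk_out (s := QuotientGroup.rightRel Z) x)
  · beta_reduce
    congr 1
    exact Quotient.sound (QuotientGroup.rightRel_apply.2 (by simpa using hc))

lemma exists_height (hg : ¬ IsOfFinOrder g) : ∃ β : G → ℤ, ∀ x, β (g * x) = β x + 1 := by
  obtain ⟨r, h1, h2⟩ := exists_rep_sub (Subgroup.zpowers g)
  choose β hβ using fun x => Subgroup.mem_zpowers_iff.1 (h1 x)
  refine ⟨β, fun x => injective_zpow_iff_not_isOfFinOrder.2 hg ?_⟩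
  beta_reduce
  rw [hβ, h2 g (Subgroup.mem_zpowers g), add_comm, zpow_one_add, hβ, mul_assoc]

lemma exists_K4 (hg : ¬ IsOfFinOrder g ∨ ∀ y, ¬ Short Bl (y⁻¹ * g * y)) {lam : ℝ} (hl : 0 ≤ lam) :
    ∃ a, 0 < a ∧ ∀ M : ℕ, 0 < M → ∃ k, K4 g M Bl k lam a := by
  classical
  rcases hg with hg | hg
  swap
  · exact ⟨1, one_pos, fun M _ => ⟨fun _ _ _ => 0, by simp, by simp, by simp, by simp,
      fun _ _ _ => by rw [sub_self]; positivity, fun _ y _ _ h => absurd h (hg y)⟩⟩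
  obtain ⟨β, hβ⟩ := exists_height hg
  obtain ⟨r, h1, h2⟩ := exists_rep_sub (Subgroup.centralizer {g})
  simp only [Subgroup.mem_centralizer_singleton_iff] at h1 h2
  set ρ : G → G := fun u => if h : ∃ y, y⁻¹ * g * y = u then r h.choose else 1
  have hρ : ∀ y, ρ (y⁻¹ * g * y) = r y := by
    intro y
    have h : ∃ y', y'⁻¹ * g * y' = y⁻¹ * g * y := ⟨y, rfl⟩
    simp only [ρ, dif_pos h]
    have h3 := h.choose_spec
    generalize h.choose = x at h3
    rw [← h2 (x * y⁻¹) _ y, inv_mul_cancel_right]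
    rw [mul_assoc, inv_mul_eq_iff_eq_mul] at h3
    rw [← mul_assoc, h3]; group
  set S := (Bl ×ˢ Bl).image fun x => x.1⁻¹ * x.2
  have hS : ∀ x, Short Bl x → x ∈ S := by
    rintro _ ⟨b, hb, b', hb', rfl⟩
    exact mem_image.2 ⟨(b, b'), mem_product.2 ⟨hb, hb'⟩, rfl⟩
  set A : ℝ := ∑ x ∈ S ×ˢ S, |(β (ρ x.1 * x.2) : ℝ)|
  have A0 : 0 ≤ A := sum_nonneg fun _ _ => abs_nonneg _
  have hA : ∀ y y', Short Bl (y⁻¹ * g * y) → Short Bl (y⁻¹ * y') →
      |(β (r y * (y⁻¹ * y')) : ℝ)| ≤ A := fun y y' a b => by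
    rw [← hρ]
    exact single_le_sum (f := fun x : G × G => |(β (ρ x.1 * x.2) : ℝ)|) (fun _ _ => abs_nonneg _)
      (mem_product.2 ⟨hS _ a, hS _ b⟩ : (y⁻¹ * g * y, y⁻¹ * y') ∈ S ×ˢ S)
  refine ⟨(lam + 1) * (A + 2), by positivity, fun M hM => ⟨fun h y y' =>
    lam * max (-(A + 2)) (min (β (r y * (y⁻¹ * y')) - h / M) (A + 2)), fun c hc h y y' => ?_,
    fun h y y' => ?_, fun h y y' => ?_, fun h y y' => ?_, fun h y y' => ?_,
    fun h y y' hh a b => ?_⟩⟩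
  · rw [h2 c hc, show (c * y)⁻¹ * (c * y') = y⁻¹ * y' by group]
  · have : r y * (y⁻¹ * (g * y')) = g * (r y * (y⁻¹ * y')) := by
      have := h1 y
      calc _ = (y * (r y)⁻¹)⁻¹ * (g * (y * (r y)⁻¹)) * (r y * (y⁻¹ * y')) := by group
        _ = _ := by rw [← this]; group
    rw [this, hβ]
    congr 3
    push_cast; field_simp; ring
  · rw [abs_mul, abs_of_nonneg hl]
    refine mul_le_mul (by linarith) (abs_le.2 ⟨le_max_left _ _, max_le (by linarith)
      (min_le_right _ _)⟩) (abs_nonneg _) (by positivity)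
  · rw [← mul_sub]
    refine mul_nonneg hl (sub_nonneg.2 ?_)
    gcongr; norm_num
  · rw [← mul_sub, div_eq_mul_one_div lam]
    gcongr
    have : (0 : ℝ) < 1 / M := by positivity
    rw [Int.cast_sub, Int.cast_one, sub_div]
    generalize (1 : ℝ) / M = u at *
    simp only [max_def, min_def]
    split_ifs <;> linarith
  · have c := abs_le.1 (hA y y' a b)
    have hM' : (1 : ℝ) ≤ M := by exact_mod_cast hM
    have d : |(h : ℝ) / M| ≤ 1 := by
      rw [abs_div, Nat.abs_cast, div_le_one (by linarith)]; exact_mod_cast hh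
    have e : (0 : ℝ) < 1 / M := by positivity
    have e' : (1 : ℝ) / M ≤ 1 := (div_le_one (by linarith)).2 hM'
    rw [abs_le] at d
    rw [Int.cast_sub, Int.cast_one, sub_div, min_eq_left (by linarith), max_eq_right (by linarith),
      min_eq_left (by linarith), max_eq_right (by linarith)]
    ring

variable {F m : (ℤ → G) → ℤ → G →₀ ℝ} {κ σ p Γ lam a : ℝ} {s : ℕ} {k : ℤ → G → G → ℝ}

noncomputable def W4 (M : ℕ) (k : ℤ → G → G → ℝ) (Ξ : (ℤ → G) → ℤ → G →₀ ℝ) (z : ℤ → G) (t : ℤ)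
    (y : G) : ℝ := ∑ u ∈ range M, ip (Ξ z u) (k (u - t) y)

lemma K4.W4_eq (hk : K4 g M Bl k lam a) {Ξ : (ℤ → G) → ℤ → G →₀ ℝ}
    (hΞ : Eqv g M fun z t y => Ξ z t y) {z : ℤ → G} (hz : Tw g M z) (d t : ℤ) (y : G) :
    W4 M k Ξ z t y = ∑ u ∈ range M, ip (Ξ z (u + d)) (k (u + d - t) y) :=
  (sum_per (f := fun u => ip (Ξ z u) (k (u - t) y)) (fun c => ip_equiv (Equiv.mulLeft g)
    (hΞ.per hz c) fun y' => by rw [add_sub_right_comm]; exact hk.per _ _ _) d).symm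

lemma K4.eqv (hk : K4 g M Bl k lam a) {Ξ : (ℤ → G) → ℤ → G →₀ ℝ}
    (hΞ : Eqv g M fun z t y => Ξ z t y) : Eqv g M (W4 M k Ξ) where
  zinv c hc z t y := sum_congr rfl fun u _ =>
    ip_equiv (Equiv.mulLeft c) (hΞ.zinv c hc z u) (hk.zinv c hc _ y)
  shift z hz t y := by
    rw [hk.W4_eq hΞ hz 1]
    exact sum_congr rfl fun u _ => ip_equiv (Equiv.refl _) (hΞ.shift z hz u) fun y' => by simp

lemma K4.W4_sh (hk : K4 g M Bl k lam a) {Ξ : (ℤ → G) → ℤ → G →₀ ℝ}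
    (hΞ : Eqv g M fun z t y => Ξ z t y) {z : ℤ → G} (hz : Tw g M z) (d t : ℤ) (y : G) :
    W4 M k Ξ (sh z) t y - W4 M k Ξ z t y
      = ∑ u ∈ range M, ip (Ξ z (u + d)) (k (u + d - t - 1) y - k (u + d - t) y) := by
  rw [(hk.eqv hΞ).shift z hz, hk.W4_eq hΞ hz d, hk.W4_eq hΞ hz d, ← sum_sub_distrib]
  simp only [map_sub, sub_sub]

lemma K4.abs_step (hk : K4 g M Bl k lam a) (h : ℤ) (y y' : G) :
    |(k (h - 1) y - k h y) y'| ≤ lam / M := by
  rw [Pi.sub_apply, abs_of_nonneg (hk.s0 _ _ _)]; exact hk.s1 _ _ _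

lemma abs_sum_ip {A : ℤ → G →₀ ℝ} {B : ℤ → G → ℝ} {a c : ℝ} (hA : ∑ t ∈ range M, n1 (A t) ≤ a)
    (hB : ∀ t y, |B t y| ≤ c) : |∑ t ∈ range M, ip (A t) (B t)| ≤ a * c := abs_tp_le hA hB

lemma Fld.pp4 (hm : Fld g M ℓ T E m κ σ) (hl : Len ℓ T Bl) (H : SP0 p s (2 * T * E) Γ)
    (hk : K4 g M Bl k lam a) (hM : 0 < M) {K : ℝ} (h1 : 2 * a ≤ K) (h2 : 2 ≤ K)
    (h3 : Γ * κ ≤ K) (h4 : Γ * κ * a ≤ K) (h5 : 2 * lam ≤ K) (h6 : Γ * κ * lam ≤ K) :
    Pp g M ℓ (lX p s m) (W4 M k (lX p s m)) K (K / M) := by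
  have hM' : (0 : ℝ) < M := by positivity
  have a0 : 0 ≤ a := (abs_nonneg _).trans (hk.bd 0 1 1)
  have l0 : 0 ≤ lam / M := (abs_nonneg _).trans (hk.abs_step 0 1 1)
  have hs : ∀ z, ∑ t ∈ range M, n1 (lX p s m z t) ≤ M * 2 := fun z =>
    (sum_le_sum (s := range M) (g := fun _ => 2) fun t _ =>
      ((hm.ok z t).n1_xi H).trans (by norm_num)).trans (by simp)
  have d0 := hl.Dz_nonneg (M := M)
  refine ⟨fun z t => ((hm.ok z t).n1_xi H).trans (by linarith), fun z t y => ?_, hm.eqv_lX,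
    hk.eqv hm.eqv_lX, fun z z' a b => (hm.lip_lX H a b).trans ?_, fun z z' a b t y => ?_,
    fun z a t y => ?_, fun z z' a b => ?_⟩
  · refine (abs_sum_ip (B := fun u => k (u - t) y) (hs z) fun _ _ => hk.bd _ _ _).trans ?_
    nlinarith
  · have := d0 z z'; gcongr
  · rw [W4, W4, ← sum_sub_distrib]
    simp only [← LinearMap.sub_apply, ← map_sub]
    refine (abs_sum_ip (A := fun u => lX p s m z' u - lX p s m z u) (B := fun u => k (u - t) y)
      (hm.lip_lX H a b) fun _ _ => hk.bd _ _ _).trans ?_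
    have := d0 z z'; nlinarith
  · rw [hk.W4_sh hm.eqv_lX a 0]
    simp only [add_zero]
    refine (abs_sum_ip (B := fun u => k (u - t - 1) y - k (u - t) y) (hs z)
      fun _ _ => hk.abs_step _ _ _).trans ?_
    rw [mul_right_comm, mul_div_cancel₀ _ hM'.ne']; linarith
  · refine ⟨fun _ => K / M * Dz ℓ M z z', fun t y => ?_, ?_, fun t => le_rfl⟩
    · rw [hk.W4_sh hm.eqv_lX a 0, hk.W4_sh hm.eqv_lX b 0, ← sum_sub_distrib]
      simp only [add_zero, ← LinearMap.sub_apply, ← map_sub]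
      refine (abs_sum_ip (A := fun u => lX p s m z' u - lX p s m z u)
        (B := fun u => k (u - t - 1) y - k (u - t) y)
        (hm.lip_lX H a b) fun _ _ => hk.abs_step _ _ _).trans ?_
      have := d0 z z'
      rw [mul_right_comm, ← mul_div_assoc]; gcongr
    · rw [sum_const, card_range, nsmul_eq_mul, ← mul_assoc, mul_div_cancel₀ _ hM'.ne']

lemma ip_nonneg {A : G →₀ ℝ} {B : G → ℝ} (hA : ∀ y, 0 ≤ A y) (hB : ∀ y, 0 ≤ B y) : 0 ≤ ip A B := by
  rw [ip_eq subset_rfl]; exact sum_nonneg fun y _ => mul_nonneg (hA y) (hB y)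

lemma Ok.le_ip {Λ : ℝ} {m : G →₀ ℝ} (H : SP0 p s Λ Γ) (h : Ok Λ m) (hp : p ≤ 0.99 * Psi p s m)
    {B : G → ℝ} {c : ℝ} (hc : 0 ≤ c) (hB : ∀ y, 0 ≤ B y)
    (hB' : ∀ y, 0.99 * Psi p s m ≤ m y → c ≤ B y) : 0.99 * c ≤ ip (xi p s m) B := by
  classical
  have x0 := xi_nonneg (s := s) H.pos h.nonneg
  refine (mul_le_mul_of_nonneg_right (h.good H hp) hc).trans ?_
  rw [ip_eq (xi_supp p s m), sum_mul]
  exact (sum_le_sum fun y hy => mul_le_mul_of_nonneg_left (hB' y (mem_filter.1 hy).2) (x0 y)).trans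
    (sum_le_sum_of_subset_of_nonneg (filter_subset _ _) fun y _ _ => mul_nonneg (x0 y) (hB y))

def Sep (Bl : Finset G) (T : ℝ) (F : (ℤ → G) → ℤ → G →₀ ℝ) : Prop :=
  ∀ z t y y', ¬ Short Bl (y⁻¹ * y') → F z t y + F z t y' ≤ 1.05 * T

lemma Sep.box (h : Sep Bl T F) {H : ℕ} (hH : 0 < H) : Sep Bl T (bx H F) := fun z t y y' hy => by
  rw [bx_apply, bx_apply, ← mul_add, ← sum_add_distrib]
  exact avg_le hH fun _ _ => h _ _ _ _ hy

lemma Fld.sep (hm : Fld g M ℓ T E m κ σ) (h : Len ℓ T Bl) (H : SP0 p s (2 * T * E) Γ) :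
    Sep Bl T (h.sm p s m) := fun z t y y' hy => by
  rw [h.sm_apply, h.sm_apply, ← map_add]
  refine (le_abs_self _).trans ((abs_ip_le (c := T) fun x => ?_).trans
    (mul_le_mul_of_nonneg_right ((hm.ok z t).n1_xi H) h.T0))
  rw [Pi.add_apply, abs_of_nonneg (add_nonneg (h.chi_nonneg _ _) (h.chi_nonneg _ _)), h.chi_apply,
    h.chi_apply]
  by_contra hn
  refine hy ⟨x⁻¹ * y, h.mem _ ?_, x⁻¹ * y', h.mem _ ?_, by group⟩
  · linarith [h.nonneg (x⁻¹ * y')]
  · linarith [h.nonneg (x⁻¹ * y)]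

lemma Fld.gap4_nonneg (hm : Fld g M ℓ T E m κ σ) (hp : 0 < p) (hk : K4 g M Bl k lam a)
    {z : ℤ → G} (hz : Tw g M z) (t : ℤ) (y : G) :
    0 ≤ W4 M k (lX p s m) (sh z) t y - W4 M k (lX p s m) z t y := by
  rw [hk.W4_sh hm.eqv_lX hz 0]
  exact sum_nonneg fun u _ => ip_nonneg (xi_nonneg hp (hm.ok _ _).nonneg) fun _ => hk.s0 _ _ _

lemma Fld.gap4 (hF : Fld g M ℓ T E F κ σ) (hs : Sep Bl T F) (H : SP0 (T / 50) s (2 * T * E) Γ)
    (hk : K4 g M Bl k (200 * T) a) {N : ℕ} (hN : M = 10 * N) (hM : 0 < M) {z : ℤ → G}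
    (hz : Tw g M z) {t0 : ℤ} (h0 : 0.7 * T < Psi (T / 50) s (bx (2 * M) F z t0)) :
    M * T ≤ tp M (lX (T / 50) s (bx (2 * M) F) z)
      (W4 M k (lX (T / 50) s (bx (2 * M) F)) (sh z) - W4 M k (lX (T / 50) s (bx (2 * M) F)) z) := by
  have hp := H.pos
  have T0 : 0 < T := by linarith
  have hM' : (0 : ℝ) < M := by positivity
  have hm := hF.box (H := 2 * M) (by omega) (r := 2) le_rfl
  have hm' := hF.box (H := M) hM (r := 1) (by omega)
  set m := bx (2 * M) F with hmd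
  have c1 : ∀ i ≤ N, ∀ y, |m z (t0 + i) y - m z t0 y| ≤ 0.0525 * T := by
    intro i hi y
    have := abs_step_le (f := fun i : ℕ => m z (t0 + i) y) (n := N) (c := 1.05 * T / (2 * M))
      (fun i _ => ?_) (by positivity) (Nat.zero_le N) hi
    · simp only [Nat.cast_zero, add_zero] at this
      refine this.trans (le_of_eq ?_)
      have : (N : ℝ) = M / 10 := by rw [hN]; push_cast; ring
      rw [this]; field_simp; ring
    · have h1 := sum_range_succ (fun h : ℕ => F z (t0 + i + h) y) (2 * M)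
      have h2 := sum_range_succ' (fun h : ℕ => F z (t0 + i + h) y) (2 * M)
      simp only [hmd, bx_apply]
      simp only [Nat.cast_add, Nat.cast_one, Nat.cast_zero, add_zero, ← add_assoc,
        add_right_comm _ _ (1 : ℤ)] at h1 h2 ⊢
      have b1 := hF.le z (t0 + i) y
      have b2 := (hF.ok z (t0 + i)).nonneg y
      have b3 := hF.le z (t0 + i + (2 * M : ℕ)) y
      have b4 := (hF.ok z (t0 + i + (2 * M : ℕ))).nonneg y
      rw [← mul_sub, abs_mul, abs_of_nonneg (by positivity), mul_comm, mul_one_div]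
      push_cast at *
      gcongr
      rw [abs_le]; constructor <;> linarith
  have c2 : ∀ i ≤ N, 0.64 * T ≤ Psi (T / 50) s (m z (t0 + i)) := fun i hi => by
    have := (hm.ok z t0).Psi_lip H (hm.ok z (t0 + i)) (c1 i hi) (by positivity)
    rw [abs_le] at this; linarith
  have c3 : ∀ i ≤ N, ∀ y, 0.99 * Psi (T / 50) s (m z (t0 + i)) ≤ m z (t0 + i) y →
      0.58 * T ≤ m z t0 y := fun i hi y h => by
    have := c1 i hi y; have := c2 i hi
    rw [abs_le] at *; linarith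
  have c4 : ∀ y, 0.58 * T ≤ m z t0 y → Short Bl (y⁻¹ * g * y) := fun y h => by
    by_contra hn
    have a1 := hs.box hM z (t0 + M) y (g * y) (by rwa [← mul_assoc])
    have a2 := hm'.eqv.per hz t0 y
    rw [hmd, bx_two hM] at h
    linarith
  have c5 : ∀ y y', 0.58 * T ≤ m z t0 y → 0.58 * T ≤ m z t0 y' → Short Bl (y⁻¹ * y') :=
    fun y y' h h' => by
      by_contra hn
      have := hs.box (H := 2 * M) (by omega) z t0 y y' hn
      linarith
  have sub : range N ⊆ range M := range_subset_range.2 (by omega)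
  have V0 := hm.gap4_nonneg (s := s) hp hk hz
  rw [tp, ← sum_per (f := fun t => ip (lX (T / 50) s m z t) ((W4 M k (lX (T / 50) s m) (sh z)
    - W4 M k (lX (T / 50) s m) z) t)) (fun c => ip_equiv (Equiv.mulLeft g) (hm.eqv_lX.per hz c)
      fun y => by
        simp only [Pi.sub_apply, Equiv.coe_mulLeft, (hk.eqv hm.eqv_lX).per hz,
          (hk.eqv hm.eqv_lX).per hz.sh]) t0]
  refine le_trans ?_ (sum_le_sum_of_subset_of_nonneg sub fun t _ _ =>
    ip_nonneg (xi_nonneg hp (hm.ok _ _).nonneg) fun y => V0 _ y)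
  refine le_trans ?_ (sum_le_sum (f := fun _ => 0.99 * (N * (0.99 * (200 * T / M)))) fun i hi => ?_)
  · rw [sum_const, card_range, nsmul_eq_mul]
    have : (N : ℝ) = M / 10 := by rw [hN]; push_cast; ring
    rw [this]; field_simp; nlinarith
  · have hi' := (mem_range.1 hi).le
    rw [add_comm]
    refine (hm.ok _ _).le_ip H (by linarith [c2 i hi']) (by positivity) (V0 _) fun y hy => ?_
    simp only [Pi.sub_apply]
    rw [hk.W4_sh hm.eqv_lX hz t0]
    refine le_trans ?_ (sum_le_sum_of_subset_of_nonneg sub fun t _ _ =>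
      ip_nonneg (xi_nonneg hp (hm.ok _ _).nonneg) fun y => hk.s0 _ _ _)
    refine le_trans (by simp) (sum_le_sum (f := fun _ => 0.99 * (200 * T / M)) fun j hj => ?_)
    have hj' := (mem_range.1 hj).le
    rw [add_comm]
    refine (hm.ok _ _).le_ip H (by linarith [c2 j hj']) (by positivity) (fun _ => hk.s0 _ _ _)
      fun y' hy' => (hk.good _ _ _ ?_ (c4 _ (c3 i hi' y hy))
        (c5 _ _ (c3 i hi' y hy) (c3 j hj' y' hy'))).ge
    rw [abs_le]; constructor <;> omega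

end Vale.Agent.P184
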