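import Vale.Agent.P184.Univ

/-! Normalising a kernel on timed loops to a natural kernel. -/

namespace Vale.Agent.P184

set_option linter.unusedSectionVars false

open Finset

variable {G : Type*} [Group G] {M : ℕ} {g : G}

def sh {Y : Type*} (z : ℤ → Y) : ℤ → Y := fun t => z (t + 1)

lemma Tw.sh {z : ℤ → G} (h : Tw g M z) : Tw g M (sh z) := fun t => by
  simp only [P184.sh]; rw [add_right_comm, h]

structure Dat (g : G) (M : ℕ) (t : (ℤ → G) → (ℤ → G) → ℝ) (f1 f2 : (ℤ → G) → ℝ) : Prop where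
  anti : ∀ z z', t z z' = - t z' z
  bdd : ∃ κ, ∀ z z', |t z z'| ≤ κ ∧ |f1 z| ≤ κ ∧ |f2 z| ≤ κ
  zinv : ∀ c, c * g = g * c → ∀ z z', t (fun s => c * z s) (fun s => c * z' s) = t z z' ∧
    f1 (fun s => c * z s) = f1 z ∧ f2 (fun s => c * z s) = f2 z
  shift : ∀ z z', Tw g M z → Tw g M z' → t (sh z) (sh z') = t z z' ∧ f1 (sh z) = f1 z ∧
    f2 (sh z) = f2 z
  one : ∀ z, Tw g M z → f1 z + f2 z * (M * t z (sh z)) = 1

variable {t : (ℤ → G) → (ℤ → G) → ℝ} {f1 f2 : (ℤ → G) → ℝ}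

noncomputable def am (M : ℕ) (t : (ℤ → G) → (ℤ → G) → ℝ) (f1 f2 : (ℤ → G) → ℝ) (x y : Pt G) : ℝ :=
  (f1 x.1 + f1 y.1) / 2 * Uk M x y + (f2 x.1 + f2 y.1) / 2 * t x.1 y.1

noncomputable def ap (M : ℕ) (t : (ℤ → G) → (ℤ → G) → ℝ) (f1 f2 : (ℤ → G) → ℝ) (x y : Pt G) : ℝ :=
  (am M t f1 f2 x y - am M t f1 f2 y (SP x)) / 2 + 1 / (2 * M)

open Classical in
noncomputable def Kp (M : ℕ) (t : (ℤ → G) → (ℤ → G) → ℝ) (f1 f2 : (ℤ → G) → ℝ) (x y : Pt G) : ℝ :=
  (if x.2 ≤ y.2 then ap M t f1 f2 x y else 0) - if y.2 ≤ x.2 then ap M t f1 f2 y x else 0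

lemma Dat.am_anti (h : Dat g M t f1 f2) (x y : Pt G) : am M t f1 f2 x y = - am M t f1 f2 y x := by
  unfold am; rw [Uk_anti, h.anti]; ring

lemma Dat.natK (h : Dat g M t f1 f2) (hM : 0 < M) : NatK g M (Kp M t f1 f2) (1 / M) where
  anti x y := by unfold Kp; ring
  bdd := by
    obtain ⟨κ, hκ⟩ := h.bdd
    obtain ⟨κ', hκ'⟩ := (natK_Uk (g := g) hM).bdd
    have h1 : ∀ x y, |am M t f1 f2 x y| ≤ κ * κ' + κ * κ := by
      intro x y
      have a : ∀ a b : ℝ, |a| ≤ κ → |b| ≤ κ → |(a + b) / 2| ≤ κ := fun a b ha hb => by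
        rw [abs_le] at *; constructor <;> linarith
      have k0 : 0 ≤ κ := (abs_nonneg _).trans (hκ x.1 y.1).1
      refine (abs_add_le _ _).trans (add_le_add ?_ ?_) <;> rw [abs_mul]
      · exact mul_le_mul (a _ _ (hκ _ x.1).2.1 (hκ _ x.1).2.1) (hκ' _ _) (abs_nonneg _) k0
      · exact mul_le_mul (a _ _ (hκ _ x.1).2.2 (hκ _ x.1).2.2) (hκ _ _).1 (abs_nonneg _) k0
    have h2 : ∀ x y, |ap M t f1 f2 x y| ≤ κ * κ' + κ * κ + 1 / (2 * M) := by
      intro x y
      have a := h1 x y; have b := h1 y (SP x)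
      have c : (0 : ℝ) ≤ 1 / (2 * M) := by positivity
      unfold ap; rw [abs_le] at *; constructor <;> linarith
    refine ⟨2 * (κ * κ' + κ * κ + 1 / (2 * M)), fun x y => ?_⟩
    have a := h2 x y; have b := h2 y x
    have c := (abs_nonneg _).trans a
    unfold Kp; rw [abs_le] at *
    split_ifs <;> constructor <;> linarith
  zinv c hc x y := by
    have : ∀ x y, am M t f1 f2 (act c x) (act c y) = am M t f1 f2 x y := by
      intro x y
      simp only [am, act, (h.zinv c hc _ _).1, (h.zinv c hc _ x.1).2.1, (h.zinv c hc _ x.1).2.2]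
      rfl
    have e : ∀ x, SP (act c x) = act c (SP x) := fun _ => rfl
    simp only [Kp, ap, e, this]; rfl
  relab φ hφ x y := by
    have : ∀ x y, am M t f1 f2 (rel φ x) (rel φ y) = am M t f1 f2 x y := by
      intro x y
      simp only [am, (natK_Uk (g := g) hM).relab φ hφ]; rfl
    have e : ∀ x : Pt G, SP (rel φ x) = rel φ (SP x) := fun _ => rfl
    have e2 : ∀ x y : Pt G, (rel φ x).2 ≤ (rel φ y).2 ↔ x.2 ≤ y.2 := fun x y =>
      forall_congr' fun _ => hφ.le_iff_le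
    simp only [Kp, ap, e, this]
    rw [propext (e2 x y), propext (e2 y x)]
  shift m hm x y hx hy hb := by
    have : am M t f1 f2 (SP x) (SP y) = am M t f1 f2 x y := by
      have a := h.shift _ _ hx.tw hy.tw
      have b := h.shift _ _ hy.tw hy.tw
      unfold am
      rw [Uk_SP hx hy]
      change (f1 (sh x.1) + f1 (sh y.1)) / 2 * _ + (f2 (sh x.1) + f2 (sh y.1)) / 2 *
        t (sh x.1) (sh y.1) = _
      rw [a.1, a.2.1, a.2.2, b.2.1, b.2.2]
    unfold Kp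
    rw [if_neg hb.2.2.2, if_pos hb.2.2.1, if_pos hb.1, if_neg hb.2.1, ap, ap, this]
    field_simp; ring

lemma abs_step_le {f : ℕ → ℝ} {n : ℕ} {c : ℝ} (h : ∀ i < n, |f (i + 1) - f i| ≤ c) (hc : 0 ≤ c)
    {i j : ℕ} (hi : i ≤ n) (hj : j ≤ n) : |f j - f i| ≤ n * c := by
  have key : ∀ i j, i ≤ j → j ≤ n → |f j - f i| ≤ n * c := by
    intro i j hij hj
    rw [← sum_Ico_sub _ hij]
    refine (abs_sum_le_sum_abs _ _).trans ((sum_le_sum (g := fun _ => c) fun a ha =>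
      h a (by have := mem_Ico.1 ha; omega)).trans ?_)
    rw [sum_const, Nat.card_Ico, nsmul_eq_mul]
    gcongr; omega
  rcases le_total i j with e | e
  · exact key i j e hj
  · rw [abs_sub_comm]; exact key j i e hi

lemma d2_anti {K : ℕ → ℕ → ℝ} (h : ∀ i j, K i j = - K j i) (i j : ℕ) : d2 K i j = - d2 K j i := by
  unfold d2; rw [h (i + 1), h i, h (i + 1) j, h i j]; ring

lemma d2_prod {f : ℕ → ℝ} {K : ℕ → ℕ → ℝ} (hK : ∀ i j, K i j = - K j i) {n : ℕ} {c1 c2 : ℝ}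
    (h1 : ∀ i < n, |f (i + 1) - f i| ≤ c1) (h2 : ∀ i < n, ∀ j < n, |d2 K i j| ≤ c2) {i j : ℕ}
    (hi : i < n) (hj : j < n) :
    |d2 (fun i j => (f i + f j) / 2 * K i j) i j - (f 0 * d2 K i j +
      1 / 2 * ((f (i + 1) - f i) * K j (j + 1) - (f (j + 1) - f j) * K i (i + 1)))|
      ≤ 2 * n * c1 * c2 := by
  have k1 : 0 ≤ c1 := (abs_nonneg _).trans (h1 i hi)
  have k2 : 0 ≤ c2 := (abs_nonneg _).trans (h2 i hi j hj)
  have h0 : ∀ i, K i i = 0 := fun i => by have := hK i i; linarith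
  have key : ∀ i < n, ∀ j < n, |(f (i + 1) - f 0) * d2 K i j + (f (i + 1) - f i) *
      ((K i (j + 1) - K i j) - (K j (j + 1) - K j j))| ≤ 2 * n * c1 * c2 := by
    intro i hi j hj
    have a1 := abs_step_le h1 k1 (Nat.zero_le n) (show i + 1 ≤ n from hi)
    have a2 := abs_step_le (f := fun x => K x (j + 1) - K x j) (n := n) (c := c2)
      (fun x hx => by convert h2 x hx j hj using 2; unfold d2; ring) k2 hj.le hi.le
    refine (abs_add_le _ _).trans ?_
    rw [abs_mul, abs_mul]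
    have b1 := mul_le_mul a1 (h2 i hi j hj) (abs_nonneg _) (by positivity)
    have b2 := mul_le_mul (h1 i hi) a2 (abs_nonneg _) k1
    linarith
  have a := key i hi j hj
  have b := key j hj i hi
  rw [d2_anti hK j i] at b
  rw [h0] at a b
  rw [hK j (i + 1), hK j i] at b
  unfold d2 at *
  rw [abs_le] at *
  constructor <;> linarith

/-- The loops at the vertices of an alcove. -/
def zz (M : ℕ) (X : ℤ → G) (q : List ℤ) (r : ℕ) : ℤ → G := (pt M X (vtx r q)).1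

lemma tw_zz (hM : 0 < M) {X : ℤ → G} {q : List ℤ} (hX : Tw g q.length X) (r : ℕ) :
    Tw g M (zz M X q r) := (good_vtx hM hX r).tw

lemma Dat.err (h : Dat g M t f1 f2) (hM : 0 < M) {X : ℤ → G} {q : List ℤ}
    (hX : Tw g q.length X) {φ δ1 δ2 ε : ℝ} (hφ : ∀ z, |f2 z| ≤ φ)
    (H : ∀ i j, i < j → j < q.length → |f2 (zz M X q i) - f2 (zz M X q j)| ≤ δ1 ∧
      |t (zz M X q i) (sh (zz M X q i)) - t (zz M X q j) (sh (zz M X q j))| ≤ δ2 ∧
      |2 * (t (zz M X q i) (zz M X q j) + t (zz M X q j) (sh (zz M X q i)))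
        - t (zz M X q i) (sh (zz M X q i)) - t (zz M X q j) (sh (zz M X q j))| ≤ ε)
    (h0 : 0 ≤ δ1 * δ2 + φ * ε) {i j : ℕ} (hi : i < q.length) (hj : j < q.length) :
    |Kp M t f1 f2 (pt M X (vtx i q)) (pt M X (vtx j q))
      - am M t f1 f2 (pt M X (vtx i q)) (pt M X (vtx j q))| ≤ δ1 * δ2 + φ * ε := by
  wlog hij : i ≤ j generalizing i j
  · have := this hj hi (by omega)
    rw [(h.natK hM).anti, h.am_anti, ← abs_neg]
    convert this using 2; ring
  rcases hij.eq_or_lt with rfl | hij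
  · have a := (h.natK hM).anti (pt M X (vtx i q)) (pt M X (vtx i q))
    have b := h.am_anti (pt M X (vtx i q)) (pt M X (vtx i q))
    rw [show Kp M t f1 f2 (pt M X (vtx i q)) (pt M X (vtx i q))
      - am M t f1 f2 (pt M X (vtx i q)) (pt M X (vtx i q)) = 0 by linarith, abs_zero]
    exact h0
  have gi := good_vtx hM hX i
  have gj := good_vtx hM hX j
  have l1 : (pt M X (vtx i q)).2 ≤ (pt M X (vtx j q)).2 := Nc_vtx_le hM hij.le hj.le
  have l2 : (pt M X (vtx j q)).2 ≤ (SP (pt M X (vtx i q))).2 := by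
    refine (Nc_vtx_le hM hj.le le_rfl).trans fun s => ?_
    have := Nc_vtx_le hM (Nat.zero_le i) hi.le (s + 1)
    rw [Nc_vtx_length]; exact this
  have u := Uk_shift hM (by omega) gi gj l1 l2
  have l3 : ¬ (pt M X (vtx j q)).2 ≤ (pt M X (vtx i q)).2 := Nc_vtx_not_le hM hij hj.le
  rw [Kp, if_pos l1, if_neg l3, ap]
  obtain ⟨a1, a2, a3⟩ := H i j hij hj
  have s := h.shift _ _ gi.tw gi.tw
  have o1 := h.one _ gi.tw
  have o2 := h.one _ gj.tw
  have e : am M t f1 f2 (pt M X (vtx j q)) (SP (pt M X (vtx i q)))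
      = (f1 (zz M X q j) + f1 (zz M X q i)) / 2 * (- Uk M (pt M X (vtx i q)) (pt M X (vtx j q)) + 1 / M)
        + (f2 (zz M X q j) + f2 (zz M X q i)) / 2 * t (zz M X q j) (sh (zz M X q i)) := by
    rw [am, u, ← Uk_anti, zz, zz, ← s.2.1, ← s.2.2]; rfl
  rw [e, am]
  change f1 (zz M X q i) + f2 (zz M X q i) * (M * t (zz M X q i) (sh (zz M X q i))) = 1 at o1
  change f1 (zz M X q j) + f2 (zz M X q j) * (M * t (zz M X q j) (sh (zz M X q j))) = 1 at o2
  change |(((f1 (zz M X q i) + f1 (zz M X q j)) / 2 * _ + (f2 (zz M X q i) + f2 (zz M X q j)) / 2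
    * t (zz M X q i) (zz M X q j)) - _) / 2 + _ - 0 - ((f1 (zz M X q i) + f1 (zz M X q j)) / 2 * _
      + (f2 (zz M X q i) + f2 (zz M X q j)) / 2 * t (zz M X q i) (zz M X q j))| ≤ _
  have p1 := hφ (zz M X q i)
  have p2 := hφ (zz M X q j)
  generalize f1 (zz M X q i) = a, f1 (zz M X q j) = a', f2 (zz M X q i) = b,
    f2 (zz M X q j) = b', t (zz M X q i) (sh (zz M X q i)) = D,
    t (zz M X q j) (sh (zz M X q j)) = D', t (zz M X q i) (zz M X q j) = x,
    t (zz M X q j) (sh (zz M X q i)) = y, Uk M (pt M X (vtx i q)) (pt M X (vtx j q)) = w at *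
  obtain rfl : a = 1 - b * (M * D) := by linarith
  obtain rfl : a' = 1 - b' * (M * D') := by linarith
  have hM' : (M : ℝ) ≠ 0 := by positivity
  have : ((1 - b * (M * D) + (1 - b' * (M * D'))) / 2 * w + (b + b') / 2 * x -
      ((1 - b' * (M * D') + (1 - b * (M * D))) / 2 * (-w + 1 / M) + (b' + b) / 2 * y)) / 2
      + 1 / (2 * M) - 0 - ((1 - b * (M * D) + (1 - b' * (M * D'))) / 2 * w + (b + b') / 2 * x)
      = (b - b') * (D - D') / 8 - (b + b') / 2 * (2 * (x + y) - D - D') / 4 := by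
    field_simp; ring
  rw [this]
  have c1 : |(b - b') * (D - D')| ≤ δ1 * δ2 := by
    rw [abs_mul]; exact mul_le_mul a1 a2 (abs_nonneg _) ((abs_nonneg _).trans a1)
  have c2 : |(b + b') / 2 * (2 * (x + y) - D - D')| ≤ φ * ε := by
    rw [abs_mul]
    refine mul_le_mul ?_ a3 (abs_nonneg _) ((abs_nonneg _).trans p1)
    rw [abs_le] at *; constructor <;> linarith
  have := (abs_nonneg _).trans c1
  have := (abs_nonneg _).trans c2
  rw [abs_le] at *
  constructor <;> linarith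

lemma abs_pk (a b : ℤ) : |pk a b| ≤ 1 := by
  unfold pk; split_ifs <;> norm_num

/-- The curvature matrix of the normalised kernel. -/
lemma Dat.d2_Kp (h : Dat g M t f1 f2) (hM : 0 < M) {X : ℤ → G} {l : List ℤ} {d : ℤ}
    (hn : Nrm M l d) (hX : Tw g (l ++ [d]).length X) {φ δ1 δ2 ε c1 c2 c3 : ℝ}
    (hφ : ∀ z, |f2 z| ≤ φ)
    (H : ∀ i j, i < j → j < (l ++ [d]).length →
      |f2 (zz M X (l ++ [d]) i) - f2 (zz M X (l ++ [d]) j)| ≤ δ1 ∧
      |t (zz M X (l ++ [d]) i) (sh (zz M X (l ++ [d]) i))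
        - t (zz M X (l ++ [d]) j) (sh (zz M X (l ++ [d]) j))| ≤ δ2 ∧
      |2 * (t (zz M X (l ++ [d]) i) (zz M X (l ++ [d]) j)
          + t (zz M X (l ++ [d]) j) (sh (zz M X (l ++ [d]) i)))
        - t (zz M X (l ++ [d]) i) (sh (zz M X (l ++ [d]) i))
        - t (zz M X (l ++ [d]) j) (sh (zz M X (l ++ [d]) j))| ≤ ε)
    (h0 : 0 ≤ δ1 * δ2 + φ * ε)
    (H1 : ∀ i < l.length, |f1 (zz M X (l ++ [d]) (i + 1)) - f1 (zz M X (l ++ [d]) i)| ≤ c1)
    (H2 : ∀ i < l.length, |f2 (zz M X (l ++ [d]) (i + 1)) - f2 (zz M X (l ++ [d]) i)| ≤ c2)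
    (H3 : ∀ i < l.length, ∀ j < l.length,
      |d2 (fun i j => t (zz M X (l ++ [d]) i) (zz M X (l ++ [d]) j)) i j| ≤ c3)
    {i j : ℕ} (hi : i < l.length) (hj : j < l.length) :
    |d2 (fun i j => Kp M t f1 f2 (pt M X (vtx i (l ++ [d]))) (pt M X (vtx j (l ++ [d])))) i j
      - (f1 (zz M X (l ++ [d]) 0) * (pk (nu M i (l ++ [d])) (nu M j (l ++ [d])) / (2 * M ^ 2))
        + 1 / 2 * ((f1 (zz M X (l ++ [d]) (i + 1)) - f1 (zz M X (l ++ [d]) i)) *
            Uk M (pt M X (vtx j (l ++ [d]))) (pt M X (vtx (j + 1) (l ++ [d])))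
          - (f1 (zz M X (l ++ [d]) (j + 1)) - f1 (zz M X (l ++ [d]) j)) *
            Uk M (pt M X (vtx i (l ++ [d]))) (pt M X (vtx (i + 1) (l ++ [d]))))
        + (f2 (zz M X (l ++ [d]) 0) *
            d2 (fun i j => t (zz M X (l ++ [d]) i) (zz M X (l ++ [d]) j)) i j
        + 1 / 2 * ((f2 (zz M X (l ++ [d]) (i + 1)) - f2 (zz M X (l ++ [d]) i)) *
            t (zz M X (l ++ [d]) j) (zz M X (l ++ [d]) (j + 1))
          - (f2 (zz M X (l ++ [d]) (j + 1)) - f2 (zz M X (l ++ [d]) j)) *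
            t (zz M X (l ++ [d]) i) (zz M X (l ++ [d]) (i + 1)))))|
      ≤ 4 * (δ1 * δ2 + φ * ε) + 2 * l.length * c1 * (1 / (2 * M ^ 2)) + 2 * l.length * c2 * c3 := by
  have e := fun i j hi hj => h.err hM hX hφ H h0 (i := i) (j := j) hi hj
  have hl : (l ++ [d]).length = l.length + 1 := by simp
  rw [hl] at e
  have e1 := e (i + 1) (j + 1) (by omega) (by omega)
  have e2 := e i (j + 1) (by omega) (by omega)
  have e3 := e (i + 1) j (by omega) (by omega)
  have e4 := e i j (by omega) (by omega)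
  have a := d2_prod (f := fun i => f1 (zz M X (l ++ [d]) i))
    (K := fun i j => Uk M (pt M X (vtx i (l ++ [d]))) (pt M X (vtx j (l ++ [d]))))
    (fun _ _ => Uk_anti _ _) H1 (c2 := 1 / (2 * M ^ 2)) (fun i hi j hj => by
      rw [d2_Uk hM hn hX hi hj, abs_div, abs_of_pos (by positivity : (0 : ℝ) < 2 * M ^ 2)]
      gcongr; exact abs_pk _ _) hi hj
  have b := d2_prod (f := fun i => f2 (zz M X (l ++ [d]) i))
    (K := fun i j => t (zz M X (l ++ [d]) i) (zz M X (l ++ [d]) j))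
    (fun _ _ => h.anti _ _) H2 H3 hi hj
  rw [d2_Uk hM hn hX hi hj] at a
  generalize d2 (fun i j => t (zz M X (l ++ [d]) i) (zz M X (l ++ [d]) j)) i j = w at *
  unfold d2 at a b ⊢
  unfold am at e1 e2 e3 e4
  unfold zz at *
  rw [abs_le] at *
  constructor <;> linarith

end Vale.Agent.P184
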