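import Mathlib

/-! Soft maxima of finitely supported functions. -/

namespace Vale.Agent.P184

open Finset

variable {G : Type*}

/-- Pairing of a finitely supported function with a function. -/
noncomputable def ip : (G →₀ ℝ) →ₗ[ℝ] (G → ℝ) →ₗ[ℝ] ℝ :=
  Finsupp.linearCombination ℝ fun y => LinearMap.proj y

lemma ip_eq {A : G →₀ ℝ} {Y : Finset G} (h : A.support ⊆ Y) (B : G → ℝ) :
    ip A B = ∑ y ∈ Y, A y * B y := by
  rw [ip, Finsupp.linearCombination_apply, Finsupp.sum_of_support_subset _ h _ (by simp)]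
  simp [LinearMap.sum_apply]

noncomputable def n1 (A : G →₀ ℝ) : ℝ := ∑ y ∈ A.support, |A y|

lemma n1_eq {A : G →₀ ℝ} {Y : Finset G} (h : A.support ⊆ Y) : n1 A = ∑ y ∈ Y, |A y| :=
  sum_subset h fun y _ hy => by simpa using hy

lemma n1_nonneg (A : G →₀ ℝ) : 0 ≤ n1 A := sum_nonneg fun _ _ => abs_nonneg _

lemma sum_le_n1 (A : G →₀ ℝ) (Y : Finset G) : ∑ y ∈ Y, |A y| ≤ n1 A := by
  classical
  rw [n1_eq (Y := Y ∪ A.support) subset_union_right]
  exact sum_le_sum_of_subset_of_nonneg subset_union_left fun _ _ _ => abs_nonneg _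

lemma abs_ip_le {A : G →₀ ℝ} {B : G → ℝ} {c : ℝ} (h : ∀ y, |B y| ≤ c) : |ip A B| ≤ n1 A * c := by
  rw [ip_eq subset_rfl, n1, sum_mul]
  refine (abs_sum_le_sum_abs _ _).trans (sum_le_sum fun y _ => ?_)
  rw [abs_mul]; exact mul_le_mul_of_nonneg_left (h y) (abs_nonneg _)

lemma n1_add_le (A B : G →₀ ℝ) : n1 (A + B) ≤ n1 A + n1 B := by
  rw [n1]
  refine (sum_le_sum fun y _ => abs_add_le (A y) (B y)).trans ?_
  rw [sum_add_distrib]; exact add_le_add (sum_le_n1 _ _) (sum_le_n1 _ _)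

lemma n1_smul_le (c : ℝ) (A : G →₀ ℝ) : n1 (c • A) ≤ |c| * n1 A := by
  rw [n1_eq Finsupp.support_smul, n1, mul_sum]
  exact sum_le_sum fun y _ => by simp

lemma n1_sum_le {ι : Type*} (s : Finset ι) (A : ι → G →₀ ℝ) :
    n1 (∑ i ∈ s, A i) ≤ ∑ i ∈ s, n1 (A i) := by
  classical
  induction s using Finset.induction_on with
  | empty => simp [n1]
  | insert a s ha ih => rw [sum_insert ha, sum_insert ha]; exact (n1_add_le _ _).trans (by linarith)

lemma sum_supp_equiv (e : G ≃ G) {A A' : G →₀ ℝ} (h : ∀ y, A' (e y) = A y) (f f' : G → ℝ → ℝ)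
    (hf : ∀ y a, f' (e y) a = f y a) :
    ∑ y ∈ A'.support, f' y (A' y) = ∑ y ∈ A.support, f y (A y) := by
  symm
  refine sum_equiv e (fun y => by simp [h]) fun y _ => by rw [h, hf]

lemma ip_equiv (e : G ≃ G) {A A' : G →₀ ℝ} {B B' : G → ℝ} (h : ∀ y, A' (e y) = A y)
    (h' : ∀ y, B' (e y) = B y) : ip A' B' = ip A B := by
  rw [ip_eq subset_rfl, ip_eq subset_rfl]
  exact sum_supp_equiv e h (fun y a => a * B y) (fun y a => a * B' y) fun y a => by rw [h']

lemma n1_equiv (e : G ≃ G) {A A' : G →₀ ℝ} (h : ∀ y, A' (e y) = A y) : n1 A' = n1 A :=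
  sum_supp_equiv e h (fun _ a => |a|) (fun _ a => |a|) fun _ _ => rfl

/-- The soft maximum. -/
noncomputable def Psi (p : ℝ) (s : ℕ) (m : G →₀ ℝ) : ℝ :=
  (p ^ (s + 4) + ∑ y ∈ m.support, m y ^ (s + 4)) ^ (((s + 4 : ℕ) : ℝ)⁻¹)

/-- Its gradient. -/
noncomputable def xi (p : ℝ) (s : ℕ) (m : G →₀ ℝ) : G →₀ ℝ :=
  m.mapRange (fun x => (x / Psi p s m) ^ (s + 3)) (by simp)

lemma Psi_equiv (e : G ≃ G) {m m' : G →₀ ℝ} (h : ∀ y, m' (e y) = m y) (p : ℝ) (s : ℕ) :
    Psi p s m' = Psi p s m := by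
  rw [Psi, Psi, sum_supp_equiv e h (fun _ a => a ^ (s + 4)) (fun _ a => a ^ (s + 4)) fun _ _ => rfl]

lemma xi_apply (p : ℝ) (s : ℕ) (m : G →₀ ℝ) (y : G) :
    xi p s m y = (m y / Psi p s m) ^ (s + 3) := rfl

lemma xi_equiv (e : G ≃ G) {m m' : G →₀ ℝ} (h : ∀ y, m' (e y) = m y) (p : ℝ) (s : ℕ) (y : G) :
    xi p s m' (e y) = xi p s m y := by rw [xi_apply, xi_apply, h, Psi_equiv e h]

lemma xi_supp (p : ℝ) (s : ℕ) (m : G →₀ ℝ) : (xi p s m).support ⊆ m.support :=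
  Finsupp.support_mapRange

/-- Parameters of the soft maximum. -/
structure SP0 (p : ℝ) (s : ℕ) (Λ Γ : ℝ) : Prop where
  pos : 0 < p
  th : (0.99 : ℝ) ^ s * (1 + Λ / p) ≤ 0.01
  gam : 5 * (s + 4) ≤ Γ * p

structure Ok (Λ : ℝ) (m : G →₀ ℝ) : Prop where
  nonneg : ∀ y, 0 ≤ m y
  n1 : n1 m ≤ Λ

variable {p Λ Γ : ℝ} {s : ℕ} {m m' : G →₀ ℝ}

lemma Psi_pos (hp : 0 < p) (h : ∀ y, 0 ≤ m y) : 0 < Psi p s m :=
  Real.rpow_pos_of_pos (add_pos_of_pos_of_nonneg (by positivity)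
    (sum_nonneg fun y _ => pow_nonneg (h y) _)) _

lemma Psi_norm (hp : 0 < p) (h : ∀ y, 0 ≤ m y) {Y : Finset G} (hY : m.support ⊆ Y) :
    (p / Psi p s m) ^ (s + 4) + ∑ y ∈ Y, (m y / Psi p s m) ^ (s + 4) = 1 := by
  have h0 := Psi_pos (s := s) hp h
  have h1 : Psi p s m ^ (s + 4) = p ^ (s + 4) + ∑ y ∈ m.support, m y ^ (s + 4) :=
    Real.rpow_inv_natCast_pow (add_nonneg (by positivity)
      (sum_nonneg fun y _ => pow_nonneg (h y) _)) (by omega)
  rw [sum_subset hY fun y _ hy => by rw [Finsupp.notMem_support_iff.1 hy]; simp] at h1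
  simp only [div_pow]
  rw [← sum_div, ← add_div, ← h1, div_self (by positivity)]

lemma le_Psi (hp : 0 < p) (h : ∀ y, 0 ≤ m y) (y : G) : m y ≤ Psi p s m := by
  classical
  have h0 := Psi_pos (s := s) hp h
  have h1 := Psi_norm (s := s) hp h (Y := insert y m.support) (subset_insert _ _)
  have h2 := single_le_sum (f := fun y => (m y / Psi p s m) ^ (s + 4))
    (fun y _ => pow_nonneg (div_nonneg (h y) h0.le) _) (mem_insert_self y m.support)
  have h3 : 0 ≤ (p / Psi p s m) ^ (s + 4) := by positivity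
  rw [← div_le_one h0]
  exact (pow_le_one_iff_of_nonneg (div_nonneg (h y) h0.le) (by omega : s + 4 ≠ 0)).1 (by linarith)

lemma p_le_Psi (hp : 0 < p) (h : ∀ y, 0 ≤ m y) : p ≤ Psi p s m := by
  have h0 := Psi_pos (s := s) hp h
  have h1 := Psi_norm (s := s) hp h subset_rfl
  have h2 : 0 ≤ ∑ y ∈ m.support, (m y / Psi p s m) ^ (s + 4) :=
    sum_nonneg fun y _ => pow_nonneg (div_nonneg (h y) h0.le) _
  rw [← div_le_one h0]
  exact (pow_le_one_iff_of_nonneg (by positivity) (by omega : s + 4 ≠ 0)).1 (by linarith)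

lemma young (q : ℕ) {a b : ℝ} (ha : 0 ≤ a) (hb : 0 ≤ b) :
    (q + 1) * (a ^ q * b) ≤ q * a ^ (q + 1) + b ^ (q + 1) := by
  induction q with
  | zero => simp
  | succ q ih =>
    have h1 := mul_le_mul_of_nonneg_left ih hb
    have h2 : 0 ≤ (q + 1) * a ^ q * (a - b) ^ 2 := by positivity
    push_cast
    simp only [pow_succ] at *
    nlinarith

lemma ip_xi_le (hp : 0 < p) (h : ∀ y, 0 ≤ m y) (h' : ∀ y, 0 ≤ m' y) :
    ip (xi p s m) m' + (p / Psi p s m) ^ (s + 3) * p ≤ Psi p s m' := by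
  classical
  have h0 := Psi_pos (s := s) hp h
  have h0' := Psi_pos (s := s) hp h'
  have h1 := Psi_norm (s := s) hp h (Y := m.support ∪ m'.support) subset_union_left
  have h2 := Psi_norm (s := s) hp h' (Y := m.support ∪ m'.support) subset_union_right
  rw [ip_eq ((xi_supp p s m).trans (subset_union_left (s₂ := m'.support))), ← div_le_one h0',
    add_div, sum_div]
  have a1 := young (s + 3) (a := p / Psi p s m) (b := p / Psi p s m') (by positivity)
    (by positivity)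
  have a2 := sum_le_sum (s := m.support ∪ m'.support) fun y _ =>
    young (s + 3) (a := m y / Psi p s m) (b := m' y / Psi p s m') (div_nonneg (h y) h0.le)
      (div_nonneg (h' y) h0'.le)
  rw [sum_add_distrib, ← mul_sum, ← mul_sum] at a2
  simp only [xi_apply, mul_div_assoc]
  have a3 : (0 : ℝ) < (s + 3 : ℕ) + 1 := by positivity
  refine le_of_mul_le_mul_left ?_ a3
  have e : ((s + 3 : ℕ) : ℝ) * ((p / Psi p s m) ^ (s + 4) +
    ∑ y ∈ m.support ∪ m'.support, (m y / Psi p s m) ^ (s + 4)) = (s + 3 : ℕ) := by rw [h1, mul_one]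
  rw [mul_add] at e ⊢
  linarith

lemma ip_xi_self (hp : 0 < p) (h : ∀ y, 0 ≤ m y) :
    ip (xi p s m) m + (p / Psi p s m) ^ (s + 3) * p = Psi p s m := by
  have h0 := Psi_pos (s := s) hp h
  have h1 := Psi_norm (s := s) hp h subset_rfl
  rw [ip_eq (xi_supp p s m), ← div_eq_one_iff_eq h0.ne', add_div, sum_div, ← h1, add_comm]
  simp only [xi_apply, mul_div_assoc, pow_succ _ (s + 3)]

lemma Psi_sub_le (hp : 0 < p) (h : ∀ y, 0 ≤ m y) (h' : ∀ y, 0 ≤ m' y) :
    Psi p s m - Psi p s m' ≤ ip (xi p s m) (⇑m - ⇑m') := by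
  have a := ip_xi_le (s := s) hp h h'
  have b := ip_xi_self (s := s) hp h
  rw [map_sub]; linarith

lemma ip_xi_ge (hp : 0 < p) (h : ∀ y, 0 ≤ m y) : Psi p s m - p ≤ ip (xi p s m) m := by
  have b := ip_xi_self (s := s) hp h
  have h0 := Psi_pos (s := s) hp h
  have : (p / Psi p s m) ^ (s + 3) ≤ 1 :=
    pow_le_one₀ (by positivity) ((div_le_one h0).2 (p_le_Psi hp h))
  nlinarith

lemma Ok.sum_r (hp : 0 < p) (h : Ok Λ m) (Y : Finset G) : ∑ y ∈ Y, m y / Psi p s m ≤ Λ / p := by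
  rw [← sum_div]
  have a := sum_le_n1 m Y
  simp only [abs_of_nonneg (h.nonneg _)] at a
  exact div_le_div₀ ((n1_nonneg _).trans h.n1) (a.trans h.n1) hp (p_le_Psi hp h.nonneg)

lemma Ok.sum_pow (H : SP0 p s Λ Γ) (h : Ok Λ m) (Y : Finset G) {e : ℕ} (he : s + 1 ≤ e) :
    ∑ y ∈ Y, (m y / Psi p s m) ^ e ≤ 1.05 := by
  classical
  have hp := H.pos
  have h0 := Psi_pos (s := s) hp h.nonneg
  have h1 := Psi_norm (s := s) hp h.nonneg (Y := Y ∪ m.support) subset_union_right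
  have h2 := h.sum_r (s := s) hp Y
  have h3 : ∑ y ∈ Y, (m y / Psi p s m) ^ (s + 4) ≤ 1 := by
    have : 0 ≤ (p / Psi p s m) ^ (s + 4) := by positivity
    refine (sum_le_sum_of_subset_of_nonneg (subset_union_left (s₂ := m.support))
      fun y _ _ => pow_nonneg (div_nonneg (h.nonneg y) h0.le) _).trans (by linarith)
  have h4 : ∀ y, (m y / Psi p s m) ^ e
      ≤ 1.04 * (m y / Psi p s m) ^ (s + 4) + 0.99 ^ s * (m y / Psi p s m) := by
    intro y
    have r0 := div_nonneg (h.nonneg y) h0.le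
    have r1 := (div_le_one h0).2 (le_Psi hp h.nonneg y)
    generalize m y / Psi p s m = r at *
    refine (pow_le_pow_of_le_one r0 r1 he).trans ?_
    have c1 : 0 ≤ r ^ (s + 1) := by positivity
    rcases le_total r 0.99 with c | c
    · have : r ^ s ≤ 0.99 ^ s := by gcongr
      have : 0 ≤ r ^ (s + 4) := by positivity
      rw [pow_succ]; nlinarith
    · have : 0.99 ^ 3 ≤ r ^ 3 := by gcongr
      have : 0 ≤ 0.99 ^ s * r := by positivity
      rw [show s + 4 = s + 1 + 3 by rfl, pow_add r (s + 1)]; nlinarith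
  refine (sum_le_sum fun y _ => h4 y).trans ?_
  rw [sum_add_distrib, ← mul_sum, ← mul_sum]
  have h5 := H.th
  have h6 : (0 : ℝ) ≤ 0.99 ^ s := by positivity
  nlinarith [mul_le_mul_of_nonneg_left h2 h6]

lemma xi_nonneg (hp : 0 < p) (h : ∀ y, 0 ≤ m y) (y : G) : 0 ≤ xi p s m y :=
  pow_nonneg (div_nonneg (h y) (Psi_pos hp h).le) _

lemma Ok.n1_xi (H : SP0 p s Λ Γ) (h : Ok Λ m) : P184.n1 (xi p s m) ≤ 1.05 := by
  rw [P184.n1]
  simp only [abs_of_nonneg (xi_nonneg H.pos h.nonneg _)]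
  exact h.sum_pow H _ (by omega)

open Classical in
lemma Ok.good (H : SP0 p s Λ Γ) (h : Ok Λ m) (hp' : p ≤ 0.99 * Psi p s m) :
    0.99 ≤ ∑ y ∈ m.support with 0.99 * Psi p s m ≤ m y, xi p s m y := by
  have hp := H.pos
  have h0 := Psi_pos (s := s) hp h.nonneg
  have h1 := Psi_norm (s := s) hp h.nonneg subset_rfl
  have h2 := h.sum_r (s := s) hp m.support
  have key : ∀ r : ℝ, 0 ≤ r → r ≤ 0.99 → r ^ (s + 4) ≤ 0.99 ^ s * r := by
    intro r r0 r1
    have : r ^ s ≤ 0.99 ^ s := by gcongr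
    have : r ^ 3 ≤ 1 := pow_le_one₀ r0 (by linarith)
    have : 0 ≤ r ^ s * r := by positivity
    rw [show s + 4 = s + 1 + 3 by rfl, pow_add r (s + 1), pow_succ r s]; nlinarith
  have h4 : ∀ y, (m y / Psi p s m) ^ (s + 4) ≤ (if 0.99 * Psi p s m ≤ m y then xi p s m y else 0)
      + 0.99 ^ s * (m y / Psi p s m) := by
    intro y
    have r0 := div_nonneg (h.nonneg y) h0.le
    have r1 := (div_le_one h0).2 (le_Psi hp h.nonneg y)
    split_ifs with c
    · rw [xi_apply]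
      exact (pow_le_pow_of_le_one r0 r1 (by omega)).trans (le_add_of_nonneg_right (by positivity))
    · rw [zero_add]; exact key _ r0 (by rw [div_le_iff₀ h0]; linarith)
  have h5 := sum_le_sum (s := m.support) fun y _ => h4 y
  rw [sum_add_distrib, ← mul_sum, ← sum_filter] at h5
  have h6 := key (p / Psi p s m) (by positivity) (by rw [div_le_iff₀ h0]; linarith)
  have h7 := (div_le_one h0).2 (p_le_Psi (s := s) hp h.nonneg)
  have h8 : (0 : ℝ) ≤ 0.99 ^ s := by positivity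
  have h9 := H.th
  nlinarith [mul_le_mul_of_nonneg_left h2 h8, mul_le_mul_of_nonneg_left h7 h8]

lemma Ok.Psi_le (H : SP0 p s Λ Γ) (h : Ok Λ m) {c : ℝ} (hc : ∀ y, m y ≤ c) (hpc : p ≤ c) :
    0.99 * Psi p s m ≤ c := by
  classical
  by_contra hn
  push Not at hn
  have := h.good H (by linarith)
  rw [filter_false_of_mem fun y _ => by have := hc y; push Not; linarith, sum_empty] at this
  linarith

lemma Ok.exists_ge (H : SP0 p s Λ Γ) (h : Ok Λ m) [Nonempty G] :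
    ∃ y, 0.99 * Psi p s m - p ≤ m y := by
  classical
  by_cases hp' : p ≤ 0.99 * Psi p s m
  · have := h.good H hp'
    obtain ⟨y, hy⟩ : (m.support.filter fun y => 0.99 * Psi p s m ≤ m y).Nonempty := by
      rw [nonempty_iff_ne_empty]; rintro h0; rw [h0, sum_empty] at this; linarith
    exact ⟨y, by have := (mem_filter.1 hy).2; have := H.pos; linarith⟩
  · exact ⟨Classical.arbitrary G, by have := h.nonneg (Classical.arbitrary G); linarith⟩

lemma Ok.Psi_lip (H : SP0 p s Λ Γ) (h : Ok Λ m) (h' : Ok Λ m') {d : ℝ}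
    (hd : ∀ y, |m' y - m y| ≤ d) (d0 : 0 ≤ d) : |Psi p s m' - Psi p s m| ≤ 1.05 * d := by
  have key : ∀ m m' : G →₀ ℝ, Ok Λ m → Ok Λ m' → (∀ y, |m' y - m y| ≤ d) → 0 ≤ d →
      Psi p s m' - Psi p s m ≤ 1.05 * d := fun m m' h h' hd d0 =>
    (Psi_sub_le H.pos h'.nonneg h.nonneg).trans ((le_abs_self _).trans ((abs_ip_le hd).trans
      (mul_le_mul_of_nonneg_right (h'.n1_xi H) d0)))
  have := key m m' h h' hd d0
  have := key m' m h' h (fun y => by rw [abs_sub_comm]; exact hd y) d0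
  rw [abs_le]; constructor <;> linarith

lemma Ok.r_lip (H : SP0 p s Λ Γ) (h : Ok Λ m) (h' : Ok Λ m') {d : ℝ}
    (hd : ∀ y, |m' y - m y| ≤ d) (y : G) :
    |m' y / Psi p s m' - m y / Psi p s m| ≤ 2.05 * d / p := by
  have hp := H.pos
  have h0 := Psi_pos (s := s) hp h.nonneg
  have h0' := Psi_pos (s := s) hp h'.nonneg
  have b := hd y
  have d0 := (abs_nonneg _).trans b
  have a := h.Psi_lip H h' hd d0
  have r0 := div_nonneg (h.nonneg y) h0.le
  have r1 := (div_le_one h0).2 (le_Psi hp h.nonneg y)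
  have e : m' y / Psi p s m' - m y / Psi p s m
      = ((m' y - m y) - m y / Psi p s m * (Psi p s m' - Psi p s m)) / Psi p s m' := by
    field_simp; ring
  rw [e, abs_div, abs_of_pos h0']
  refine div_le_div₀ (by positivity) ((abs_sub _ _).trans ?_) hp (p_le_Psi hp h'.nonneg)
  rw [abs_mul, abs_of_nonneg r0]
  nlinarith [abs_nonneg (Psi p s m' - Psi p s m)]

lemma Ok.pow_lip (H : SP0 p s Λ Γ) (h : Ok Λ m) (h' : Ok Λ m') {d : ℝ}
    (hd : ∀ y, |m' y - m y| ≤ d) (y : G) {e : ℕ} (he : e ≤ s + 3) :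
    |(m' y / Psi p s m') ^ (e + 1) - (m y / Psi p s m) ^ (e + 1)|
      ≤ 0.41 * Γ * d * max ((m' y / Psi p s m') ^ e) ((m y / Psi p s m) ^ e) := by
  have hp := H.pos
  have r0 := div_nonneg (h.nonneg y) (Psi_pos (s := s) hp h.nonneg).le
  have r0' := div_nonneg (h'.nonneg y) (Psi_pos (s := s) hp h'.nonneg).le
  have a := h.r_lip H h' hd y
  have d0 := (abs_nonneg _).trans (hd y)
  refine (abs_pow_sub_pow_le _ _ _).trans ?_
  rw [abs_of_nonneg r0, abs_of_nonneg r0', Nat.add_sub_cancel]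
  have e1 : max (m' y / Psi p s m') (m y / Psi p s m) ^ e
      = max ((m' y / Psi p s m') ^ e) ((m y / Psi p s m) ^ e) := by
    rcases le_total (m' y / Psi p s m') (m y / Psi p s m) with c | c
    · rw [max_eq_right c, max_eq_right (by gcongr)]
    · rw [max_eq_left c, max_eq_left (by gcongr)]
  rw [e1]
  refine mul_le_mul_of_nonneg_right ?_ (le_max_of_le_left (by positivity))
  have b : ((e + 1 : ℕ) : ℝ) ≤ Γ * p / 5 := by
    have := H.gam
    have : ((e + 1 : ℕ) : ℝ) ≤ s + 4 := by exact_mod_cast (by omega)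
    linarith
  calc _ ≤ 2.05 * d / p * (Γ * p / 5) := by gcongr
    _ = _ := by field_simp; ring

lemma SP0.gam_pos (H : SP0 p s Λ Γ) : 0 < Γ := by
  have := H.gam; have := H.pos
  by_contra h; push Not at h; nlinarith [(s.cast_nonneg : (0 : ℝ) ≤ s)]

lemma Ok.sum_pow_lip (H : SP0 p s Λ Γ) (h : Ok Λ m) (h' : Ok Λ m') {d : ℝ}
    (hd : ∀ y, |m' y - m y| ≤ d) (d0 : 0 ≤ d) (Y : Finset G) {e : ℕ} (he : e ≤ s + 3)
    (he' : s + 1 ≤ e) :
    ∑ y ∈ Y, |(m' y / Psi p s m') ^ (e + 1) - (m y / Psi p s m) ^ (e + 1)| ≤ Γ * d := by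
  have hp := H.pos
  have hΓ := H.gam_pos
  refine (sum_le_sum (g := fun y => 0.41 * Γ * d * ((m' y / Psi p s m') ^ e + (m y / Psi p s m) ^ e))
    fun y _ => (h.pow_lip H h' hd y he).trans ?_).trans ?_
  · have r0 := div_nonneg (h.nonneg y) (Psi_pos (s := s) hp h.nonneg).le
    have r0' := div_nonneg (h'.nonneg y) (Psi_pos (s := s) hp h'.nonneg).le
    gcongr
    exact max_le (le_add_of_nonneg_right (by positivity)) (le_add_of_nonneg_left (by positivity))
  · rw [← mul_sum, sum_add_distrib]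
    have a := h.sum_pow H Y he'
    have b := h'.sum_pow H Y he'
    have : 0 ≤ Γ * d := by positivity
    nlinarith

lemma Ok.xi_lip (H : SP0 p s Λ Γ) (h : Ok Λ m) (h' : Ok Λ m') {d : ℝ}
    (hd : ∀ y, |m' y - m y| ≤ d) (d0 : 0 ≤ d) : P184.n1 (xi p s m' - xi p s m) ≤ Γ * d :=
  h.sum_pow_lip H h' hd d0 _ (e := s + 2) (by omega) (by omega)

/-- A common weight for a family of close functions. -/
lemma exists_weight (H : SP0 p s Λ Γ) {n : ℕ} {m : ℕ → G →₀ ℝ} (h : ∀ i, Ok Λ (m i)) {d : ℝ}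
    (d0 : 0 ≤ d) (hd : ∀ i ≤ n, ∀ y, |m i y - m 0 y| ≤ d) (hn : (n + 1) * (Γ * d) ≤ 0.5) :
    ∃ μ : G → ℝ, (∀ y, 0 ≤ μ y) ∧ (∀ Y : Finset G, ∑ y ∈ Y, μ y ≤ 2) ∧
      ∀ i < n, ∀ ψ, (∀ y, |m (i + 1) y - m i y| ≤ ψ) → ∀ y,
        |xi p s (m (i + 1)) y - xi p s (m i) y| ≤ Γ * ψ * μ y := by
  have hp := H.pos
  have hΓ := H.gam_pos
  have r0 := fun i y => div_nonneg ((h i).nonneg y) (Psi_pos (s := s) hp (h i).nonneg).le
  refine ⟨fun y => (m 0 y / Psi p s (m 0)) ^ (s + 2) + ∑ i ∈ range (n + 1),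
    |(m i y / Psi p s (m i)) ^ (s + 2) - (m 0 y / Psi p s (m 0)) ^ (s + 2)|, fun y => ?_,
    fun Y => ?_, fun i hi ψ hψ y => ?_⟩
  · have := r0 0 y; positivity
  · rw [sum_add_distrib, sum_comm]
    have a := (h 0).sum_pow H Y (e := s + 2) (by omega)
    have b := sum_le_sum (s := range (n + 1)) fun i hi => (h 0).sum_pow_lip H (h i)
      (hd i (by have := mem_range.1 hi; omega)) d0 Y (e := s + 1) (by omega) le_rfl
    rw [sum_const, card_range, nsmul_eq_mul] at b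
    push_cast at b
    linarith
  · have key : ∀ j ≤ n, (m j y / Psi p s (m j)) ^ (s + 2) ≤ (m 0 y / Psi p s (m 0)) ^ (s + 2) +
        ∑ i ∈ range (n + 1), |(m i y / Psi p s (m i)) ^ (s + 2) - (m 0 y / Psi p s (m 0)) ^ (s + 2)| := by
      intro j hj
      have := single_le_sum (f := fun i => |(m i y / Psi p s (m i)) ^ (s + 2)
        - (m 0 y / Psi p s (m 0)) ^ (s + 2)|) (fun _ _ => abs_nonneg _)
        (mem_range.2 (Nat.lt_succ_of_le hj))
      have := le_abs_self ((m j y / Psi p s (m j)) ^ (s + 2) - (m 0 y / Psi p s (m 0)) ^ (s + 2))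
      linarith
    have ψ0 := (abs_nonneg _).trans (hψ y)
    refine ((h i).pow_lip H (h (i + 1)) hψ y (e := s + 2) (by omega)).trans ?_
    refine mul_le_mul (by nlinarith [mul_nonneg hΓ.le ψ0]) (max_le (key _ hi) (key _ hi.le))
      (le_max_of_le_left (pow_nonneg (r0 _ _) _)) (by positivity)

end Vale.Agent.P184
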