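import Vale.Agent.P184.Kern
import Vale.Agent.P184.Soft

/-! Truncated word length and the distance of twisted loops. -/

namespace Vale.Agent.P184

set_option linter.unusedSectionVars false

open Finset

variable {G : Type*} [Group G] {M : ℕ} {g : G}

structure Len (ℓ : G → ℝ) (T : ℝ) (Bl : Finset G) : Prop where
  nonneg : ∀ a, 0 ≤ ℓ a
  le : ∀ a, ℓ a ≤ T
  one : ℓ 1 = 0
  mul : ∀ a b, ℓ (a * b) ≤ ℓ a + ℓ b
  inv : ∀ a, ℓ a⁻¹ = ℓ a
  mem : ∀ a, ℓ a < T → a ∈ Bl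

open Pointwise in
lemma exists_len (U : Finset G) (T : ℕ) : ∃ (ℓ : G → ℝ) (Bl : Finset G), Len ℓ T Bl ∧
    (∀ a ∈ U, ℓ a ≤ 1) ∧ Bl.card ≤ (2 * U.card + 1) ^ T := by
  classical
  set S : Finset G := insert 1 (U ∪ U⁻¹) with hS
  have h1 : (1 : G) ∈ S := mem_insert_self _ _
  have hi : S⁻¹ = S := by
    ext a; simp only [hS, mem_inv', mem_insert, mem_union, inv_inv, inv_eq_one]; tauto
  have ex : ∀ a : G, ∃ r : ℕ, a ∈ S ^ r ∨ T ≤ r := fun a => ⟨T, Or.inr le_rfl⟩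
  have hinv : ∀ a : G, Nat.find (ex a⁻¹) ≤ Nat.find (ex a) := by
    intro a
    refine Nat.find_min' _ ((Nat.find_spec (ex a)).imp_left ?_)
    generalize Nat.find (ex a) = r
    intro h
    rw [← hi, inv_pow]; exact inv_mem_inv h
  refine ⟨fun a => Nat.find (ex a), S ^ T, ⟨fun a => by positivity, fun a => ?_, ?_, fun a b => ?_,
    fun a => ?_, fun a h => ?_⟩, fun a ha => ?_, ?_⟩
  · exact_mod_cast Nat.find_min' _ (Or.inr le_rfl)
  · exact_mod_cast (Nat.find_eq_zero _).2 (Or.inl (by simp))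
  · have : Nat.find (ex (a * b)) ≤ Nat.find (ex a) + Nat.find (ex b) := by
      refine Nat.find_min' _ ?_
      rcases Nat.find_spec (ex a) with h | h
      · rcases Nat.find_spec (ex b) with h' | h'
        · left; rw [pow_add]; exact mul_mem_mul h h'
        · right; omega
      · right; omega
    exact_mod_cast this
  · have a1 := hinv a
    have a2 := hinv a⁻¹
    simp only [inv_inv] at a2
    exact_mod_cast le_antisymm a1 a2
  · have h' : Nat.find (ex a) < T := by exact_mod_cast h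
    rcases Nat.find_spec (ex a) with h2 | h2
    · exact pow_subset_pow_right h1 h'.le h2
    · omega
  · have : Nat.find (ex a) ≤ 1 := Nat.find_min' _ (Or.inl (by simp [hS, ha]))
    beta_reduce
    exact_mod_cast this
  · refine card_pow_le.trans (Nat.pow_le_pow_left ?_ _)
    refine (card_insert_le _ _).trans ?_
    have := card_union_le U U⁻¹
    rw [card_inv] at this
    omega

variable {ℓ : G → ℝ} {T : ℝ} {Bl : Finset G}

lemma Len.tri (h : Len ℓ T Bl) (a b c : G) : ℓ (a⁻¹ * c) ≤ ℓ (a⁻¹ * b) + ℓ (b⁻¹ * c) := by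
  have := h.mul (a⁻¹ * b) (b⁻¹ * c)
  rwa [show a⁻¹ * b * (b⁻¹ * c) = a⁻¹ * c by group] at this

lemma Len.symm (h : Len ℓ T Bl) (a b : G) : ℓ (a⁻¹ * b) = ℓ (b⁻¹ * a) := by
  rw [← h.inv]; simp

/-- Distance of two loops. -/
def Dz (ℓ : G → ℝ) (M : ℕ) (z z' : ℤ → G) : ℝ := ∑ t ∈ range M, ℓ ((z t)⁻¹ * z' t)

lemma Len.Dz_nonneg (h : Len ℓ T Bl) (z z' : ℤ → G) : 0 ≤ Dz ℓ M z z' :=
  sum_nonneg fun _ _ => h.nonneg _

lemma Len.Dz_tri (h : Len ℓ T Bl) (z z' z'' : ℤ → G) :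
    Dz ℓ M z z'' ≤ Dz ℓ M z z' + Dz ℓ M z' z'' := by
  rw [Dz, Dz, Dz, ← sum_add_distrib]; exact sum_le_sum fun _ _ => h.tri _ _ _

lemma Len.Dz_symm (h : Len ℓ T Bl) (z z' : ℤ → G) : Dz ℓ M z z' = Dz ℓ M z' z :=
  sum_congr rfl fun _ _ => h.symm _ _

lemma Len.Dz_self (h : Len ℓ T Bl) (z : ℤ → G) : Dz ℓ M z z = 0 := by simp [Dz, h.one]

lemma Tw.per {z z' : ℤ → G} (h : Tw g M z) (h' : Tw g M z') (t : ℤ) :
    (z (t + M))⁻¹ * z' (t + M) = (z t)⁻¹ * z' t := by rw [h, h']; group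

lemma Dz_sh {z z' : ℤ → G} (h : Tw g M z) (h' : Tw g M z') :
    Dz ℓ M (sh z) (sh z') = Dz ℓ M z z' :=
  sum_per (f := fun t => ℓ ((z t)⁻¹ * z' t)) (fun c => by rw [h.per h']) 1

lemma Len.Dz_steps (h : Len ℓ T Bl) (Z : ℕ → ℤ → G) {i j : ℕ} (hij : i ≤ j) :
    Dz ℓ M (Z i) (Z j) ≤ ∑ r ∈ Ico i j, Dz ℓ M (Z r) (Z (r + 1)) := by
  induction j, hij using Nat.le_induction with
  | base => simp [h.Dz_self]
  | succ j hij ih => rw [sum_Ico_succ_top hij]; exact (h.Dz_tri _ (Z j) _).trans (by linarith)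

/-- Length of the jump made at a step. -/
def lj (ℓ : G → ℝ) (M : ℕ) (X : ℤ → G) (q : List ℤ) (r : ℕ) : ℝ :=
  ℓ ((X (nu M r q - 1))⁻¹ * X (nu M r q))

lemma Len.Dz_zz (h : Len ℓ T Bl) (hM : 0 < M) {X : ℤ → G} {q : List ℤ} (hX : Tw g q.length X)
    {r : ℕ} (hr : r < q.length) : Dz ℓ M (zz M X q r) (zz M X q (r + 1)) = lj ℓ M X q r := by
  rw [Dz, ← sum_per (f := fun t => ℓ ((zz M X q r t)⁻¹ * zz M X q (r + 1) t))
    (fun c => by rw [(tw_zz hM hX r).per (tw_zz hM hX _)]) (q.getD r 0 - 1), sum_eq_single 0]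
  · simp only [zz, pt, lj, nu, Nat.cast_zero, zero_add]
    rw [Nc_vtx_succ' hM hr, if_pos (by simp), add_sub_cancel_right]
  · intro t ht h0
    simp only [zz, pt]
    rw [Nc_vtx_succ' hM hr, if_neg, add_zero, inv_mul_cancel, h.one]
    simpa using not_dvd_small h0 (mem_range.1 ht)
  · intro h; exact absurd (mem_range.2 hM) h

lemma zz_last (X : ℤ → G) (q : List ℤ) : zz M X q q.length = sh (zz M X q 0) := by
  rw [zz, ← SP_pt]; rfl

lemma prod_incr (hM : 0 < M) {X : ℤ → G} {l : List ℤ} {d : ℤ} (hn : Nrm M l d)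
    (hX : Tw g (l ++ [d]).length X) (c : ℝ) :
    ((incr (l ++ [d]).length X).map fun a => Real.exp (c * ℓ a)).prod
      = Real.exp (c * ∑ r ∈ range (l ++ [d]).length, lj ℓ M X (l ++ [d]) r) := by
  have h1 := sum_nu (hn.win hM) fun ν => ℓ ((X (ν - 1))⁻¹ * X ν)
  simp only [lj]
  rw [h1]
  generalize (l ++ [d]).length = m at *
  have h2 : ∑ j ∈ range m, ℓ ((X (-j - 1))⁻¹ * X (-j)) = ∑ j ∈ range m, ℓ ((X j)⁻¹ * X (j + 1)) := by
    rw [← sum_range_reflect]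
    refine sum_congr rfl fun j hj => ?_
    have := mem_range.1 hj
    have a := hX (j - m); have b := hX (j + 1 - m)
    rw [sub_add_cancel] at a b
    rw [a, b, show -((m - 1 - j : ℕ) : ℤ) - 1 = j - m by omega,
      show -((m - 1 - j : ℕ) : ℤ) = j + 1 - m by omega]
    congr 1; group
  rw [h2, mul_sum, Real.exp_sum, incr, List.map_map]
  rfl

end Vale.Agent.P184
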