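import Vale.Agent.P184.Est

/-! Fields of bump functions along a loop and their averages. -/

namespace Vale.Agent.P184

set_option linter.unusedSectionVars false

open Finset

variable {G : Type*} [Group G] {M : ℕ} {g : G} {ℓ : G → ℝ} {T E : ℝ} {Bl : Finset G}

lemma sum_win {ψ : ℤ → ℝ} (hp : ∀ t, ψ (t + M) = ψ t) (h0 : ∀ t, 0 ≤ ψ t) {H r : ℕ}
    (hH : H ≤ r * M) (t : ℤ) : ∑ h ∈ range H, ψ (t + h) ≤ r * ∑ t ∈ range M, ψ t := by
  refine (sum_le_sum_of_subset_of_nonneg (range_subset_range.2 hH) fun _ _ _ => h0 _).trans ?_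
  clear hH
  induction r with
  | zero => simp
  | succ r ih =>
    rw [Nat.succ_mul, sum_range_add]
    have h1 := sum_per hp (t + r * M)
    have h3 : ∑ h ∈ range M, ψ (t + ((r * M + h : ℕ) : ℤ)) = ∑ c ∈ range M, ψ (c + (t + r * M)) :=
      sum_congr rfl fun h _ => by congr 1; push_cast; ring
    rw [h3, h1]; push_cast; linarith

lemma sum_box {ψ : ℤ → ℝ} (hp : ∀ t, ψ (t + M) = ψ t) (H : ℕ) :
    ∑ t ∈ range M, ∑ h ∈ range H, ψ (t + h) = H * ∑ t ∈ range M, ψ t := by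
  rw [sum_comm]; simp only [sum_per hp, sum_const, card_range, nsmul_eq_mul]

structure Fld (g : G) (M : ℕ) (ℓ : G → ℝ) (T E : ℝ) (F : (ℤ → G) → ℤ → G →₀ ℝ) (κ σ : ℝ) :
    Prop where
  ok : ∀ z t, Ok (2 * T * E) (F z t)
  le : ∀ z t y, F z t y ≤ 1.05 * T
  eqv : Eqv g M fun z t y => F z t y
  lip : ∀ z z', Tw g M z → Tw g M z' → ∃ ψ : ℤ → ℝ, (∀ t, ψ (t + M) = ψ t) ∧
    (∀ t y, |F z' t y - F z t y| ≤ ψ t) ∧ (∀ t, n1 (F z' t - F z t) ≤ 2 * E * ψ t) ∧
    ∑ t ∈ range M, ψ t ≤ κ * Dz ℓ M z z' ∧ ∀ t, ψ t ≤ σ * Dz ℓ M z z'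

/-- Averaging in time. -/
noncomputable def bx (H : ℕ) (F : (ℤ → G) → ℤ → G →₀ ℝ) (z : ℤ → G) (t : ℤ) : G →₀ ℝ :=
  (1 / H : ℝ) • ∑ h ∈ range H, F z (t + h)

lemma bx_apply (H : ℕ) (F : (ℤ → G) → ℤ → G →₀ ℝ) (z : ℤ → G) (t : ℤ) (y : G) :
    bx H F z t y = 1 / H * ∑ h ∈ range H, F z (t + h) y := by
  simp [bx]

lemma avg_le {H : ℕ} (hH : 0 < H) {f : ℕ → ℝ} {c : ℝ} (h : ∀ i < H, f i ≤ c) :
    1 / H * ∑ i ∈ range H, f i ≤ c := by
  have : ∑ i ∈ range H, f i ≤ H * c :=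
    (sum_le_sum (g := fun _ => c) fun i hi => h i (mem_range.1 hi)).trans (by simp)
  rw [one_div, inv_mul_le_iff₀ (by positivity)]; exact this

lemma n1_avg (H : ℕ) (A : ℕ → G →₀ ℝ) :
    n1 ((1 / H : ℝ) • ∑ h ∈ range H, A h) ≤ 1 / H * ∑ h ∈ range H, n1 (A h) := by
  refine (n1_smul_le _ _).trans ?_
  rw [abs_of_nonneg (by positivity)]
  gcongr; exact n1_sum_le _ _

variable {F m : (ℤ → G) → ℤ → G →₀ ℝ} {κ σ : ℝ}

lemma Fld.box (h : Fld g M ℓ T E F κ σ) {H r : ℕ} (hH : 0 < H) (hr : H ≤ r * M) :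
    Fld g M ℓ T E (bx H F) κ (r * κ / H) where
  ok z t := ⟨fun y => by
      rw [bx_apply]; exact mul_nonneg (by positivity) (sum_nonneg fun _ _ => (h.ok _ _).nonneg _),
    (n1_avg _ _).trans (avg_le hH fun _ _ => (h.ok _ _).n1)⟩
  le z t y := by rw [bx_apply]; exact avg_le hH fun _ _ => h.le _ _ _
  eqv := ⟨fun c hc z t y => by simp only [bx_apply, h.eqv.zinv c hc],
    fun z hz t y => by simp only [bx_apply, h.eqv.shift z hz, add_right_comm]⟩
  lip z z' a b := by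
    obtain ⟨ψ, p1, p2, p3, p4, _⟩ := h.lip z z' a b
    have p0 : ∀ t, 0 ≤ ψ t := fun t => (abs_nonneg _).trans (p2 t 1)
    refine ⟨fun t => 1 / H * ∑ i ∈ range H, ψ (t + i), fun t => ?_, fun t y => ?_, fun t => ?_, ?_,
      fun t => ?_⟩
    · simp only [add_right_comm t M, p1]
    · rw [bx_apply, bx_apply, ← mul_sub, ← sum_sub_distrib, abs_mul, abs_of_nonneg (by positivity)]
      beta_reduce
      gcongr
      exact (abs_sum_le_sum_abs _ _).trans (sum_le_sum fun _ _ => p2 _ _)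
    · rw [bx, bx, ← smul_sub, ← sum_sub_distrib, mul_left_comm, mul_sum _ _ (2 * E)]
      refine (n1_avg H fun i => F z' (t + i) - F z (t + i)).trans ?_
      gcongr; exact p3 _
    · rw [← mul_sum, sum_box p1, ← mul_assoc, one_div_mul_cancel (by positivity), one_mul]
      exact p4
    · have := (sum_win p1 p0 hr t).trans (mul_le_mul_of_nonneg_left p4 r.cast_nonneg)
      refine (mul_le_mul_of_nonneg_left this (by positivity)).trans (le_of_eq (by ring))

lemma bx_two {H : ℕ} (hH : 0 < H) (z : ℤ → G) (t : ℤ) (y : G) :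
    bx (2 * H) F z t y = (bx H F z t y + bx H F z (t + H) y) / 2 := by
  simp only [bx_apply]
  rw [two_mul, sum_range_add]
  simp only [Nat.cast_add, add_assoc]
  field_simp; ring

open Classical in
/-- The basic bump function. -/
noncomputable def Len.chi (h : Len ℓ T Bl) (x : G) : G →₀ ℝ :=
  Finsupp.onFinset (Bl.image fun b => x * b) (fun y => T - ℓ (x⁻¹ * y)) fun y hy =>
    mem_image.2 ⟨x⁻¹ * y, h.mem _ (lt_of_le_of_ne (h.le _) fun e => hy (by simp [e])), by simp⟩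

lemma Len.chi_apply (h : Len ℓ T Bl) (x y : G) : h.chi x y = T - ℓ (x⁻¹ * y) := rfl

lemma Len.chi_card (h : Len ℓ T Bl) (x : G) : (h.chi x).support.card ≤ Bl.card := by
  classical
  exact (card_le_card Finsupp.support_onFinset_subset).trans (by convert card_image_le)

lemma Len.chi_nonneg (h : Len ℓ T Bl) (x y : G) : 0 ≤ h.chi x y := sub_nonneg.2 (h.le _)

lemma Len.abs_chi (h : Len ℓ T Bl) (x y : G) : |h.chi x y| ≤ T := by
  rw [abs_of_nonneg (h.chi_nonneg x y), h.chi_apply]; linarith [h.nonneg (x⁻¹ * y)]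

lemma Len.T0 (h : Len ℓ T Bl) : 0 ≤ T := (h.nonneg 1).trans (h.le 1)

lemma n1_le_card {A : G →₀ ℝ} {c : ℝ} (h : ∀ y, |A y| ≤ c) {N : ℕ} (hN : A.support.card ≤ N) :
    n1 A ≤ N * c := by
  refine (sum_le_sum (g := fun _ => c) fun y _ => h y).trans ?_
  rw [sum_const, nsmul_eq_mul]
  have := (abs_nonneg _).trans (h 1)
  gcongr

lemma Len.n1_chi (h : Len ℓ T Bl) (hE : Bl.card ≤ E) (x : G) : n1 (h.chi x) ≤ T * E :=
  (n1_le_card (h.abs_chi x) (h.chi_card x)).trans (by have := h.T0; nlinarith)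

lemma Len.chi_lip (h : Len ℓ T Bl) (x x' y : G) : |h.chi x' y - h.chi x y| ≤ ℓ (x⁻¹ * x') := by
  have a := h.tri x x' y
  have b := h.tri x' x y
  rw [h.symm x' x] at b
  rw [h.chi_apply, h.chi_apply, abs_le]; constructor <;> linarith

lemma Len.raw (h : Len ℓ T Bl) (hE : Bl.card ≤ E) (hM : 0 < M) :
    Fld g M ℓ T E (fun z t => h.chi (z t)) 1 1 where
  ok z t := ⟨h.chi_nonneg _, (h.n1_chi hE _).trans (by
    have := mul_nonneg h.T0 ((Nat.cast_nonneg _).trans hE); linarith)⟩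
  le z t y := (le_abs_self _).trans ((h.abs_chi _ _).trans (by linarith [h.T0]))
  eqv := ⟨fun c _ z t y => by simp only [h.chi_apply]; congr 2; group, fun z _ t y => rfl⟩
  lip z z' a b := by
    classical
    refine ⟨fun t => ℓ ((z t)⁻¹ * z' t), fun t => congrArg ℓ (a.per b t),
      fun t y => h.chi_lip _ _ _,
      fun t => ?_, by rw [one_mul]; rfl, fun t => ?_⟩
    · refine (n1_le_card (N := 2 * Bl.card) (h.chi_lip _ _) ((card_le_card
        Finsupp.support_sub).trans ((card_union_le _ _).trans ?_))).trans ?_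
      · have := h.chi_card (z t); have := h.chi_card (z' t); omega
      · have := h.nonneg ((z t)⁻¹ * z' t)
        push_cast; gcongr
    · have := sum_win (ψ := fun t => ℓ ((z t)⁻¹ * z' t)) (fun t => by rw [a.per b])
        (fun t => h.nonneg _) (H := 1) (r := 1) (by omega) t
      simpa [Dz] using this

variable {p Γ : ℝ} {s : ℕ}

/-- Smoothing with the bump functions. -/
noncomputable def Len.sm (h : Len ℓ T Bl) (p : ℝ) (s : ℕ) (m : (ℤ → G) → ℤ → G →₀ ℝ)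
    (z : ℤ → G) (t : ℤ) : G →₀ ℝ := Finsupp.linearCombination ℝ h.chi (xi p s (m z t))

lemma Len.lc_apply (h : Len ℓ T Bl) (A : G →₀ ℝ) (y : G) :
    Finsupp.linearCombination ℝ h.chi A y = ip A fun y' => h.chi y' y := by
  rw [ip_eq subset_rfl, Finsupp.linearCombination_apply, Finsupp.sum, Finsupp.finsetSum_apply]
  rfl

lemma Len.n1_lc (h : Len ℓ T Bl) (hE : Bl.card ≤ E) (A : G →₀ ℝ) :
    n1 (Finsupp.linearCombination ℝ h.chi A) ≤ n1 A * (T * E) := by
  rw [Finsupp.linearCombination_apply, Finsupp.sum, n1.eq_1 A, sum_mul]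
  refine (n1_sum_le _ _).trans (sum_le_sum fun y _ => (n1_smul_le _ _).trans ?_)
  gcongr; exact h.n1_chi hE _

lemma Len.sm_apply (h : Len ℓ T Bl) (z : ℤ → G) (t : ℤ) (y : G) :
    h.sm p s m z t y = ip (xi p s (m z t)) fun y' => h.chi y' y := h.lc_apply _ _

lemma Fld.sm (hm : Fld g M ℓ T E m κ σ) (h : Len ℓ T Bl) (hE : Bl.card ≤ E)
    (H : SP0 p s (2 * T * E) Γ) : Fld g M ℓ T E (h.sm p s m) (T * Γ * κ) (T * Γ * σ) := by
  have T0 := h.T0
  have E0 : 0 ≤ E := (Nat.cast_nonneg _).trans hE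
  have Γ0 := H.gam_pos
  refine ⟨fun z t => ⟨fun y => ?_, (h.n1_lc hE _).trans ?_⟩, fun z t y => ?_,
    ⟨fun c hc z t y => ?_, fun z hz t y => ?_⟩, fun z z' a b => ?_⟩
  · rw [h.sm_apply, ip_eq subset_rfl]
    exact sum_nonneg fun _ _ => mul_nonneg (xi_nonneg H.pos (hm.ok _ _).nonneg _) (h.chi_nonneg _ _)
  · have := (hm.ok z t).n1_xi H
    nlinarith [mul_nonneg T0 E0]
  · rw [h.sm_apply]
    refine (le_abs_self _).trans ((abs_ip_le fun y' => h.abs_chi y' y).trans ?_)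
    gcongr; exact (hm.ok z t).n1_xi H
  · simp only [h.sm_apply]
    exact ip_equiv (Equiv.mulLeft c) (xi_equiv _ (hm.eqv.zinv c hc z t) p s) fun y' => by
      simp only [h.chi_apply, Equiv.coe_mulLeft]; congr 2; group
  · simp only [h.sm_apply]
    exact ip_equiv (Equiv.refl _) (xi_equiv _ (hm.eqv.shift z hz t) p s) fun y' => rfl
  · obtain ⟨ψ, p1, p2, p3, p4, p5⟩ := hm.lip z z' a b
    have p0 : ∀ t, 0 ≤ ψ t := fun t => (abs_nonneg _).trans (p2 t 1)
    have p6 := fun t => (hm.ok z t).xi_lip H (hm.ok z' t) (p2 t) (p0 t)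
    refine ⟨fun t => T * Γ * ψ t, fun t => by simp only [p1], fun t y => ?_, fun t => ?_, ?_,
      fun t => ?_⟩
    · rw [h.sm_apply, h.sm_apply, ← LinearMap.sub_apply, ← map_sub]
      refine (abs_ip_le fun y' => h.abs_chi y' y).trans ?_
      nlinarith [p6 t]
    · rw [Len.sm, Len.sm, ← map_sub]
      refine (h.n1_lc hE _).trans ?_
      have := mul_le_mul_of_nonneg_right (p6 t) (mul_nonneg T0 E0)
      have := p0 t
      have : 0 ≤ E * (T * Γ * ψ t) := by positivity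
      nlinarith
    · rw [← mul_sum, mul_assoc _ κ]; gcongr
    · rw [mul_assoc _ σ]; exact mul_le_mul_of_nonneg_left (p5 t) (by positivity)

noncomputable def lX (p : ℝ) (s : ℕ) (m : (ℤ → G) → ℤ → G →₀ ℝ) (z : ℤ → G) (t : ℤ) : G →₀ ℝ :=
  xi p s (m z t)

noncomputable def lW (H : ℕ) (m : (ℤ → G) → ℤ → G →₀ ℝ) (z : ℤ → G) (t : ℤ) (y : G) : ℝ :=
  -(1 / 2) * ∑ h ∈ range H, m z (t + h) y

lemma Fld.eqv_lX (hm : Fld g M ℓ T E m κ σ) : Eqv g M fun z t y => lX p s m z t y :=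
  ⟨fun c hc z t y => xi_equiv (Equiv.mulLeft c) (hm.eqv.zinv c hc z t) p s y,
    fun z hz t y => xi_equiv (Equiv.refl _) (hm.eqv.shift z hz t) p s y⟩

lemma Fld.lip_lX (hm : Fld g M ℓ T E m κ σ) (H : SP0 p s (2 * T * E) Γ) {z z' : ℤ → G}
    (a : Tw g M z) (b : Tw g M z') :
    ∑ t ∈ range M, n1 (lX p s m z' t - lX p s m z t) ≤ Γ * κ * Dz ℓ M z z' := by
  obtain ⟨ψ, p1, p2, p3, p4, p5⟩ := hm.lip z z' a b
  have p0 : ∀ t, 0 ≤ ψ t := fun t => (abs_nonneg _).trans (p2 t 1)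
  refine (sum_le_sum (g := fun t : ℕ => Γ * ψ t) fun t _ =>
    (hm.ok z t).xi_lip H (hm.ok z' t) (p2 t) (p0 t)).trans ?_
  have := H.gam_pos
  rw [← mul_sum, mul_assoc]; gcongr

lemma Fld.lW_sh (hm : Fld g M ℓ T E m κ σ) (H : ℕ) {z : ℤ → G} (a : Tw g M z) (t : ℤ) (y : G) :
    lW H m (sh z) t y - lW H m z t y = (m z t y - m z (t + H) y) / 2 := by
  have h1 := sum_range_succ (fun h : ℕ => m z (t + h) y) H
  have h2 := sum_range_succ' (fun h : ℕ => m z (t + h) y) H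
  simp only [lW, hm.eqv.shift z a]
  simp only [Nat.cast_add, Nat.cast_one, Nat.cast_zero, add_zero, ← add_assoc] at h1 h2
  linarith

lemma lW_lip (H : ℕ) {z z' : ℤ → G} {ψ : ℤ → ℝ}
    (p2 : ∀ t y, |m z' t y - m z t y| ≤ ψ t) (t : ℤ) (y : G) :
    |lW H m z' t y - lW H m z t y| ≤ 1 / 2 * ∑ h ∈ range H, ψ (t + h) := by
  rw [lW, lW, ← mul_sub, ← sum_sub_distrib, abs_mul, abs_neg, abs_of_nonneg (by positivity)]
  gcongr
  exact (abs_sum_le_sum_abs _ _).trans (sum_le_sum fun _ _ => p2 _ _)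

lemma Fld.pp (hm : Fld g M ℓ T E m κ σ) (hl : Len ℓ T Bl) (H : SP0 p s (2 * T * E) Γ) {N : ℕ}
    (hN : N ≤ M) {K : ℝ} (h1 : 2 * T ≤ K) (h2 : 2 ≤ K) (h3 : Γ * κ ≤ K) (h4 : κ ≤ K) :
    Pp g M ℓ (lX p s m) (lW N m) K σ := by
  have T0 := hl.T0
  have ab : ∀ z t y, |m z t y| ≤ K := fun z t y => by
    rw [abs_of_nonneg ((hm.ok z t).nonneg y)]; linarith [hm.le z t y]
  refine ⟨fun z t => ((hm.ok z t).n1_xi H).trans (by linarith), fun z t y => ?_, hm.eqv_lX,
    ⟨fun c hc z t y => by simp only [lW, hm.eqv.zinv c hc],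
      fun z hz t y => by simp only [lW, hm.eqv.shift z hz, add_right_comm]⟩,
    fun z z' a b => (hm.lip_lX H a b).trans ?_, fun z z' a b t y => ?_, fun z a t y => ?_,
    fun z z' a b => ?_⟩
  · rw [lW, abs_mul, abs_neg, abs_of_nonneg (by positivity)]
    have := (abs_sum_le_sum_abs _ _).trans
      (sum_le_sum (s := range N) (g := fun _ => K) fun h _ => ab z (t + h) y)
    rw [sum_const, card_range, nsmul_eq_mul] at this
    have : (N : ℝ) ≤ M := by exact_mod_cast hN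
    have : (0 : ℝ) ≤ N := N.cast_nonneg
    nlinarith
  · have := hl.Dz_nonneg (M := M) z z'; gcongr
  · obtain ⟨ψ, p1, p2, p3, p4, p5⟩ := hm.lip z z' a b
    have p0 : ∀ t, 0 ≤ ψ t := fun t => (abs_nonneg _).trans (p2 t 1)
    have := sum_win p1 p0 (H := N) (r := 1) (by omega) t
    have := hl.Dz_nonneg (M := M) z z'
    have := sum_nonneg (s := range M) fun (t : ℕ) _ => p0 t
    refine (lW_lip N p2 t y).trans ?_
    push_cast at *
    nlinarith
  · rw [hm.lW_sh N a]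
    have := ab z t y; have := ab z (t + N) y
    rw [abs_le] at *; constructor <;> linarith
  · obtain ⟨ψ, p1, p2, p3, p4, p5⟩ := hm.lip z z' a b
    refine ⟨fun t => (ψ t + ψ (t + N)) / 2, fun t y => ?_, ?_, fun t => ?_⟩
    · rw [hm.lW_sh N a, hm.lW_sh N b]
      have := p2 t y; have := p2 (t + N) y
      rw [abs_le] at *; constructor <;> linarith
    · rw [← sum_div, sum_add_distrib, sum_per p1]
      have := hl.Dz_nonneg (M := M) z z'
      nlinarith
    · have := p5 t; have := p5 (t + N); linarith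

/-- Total soft maximum along the loop. -/
noncomputable def PP (M : ℕ) (p : ℝ) (s : ℕ) (m : (ℤ → G) → ℤ → G →₀ ℝ) (z : ℤ → G) : ℝ :=
  ∑ t ∈ range M, Psi p s (m z t)

lemma Fld.gap (hF : Fld g M ℓ T E F κ σ) (hp : 0 < p) {H : ℕ} (hH : 0 < H) (hH' : H ≤ M)
    {z : ℤ → G} (a : Tw g M z) : PP M p s (bx H F) z - PP M p s (bx (2 * H) F) z
      ≤ tp M (lX p s (bx H F) z) (lW H (bx H F) (sh z) - lW H (bx H F) z) := by
  have h1 := hF.box hH (r := 1) (by omega)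
  have h2 := hF.box (H := 2 * H) (by omega) (r := 2) (by omega)
  rw [PP, PP, ← sum_sub_distrib]
  refine sum_le_sum fun t _ => (Psi_sub_le hp (h1.ok z t).nonneg (h2.ok z t).nonneg).trans
    (le_of_eq ?_)
  congr 1
  funext y
  simp only [Pi.sub_apply]
  rw [h1.lW_sh H a, bx_two hH]; ring

end Vale.Agent.P184
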