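import Vale.Agent.P184.Alg

/-! Vanishing of the trace of summable idempotents. -/

namespace Vale.Agent.P184

set_option linter.unusedSectionVars false

open Finset Filter Topology

variable {G A : Type*} [Group G] [NormedRing A]

lemma Nw_le {w : G → ℝ} {a : MonoidAlgebra A G} {c : ℝ} (h : ∀ s ∈ a.coeff.support, w s ≤ c) :
    Nw w a ≤ c * Nw (fun _ => 1) a := by
  rw [Nw_eq subset_rfl, Nw_eq subset_rfl, mul_sum]
  exact sum_le_sum fun s hs => by
    rw [mul_one, mul_comm c]; exact mul_le_mul_of_nonneg_left (h s hs) (norm_nonneg _)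

lemma le_Nw {w : G → ℝ} (h : ∀ s, 1 ≤ w s) (a : MonoidAlgebra A G) : Nw (fun _ => 1) a ≤ Nw w a :=
  sum_le_sum fun s _ => mul_le_mul_of_nonneg_left (h s) (norm_nonneg _)

lemma seq_est {ℓ : G → ℝ} {T : ℝ} {Bl : Finset G} (hl : Len ℓ T Bl) {g : G} {C ε : ℝ} (C1 : 1 ≤ C)
    {a : ℕ → MonoidAlgebra A G} (h1 : ∀ i, Nw (fun s => Real.exp (2 * ℓ s)) (a i) ≤ C)
    (h2 : ∀ i, Nw (fun _ => 1) (a i * a i - a i) ≤ ε / 2 ^ i) {k M : ℕ} (hM : 0 < M)
    {t : (ℤ → G) → (ℤ → G) → ℝ} {B B' : ℝ}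
    (H : EstH g M ℓ T t k B B' (1 / (28 * Real.exp 3 * C ^ 2))) {τ : A →+ ℝ} {κ : ℝ} (hκ : 0 ≤ κ)
    (hτ' : ∀ x, |τ x| ≤ κ * ‖x‖) (hτ : ∀ x y, τ (x * y) = τ (y * x)) :
    ∃ c, ∀ i, |trC τ g (a i)| ≤ κ * ‖(1 : A)‖ * C / 2 ^ k + c / 2 ^ i := by
  obtain ⟨C', hC⟩ := H.trace hl hM hκ hτ' hτ
  have w1 : ∀ s, 1 ≤ Real.exp (2 * ℓ s) := fun s => Real.one_le_exp (by linarith [hl.nonneg s])
  refine ⟨|C'| * (ε * C ^ (2 * k + 1)) + κ * ((2 * k + 2 : ℕ) * C ^ (2 * k + 2) * ε), fun i => ?_⟩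
  have b1 := (le_Nw w1 _).trans (h1 i)
  have n0 := fun b : MonoidAlgebra A G => Nw_nonneg (w := fun _ => 1) (by simp) b
  have e0 := (n0 _).trans (h2 i)
  have a1 := hC (a i)
  have a2 := (trC_le hκ hτ' g _).trans (mul_le_mul_of_nonneg_left
    ((N_pow_sub N1 (a i) b1 C1 (2 * k + 2)).trans (mul_le_mul_of_nonneg_left (h2 i)
      (by positivity))) hκ)
  have a3 : C' * (Nw (fun _ => 1) (a i * a i - a i) * Nw (fun _ => 1) (a i) ^ (2 * k + 1))
      ≤ |C'| * (ε / 2 ^ i * C ^ (2 * k + 1)) := by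
    have := n0 (a i); have := n0 (a i * a i - a i)
    gcongr
    · exact le_abs_self _
    · exact h2 i
  have a4 : κ * ‖(1 : A)‖ * (14 * Real.exp 3 * (1 / (28 * Real.exp 3 * C ^ 2))) ^ (k + 1) *
      Nw (fun s => Real.exp (2 * ℓ s)) (a i) ^ (2 * k + 3) ≤ κ * ‖(1 : A)‖ * C / 2 ^ k := by
    have := Nw_nonneg (fun s => (Real.exp_pos (2 * ℓ s)).le) (a i)
    calc _ ≤ κ * ‖(1 : A)‖ * (14 * Real.exp 3 * (1 / (28 * Real.exp 3 * C ^ 2))) ^ (k + 1) *
          C ^ (2 * k + 3) := by gcongr; exact h1 i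
      _ = κ * ‖(1 : A)‖ * C / 2 ^ (k + 1) := by
        rw [show 14 * Real.exp 3 * (1 / (28 * Real.exp 3 * C ^ 2)) = 1 / (2 * C ^ 2) by
          field_simp; norm_num, one_div_pow, mul_pow, ← pow_mul]
        field_simp; ring
      _ ≤ _ := by gcongr <;> norm_num
  rw [map_sub] at a2
  rw [show (|C'| * (ε * C ^ (2 * k + 1)) + κ * ((2 * k + 2 : ℕ) * C ^ (2 * k + 2) * ε)) / 2 ^ i
    = |C'| * (ε / 2 ^ i * C ^ (2 * k + 1)) + κ * ((2 * k + 2 : ℕ) * C ^ (2 * k + 2) * (ε / 2 ^ i)) by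
    ring]
  rw [abs_le] at *
  constructor <;> linarith

open Classical Pointwise in
theorem main_gen {e : G → A} {S : ℝ} (he : HasSum (fun s => ‖e s‖) S)
    (hi : ∀ g, HasSum (fun h => e h * e (h⁻¹ * g)) (e g)) :
    ∃ Bl : Finset G, ∀ g : G, (¬ IsOfFinOrder g ∨ ∀ y, ¬ Short Bl (y⁻¹ * g * y)) →
      ∀ (τ : A →+ ℝ) (κ : ℝ), 0 ≤ κ → (∀ x, |τ x| ≤ κ * ‖x‖) → (∀ x y, τ (x * y) = τ (y * x)) →
        HasSum (fun s => if IsConj g s then τ (e s) else 0) 0 := by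
  have S0 : 0 ≤ S := he.nonneg fun _ => norm_nonneg _
  obtain ⟨C, hC⟩ : ∃ C, C = 2 * (Real.exp 2 * S) + 1 := ⟨_, rfl⟩
  have C1 : 1 ≤ C := by rw [hC]; exact le_add_of_nonneg_left (by positivity)
  have tl : Tendsto (fun V : Finset G => S - ∑ s ∈ V, ‖e s‖) atTop (𝓝 0) := by
    simpa using (he.const_sub S : Tendsto (fun V : Finset G => S - ∑ s ∈ V, ‖e s‖) atTop _)
  have e4 : 1 ≤ Real.exp 4 := Real.one_le_exp (by norm_num)
  obtain ⟨U, hU⟩ := (tl.eventually (ge_mem_nhds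
    (show 0 < 1 / (16 * C) / (Real.exp 4 * (2 * S + 1)) by positivity))).exists
  have θ1 : 1 / (28 * Real.exp 3 * C ^ 2) ≤ 1 := by
    have : 1 ≤ Real.exp 3 := Real.one_le_exp (by norm_num)
    have : 1 ≤ C ^ 2 := one_le_pow₀ C1
    rw [div_le_one (by positivity)]; nlinarith
  obtain ⟨ℓ, T, Bl, hl, hℓ, key⟩ := key_est U (by positivity) θ1
  refine ⟨Bl, fun g hg τ κ hκ hτ' hτ => ?_⟩
  have w1 : ∀ s, 1 ≤ Real.exp (2 * ℓ s) := fun s => Real.one_le_exp (by linarith [hl.nonneg s])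
  set N : RingSeminorm (MonoidAlgebra A G) := NS (fun s => Real.exp (2 * ℓ s))
    (fun _ => (Real.exp_pos _).le) fun s t => by
      rw [← Real.exp_add]; gcongr; linarith [hl.mul s t]
  have c16 : 1 / (16 * C) ≤ 1 / 16 := by gcongr; linarith
  have b1 : N (trunc e U * trunc e U - trunc e U) ≤ 1 / (16 * C) := by
    refine (Nw_le (c := Real.exp 4) fun s hs => ?_).trans ?_
    · gcongr
      rcases mem_union.1 (Finsupp.support_sub hs) with h | h
      · obtain ⟨x, hx, y, hy, rfl⟩ := mem_mul.1 (MonoidAlgebra.support_coeff_mul_subset _ _ h)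
        linarith [hl.mul x y, hℓ x (trunc_supp e U hx), hℓ y (trunc_supp e U hy)]
      · linarith [hℓ s (trunc_supp e U h)]
    · rw [le_div_iff₀' (by positivity), mul_assoc] at hU
      exact (mul_le_mul_of_nonneg_left (N1_trunc_sq he hi U) (by positivity)).trans hU
  have b2 : 2 * N (trunc e U) + 1 ≤ C := by
    have : N (trunc e U) ≤ Real.exp 2 * S :=
      (Nw_le (c := Real.exp 2) fun s hs => by gcongr; linarith [hℓ s (trunc_supp e U hs)]).trans
        (mul_le_mul_of_nonneg_left (N1_trunc he U) (by positivity))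
    linarith
  have b3 : S - ∑ s ∈ U, ‖e s‖ ≤ 1 / 16 := hU.trans ((div_le_self (by positivity)
    (one_le_mul_of_one_le_of_one_le e4 (by linarith))).trans c16)
  have nt := newton N _ b1 (by linarith) b2
  set a : ℕ → MonoidAlgebra A G := fun i => nw^[i] (trunc e U)
  have p0 : ∀ i : ℕ, 0 ≤ C * (1 / (16 * C) / 2 ^ i) := fun i => by positivity
  have n1 : ∀ i, N (a i) ≤ C := fun i => by have := (nt i).2.1; have := p0 i; linarith
  have n2 : ∀ i, Nw (fun _ => 1) (a i * a i - a i) ≤ 1 / (16 * C) / 2 ^ i := fun i =>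
    (le_Nw w1 _).trans (nt i).1
  have n3 : ∀ i, Nw (fun _ => 1) (a i - trunc e U) ≤ 1 / 4 := fun i => by
    refine (le_Nw w1 _).trans ((nt i).2.2.trans ?_)
    have := p0 i
    have : C * (1 / (16 * C)) = 1 / 16 := by field_simp
    linarith
  have sm : Summable fun s => if IsConj g s then τ (e s) else 0 :=
    Summable.of_norm_bounded (he.summable.mul_left κ) fun s => by
      split_ifs
      · exact hτ' _
      · rw [norm_zero]; positivity
  have hL := sm.hasSum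
  generalize (∑' s, if IsConj g s then τ (e s) else 0) = L at hL
  suffices L = 0 by rwa [this] at hL
  have h0 : Tendsto (fun i : ℕ => (1 : ℝ) / 2 ^ i) atTop (𝓝 0) := by
    simpa using tendsto_pow_atTop_nhds_zero_of_lt_one (r := (1 : ℝ) / 2) (by norm_num) (by norm_num)
  have h1 : ∀ x c : ℝ, Tendsto (fun i : ℕ => x + c / 2 ^ i) atTop (𝓝 x) := fun x c => by
    simpa [div_eq_mul_inv] using (h0.const_mul c).const_add x
  refine abs_nonpos_iff.1 (ge_of_tendsto' (h1 0 (κ * ‖(1 : A)‖ * C + κ)) fun j => ?_)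
  obtain ⟨k, hk, M, hM, t, B, B', H⟩ := key g hg j
  obtain ⟨c, hc⟩ := seq_est hl C1 n1 n2 hM H hκ hτ' hτ
  set N' : RingSeminorm (MonoidAlgebra A G) := N1
  set D := (j : ℝ) * (κ * (2 * j * (N' 1 + C + S) + 2))
  have h2 : Tendsto (fun V : Finset G => (κ * ‖(1 : A)‖ * C + κ) / 2 ^ j
      + D * ((2 * S + 1) * (S - ∑ s ∈ V, ‖e s‖))) atTop (𝓝 (0 + (κ * ‖(1 : A)‖ * C + κ) / 2 ^ j)) := by
    simpa using ((tl.const_mul (2 * S + 1)).const_mul D).const_add _
  refine le_of_tendsto_of_tendsto (Tendsto.abs hL) h2 ?_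
  filter_upwards [eventually_ge_atTop U] with V hV
  rw [← trC_trunc]
  refine ge_of_tendsto' (h1 _ (c + D * (1 / (16 * C)))) fun i => ?_
  have q1 := tr_close N' hκ (trC_le hκ hτ' g) (trC_comm hτ g) (u := a i) (v := trunc e V)
    (C := N' 1 + C + S) (by
      have := map_add_le_add N' (a i - trunc e U) (trunc e U - trunc e V)
      rw [sub_add_sub_cancel] at this
      exact this.trans ((add_le_add (n3 i) ((N1_trunc_sub he hV).trans b3)).trans (by norm_num)))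
    ((map_sub_le_add N' _ _).trans (add_le_add ((map_sub_le_add N' _ _).trans
      (add_le_add le_rfl ((le_Nw w1 _).trans (n1 i)))) (N1_trunc he V)))
    (add_le_add (n2 i) (N1_trunc_sq he hi V)) j
  have q2 := hc i
  have q3 : κ * ‖(1 : A)‖ * C / 2 ^ k ≤ κ * ‖(1 : A)‖ * C / 2 ^ j := by gcongr; norm_num
  rw [← mul_assoc] at q1
  rw [add_div, add_div c, mul_div_assoc D]
  rw [abs_le] at *
  constructor <;> linarith

end Vale.Agent.P184
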