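import Mathlib

/-! The pairing of tensor powers of a group ring element with functions of loops. -/

namespace Vale.Agent.P184

set_option linter.unusedSectionVars false

open Finset

variable {G A : Type*} [Group G] [NormedRing A]

/-- Weighted norm. -/
noncomputable def Nw (w : G → ℝ) (b : MonoidAlgebra A G) : ℝ :=
  b.coeff.sum fun s x => ‖x‖ * w s

noncomputable def lf (Ψ : G → A →+ ℝ) : MonoidAlgebra A G →+ ℝ :=
  (Finsupp.liftAddHom Ψ).comp MonoidAlgebra.coeffAddEquiv.toAddMonoidHom

lemma lf_apply (Ψ : G → A →+ ℝ) (b : MonoidAlgebra A G) :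
    lf Ψ b = b.coeff.sum fun s x => Ψ s x := rfl

lemma lf_single (Ψ : G → A →+ ℝ) (s : G) (x : A) : lf Ψ (MonoidAlgebra.single s x) = Ψ s x := by
  simp [lf_apply]

lemma lf_mul (Ψ : G → A →+ ℝ) (b b' : MonoidAlgebra A G) :
    lf Ψ (b * b') = b.coeff.sum fun s x => b'.coeff.sum fun s' y => Ψ (s * s') (x * y) := by
  rw [MonoidAlgebra.mul_def, map_finsuppSum]
  simp only [map_finsuppSum, lf_single]

noncomputable def prH : List (MonoidAlgebra A G) → (A →+ ℝ) → (List G → ℝ) → A →+ ℝ
  | [], τ, Φ => (AddMonoidHom.mulRight (Φ [])).comp τ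
  | b :: bs, τ, Φ => b.coeff.sum fun s x =>
      (prH bs τ fun l => Φ (s :: l)).comp (AddMonoidHom.mulRight x)

lemma prH_nil (τ : A →+ ℝ) (Φ : List G → ℝ) (c : A) : prH [] τ Φ c = τ c * Φ [] := rfl

lemma prH_cons (b : MonoidAlgebra A G) (bs) (τ : A →+ ℝ) (Φ : List G → ℝ) (c : A) :
    prH (b :: bs) τ Φ c = b.coeff.sum fun s x => prH bs τ (fun l => Φ (s :: l)) (c * x) := by
  simp [prH, Finsupp.sum]

lemma prH_add (bs : List (MonoidAlgebra A G)) (τ : A →+ ℝ) (Φ Φ' : List G → ℝ) (c : A) :
    prH bs τ (fun l => Φ l + Φ' l) c = prH bs τ Φ c + prH bs τ Φ' c := by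
  induction bs generalizing Φ Φ' c with
  | nil => simp [prH_nil, mul_add]
  | cons b bs ih => simp only [prH_cons, ih, Finsupp.sum_add]

lemma prH_smul (bs : List (MonoidAlgebra A G)) (τ : A →+ ℝ) (r : ℝ) (Φ : List G → ℝ) (c : A) :
    prH bs τ (fun l => r * Φ l) c = r * prH bs τ Φ c := by
  induction bs generalizing Φ c with
  | nil => simp only [prH_nil]; ring
  | cons b bs ih => simp only [prH_cons, ih, Finsupp.mul_sum]

lemma prH_congr (bs : List (MonoidAlgebra A G)) (τ : A →+ ℝ) {Φ Φ' : List G → ℝ}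
    (h : ∀ l, l.length = bs.length → Φ l = Φ' l) (c : A) : prH bs τ Φ c = prH bs τ Φ' c := by
  induction bs generalizing Φ Φ' c with
  | nil => simp [prH_nil, h]
  | cons b bs ih =>
    simp only [prH_cons]
    refine Finsupp.sum_congr fun s _ => ih (fun l hl => h _ (by simp [hl])) _

lemma prH_mul (bs : List (MonoidAlgebra A G)) (τ : A →+ ℝ) (Φ : List G → ℝ) (x c : A) :
    prH bs τ Φ (x * c) = prH bs (τ.comp (AddMonoidHom.mulLeft x)) Φ c := by
  induction bs generalizing Φ c with
  | nil => rfl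
  | cons b bs ih => simp only [prH_cons, mul_assoc, ih]

lemma prH_snoc (bs : List (MonoidAlgebra A G)) (b) (τ : A →+ ℝ) (Φ : List G → ℝ) (c : A) :
    prH (bs ++ [b]) τ Φ c = b.coeff.sum fun s x =>
      prH bs (τ.comp (AddMonoidHom.mulRight x)) (fun l => Φ (l ++ [s])) c := by
  induction bs generalizing Φ c with
  | nil => simp [prH_cons, prH_nil]
  | cons b' bs ih =>
    simp only [List.cons_append, prH_cons, ih]
    exact Finsupp.sum_comm _ _ _

lemma prH_rot {τ : A →+ ℝ} (hτ : ∀ x y, τ (x * y) = τ (y * x)) (bs : List (MonoidAlgebra A G))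
    (b) (Φ Φ' : List G → ℝ) (h : ∀ s l, Φ (s :: l) = Φ' (l ++ [s])) :
    prH (b :: bs) τ Φ 1 = prH (bs ++ [b]) τ Φ' 1 := by
  rw [prH_cons, prH_snoc]
  refine Finsupp.sum_congr fun s _ => ?_
  rw [one_mul, ← mul_one (b.coeff s), prH_mul, mul_one]
  simp only [h]
  congr 2
  ext y; exact hτ _ _

lemma prH_lf (b : MonoidAlgebra A G) (bs) (τ : A →+ ℝ) (Φ : List G → ℝ) :
    prH (b :: bs) τ Φ 1 = lf (fun s => prH bs τ fun l => Φ (s :: l)) b := by
  simp [prH_cons, lf_apply]

lemma prH_merge (b b' : MonoidAlgebra A G) (bs) (τ : A →+ ℝ) (Φ Φ' : List G → ℝ)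
    (h : ∀ s s' l, l.length = bs.length → Φ (s :: s' :: l) = Φ' (s * s' :: l)) :
    prH (b :: b' :: bs) τ Φ 1 = prH (b * b' :: bs) τ Φ' 1 := by
  rw [prH_lf (b * b'), lf_mul]
  simp only [prH_cons, one_mul]
  exact Finsupp.sum_congr fun s _ => Finsupp.sum_congr fun s' _ => prH_congr _ _ (h s s') _

lemma prH_prod (bs : List (MonoidAlgebra A G)) (τ : A →+ ℝ) (ψ : G → ℝ) (c : A) :
    prH bs τ (fun l => ψ l.prod) c = bs.prod.coeff.sum fun s x => τ (c * x) * ψ s := by
  induction bs generalizing ψ c with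
  | nil => simp [prH_nil, MonoidAlgebra.one_def]
  | cons b bs ih =>
    have := lf_mul (fun s => ((AddMonoidHom.mulRight (ψ s)).comp τ).comp (AddMonoidHom.mulLeft c))
      b bs.prod
    rw [lf_apply] at this
    simp only [AddMonoidHom.comp_apply, AddMonoidHom.coe_mulLeft,
      AddMonoidHom.mulRight_apply] at this
    rw [List.prod_cons, this, prH_cons]
    refine Finsupp.sum_congr fun s _ => ?_
    simp only [List.prod_cons]
    rw [ih (fun t => ψ (s * t))]
    simp only [mul_assoc]

lemma Nw_nonneg {w : G → ℝ} (hw : ∀ s, 0 ≤ w s) (b : MonoidAlgebra A G) : 0 ≤ Nw w b :=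
  sum_nonneg fun s _ => mul_nonneg (norm_nonneg _) (hw s)

lemma prH_bound (bs : List (MonoidAlgebra A G)) {τ : A →+ ℝ} {κ : ℝ} (hκ : 0 ≤ κ)
    (hτ : ∀ x, |τ x| ≤ κ * ‖x‖) {w : G → ℝ} (hw : ∀ s, 0 ≤ w s) {Φ : List G → ℝ} {C : ℝ}
    (hC : 0 ≤ C) (h : ∀ l, l.length = bs.length → |Φ l| ≤ C * (l.map w).prod) (c : A) :
    |prH bs τ Φ c| ≤ κ * ‖c‖ * C * (bs.map (Nw w)).prod := by
  induction bs generalizing Φ c C with
  | nil =>
    rw [prH_nil, abs_mul]
    have := h [] rfl
    simp only [List.map_nil, List.prod_nil, mul_one] at this ⊢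
    exact mul_le_mul (hτ c) this (abs_nonneg _) (by positivity)
  | cons b bs ih =>
    rw [prH_cons, List.map_cons, List.prod_cons]
    have hP : 0 ≤ (bs.map (Nw w)).prod :=
      List.prod_nonneg fun x hx => by
        obtain ⟨b, _, rfl⟩ := List.mem_map.1 hx; exact Nw_nonneg hw b
    refine (abs_sum_le_sum_abs _ _).trans ?_
    rw [Nw, Finsupp.sum, sum_mul, mul_sum]
    refine sum_le_sum fun s _ => ?_
    have hs := hw s
    refine (ih (C := C * w s) (by positivity) (fun l hl => ?_) _).trans ?_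
    · have := h (s :: l) (by simp [hl])
      simpa [mul_assoc] using this
    · have := norm_mul_le c (b.coeff s)
      calc κ * ‖c * b.coeff s‖ * (C * w s) * (bs.map (Nw w)).prod
          ≤ κ * (‖c‖ * ‖b.coeff s‖) * (C * w s) * (bs.map (Nw w)).prod := by gcongr
        _ = _ := by ring

/-- Twisted periodic sequences. -/
def Tw (g : G) (m : ℕ) (X : ℤ → G) : Prop := ∀ j, X (j + m) = g * X j

/-- The increments over one period. -/
def incr (m : ℕ) (X : ℤ → G) : List G := (List.range m).map fun i : ℕ => (X i)⁻¹ * X (i + 1)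

/-- Invariance under the centraliser. -/
def ZInv (g : G) (f : (ℤ → G) → ℝ) : Prop := ∀ c, c * g = g * c → ∀ X, f (fun j => c * X j) = f X

open Classical in
noncomputable def th (g : G) (f : (ℤ → G) → ℝ) (l : List G) : ℝ :=
  if h : ∃ X, Tw g l.length X ∧ incr l.length X = l then f h.choose else 0

lemma incr_length (m : ℕ) (X : ℤ → G) : (incr m X).length = m := by simp [incr]

lemma incr_prod (m : ℕ) (X : ℤ → G) : (incr m X).prod = (X 0)⁻¹ * X m := by
  induction m with
  | zero => simp [incr]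
  | succ m ih =>
    unfold incr at ih ⊢
    rw [List.range_succ, List.map_append, List.prod_append, ih]; simp [mul_assoc]

lemma Tw.zpow {g : G} {m : ℕ} {X : ℤ → G} (h : Tw g m X) (c j : ℤ) :
    X (j + c * m) = g ^ c * X j := by
  induction c using Int.induction_on with
  | zero => simp
  | succ c ih => rw [add_mul, one_mul, ← add_assoc, h, ih, ← mul_assoc, add_comm, zpow_one_add]
  | pred c ih =>
    have := h (j + (-c - 1) * m)
    rw [show j + (-c - 1) * m + m = j + -c * m by ring, ih] at this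
    rw [← inv_mul_eq_iff_eq_mul] at this
    rw [← this, ← mul_assoc, show (-c - 1 : ℤ) = -1 + -c by ring, zpow_add, zpow_neg_one]

lemma th_eq {g : G} {f : (ℤ → G) → ℝ} (hf : ZInv g f) {m : ℕ} (hm : 0 < m) {X : ℤ → G}
    (hX : Tw g m X) : th g f (incr m X) = f X := by
  have h : ∃ Y, Tw g (incr m X).length Y ∧ incr (incr m X).length Y = incr m X :=
    ⟨X, by rw [incr_length]; exact ⟨hX, rfl⟩⟩
  rw [th, dif_pos h]
  obtain ⟨h1, h2⟩ := h.choose_spec
  generalize h.choose = Y at h1 h2
  rw [incr_length] at h1 h2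
  have h3 : ∀ i : ℕ, i < m → (Y i)⁻¹ * Y (i + 1) = (X i)⁻¹ * X (i + 1) := by
    intro i hi
    have := congrArg (fun l => l[i]?) h2
    simpa [incr, hi] using this
  set c := Y 0 * (X 0)⁻¹
  have h4 : ∀ i : ℕ, i ≤ m → Y i = c * X i := by
    intro i
    induction i with
    | zero => intro _; simp [c]
    | succ i ih =>
      intro hi
      have := h3 i (by omega)
      rw [inv_mul_eq_iff_eq_mul, ih (by omega)] at this
      push_cast; rw [this]; group
  have h5 : c * g = g * c := by
    have := h4 m le_rfl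
    have a1 := h1 0; have a2 := hX 0
    rw [zero_add] at a1 a2
    rw [a1, a2] at this
    simp only [c] at this ⊢
    rw [← mul_assoc g, this]; group
  have h6 : Y = fun j => c * X j := by
    funext j
    have e : j = ((j % m).toNat : ℤ) + j / m * m := by
      have := Int.emod_nonneg j (by omega : (m : ℤ) ≠ 0)
      rw [Int.toNat_of_nonneg this]; have := Int.emod_add_mul_ediv j m; linarith
    have hlt : (j % m).toNat ≤ m := by
      have := Int.emod_lt_of_pos j (by omega : (0 : ℤ) < m); omega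
    rw [e, h1.zpow, hX.zpow, h4 _ hlt, ← mul_assoc c, ← mul_assoc _ c,
      ((show Commute c g from h5).zpow_right _).eq]
  rw [h6, hf c h5]

lemma exists_rep {g : G} {l : List G} (hl : l ≠ []) (h : IsConj g l.prod) :
    ∃ X, Tw g l.length X ∧ incr l.length X = l := by
  obtain ⟨x, hx⟩ := isConj_iff.1 h
  have hm : 0 < l.length := List.length_pos_iff.2 hl
  refine ⟨fun j => g ^ (j / l.length) * x⁻¹ * (l.take (j % l.length).toNat).prod, fun j => ?_, ?_⟩
  · beta_reduce
    rw [Int.add_emod_right, show j + l.length = j + 1 * l.length by ring,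
      Int.add_mul_ediv_right _ _ (by omega), add_comm, zpow_one_add]; group
  · apply List.ext_getElem
    · simp [incr]
    · intro i h1 h2
      simp only [incr, List.getElem_map, List.getElem_range]
      have e1 : (i : ℤ) / l.length = 0 := Int.ediv_eq_zero_of_lt (by omega) (by omega)
      have e2 : (i : ℤ) % l.length = i := Int.emod_eq_of_lt (by omega) (by omega)
      rw [e1, e2]
      by_cases hi : i + 1 < l.length
      · have e3 : (i + 1 : ℤ) / l.length = 0 := Int.ediv_eq_zero_of_lt (by omega) (by omega)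
        have e4 : (i + 1 : ℤ) % l.length = (i + 1 : ℕ) := by
          push_cast; exact Int.emod_eq_of_lt (by omega) (by omega)
        rw [e3, e4, Int.toNat_natCast, Int.toNat_natCast, List.prod_take_succ _ _ h2]; group
      · have e5 : (i + 1 : ℤ) = l.length := by omega
        have e6 := List.prod_take_succ l i h2
        rw [List.take_of_length_le (by omega), ← hx] at e6
        rw [e5, Int.ediv_self (by omega), Int.emod_self, Int.toNat_natCast]
        simp only [zpow_zero, one_mul, zpow_one, Int.toNat_zero, List.take_zero, List.prod_nil,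
          mul_one]
        rw [inv_mul_eq_iff_eq_mul, mul_assoc, ← e6]; group

lemma isConj_of_rep {g : G} {m : ℕ} {X : ℤ → G} (h : Tw g m X) : IsConj g (incr m X).prod := by
  rw [incr_prod, isConj_iff]
  have := h 0
  rw [zero_add] at this
  exact ⟨(X 0)⁻¹, by rw [this]; group⟩

lemma th_zero {g : G} (f : (ℤ → G) → ℝ) {l : List G} (h : ¬ IsConj g l.prod) : th g f l = 0 := by
  rw [th, dif_neg]
  rintro ⟨X, h1, h2⟩
  exact h (h2 ▸ isConj_of_rep h1)

/-- The pairing. -/
noncomputable def Pr (τ : A →+ ℝ) (g : G) (a : MonoidAlgebra A G) (m : ℕ) :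
    ((ℤ → G) → ℝ) →ₗ[ℝ] ℝ where
  toFun f := prH (List.replicate m a) τ (th g f) 1
  map_add' f f' := by
    rw [← prH_add]; congr 2; funext l; unfold th; split_ifs <;> simp
  map_smul' r f := by
    simp only [RingHom.id_apply, smul_eq_mul]
    rw [← prH_smul]; congr 2; funext l; unfold th; split_ifs <;> simp

lemma Pr_apply (τ : A →+ ℝ) (g : G) (a : MonoidAlgebra A G) (m : ℕ) (f) :
    Pr τ g a m f = prH (List.replicate m a) τ (th g f) 1 := rfl

lemma Pr_congr (τ : A →+ ℝ) (g : G) (a : MonoidAlgebra A G) (m : ℕ) {f f' : (ℤ → G) → ℝ}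
    (h : ∀ X, Tw g m X → f X = f' X) : Pr τ g a m f = Pr τ g a m f' := by
  refine prH_congr _ _ (fun l hl => ?_) _
  unfold th
  split_ifs with h1
  · refine h _ ?_
    rw [List.length_replicate] at hl
    subst hl
    exact h1.choose_spec.1
  · rfl

open Classical in
/-- The class function trace. -/
noncomputable def trC (τ : A →+ ℝ) (g : G) : MonoidAlgebra A G →+ ℝ :=
  lf fun s => if IsConj g s then τ else 0

lemma Pr_one (τ : A →+ ℝ) (g : G) (a : MonoidAlgebra A G) {m : ℕ} (hm : 0 < m) :
    Pr τ g a m (fun _ => 1) = trC τ g (a ^ m) := by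
  classical
  rw [Pr_apply, prH_congr _ _ (Φ' := fun l => if IsConj g l.prod then (1 : ℝ) else 0),
    prH_prod _ _ (fun s => if IsConj g s then (1 : ℝ) else 0), List.prod_replicate, trC, lf_apply]
  · refine Finsupp.sum_congr fun s _ => ?_
    split_ifs <;> simp
  · intro l hl
    split_ifs with h
    · rw [th, dif_pos (exists_rep (by rintro rfl; simp at hl; omega) h)]
    · exact th_zero _ h

lemma Pr_bound {τ : A →+ ℝ} {κ : ℝ} (hκ : 0 ≤ κ) (hτ : ∀ x, |τ x| ≤ κ * ‖x‖) (g : G)
    (a : MonoidAlgebra A G) (m : ℕ) {w : G → ℝ} (hw : ∀ s, 0 ≤ w s) {f : (ℤ → G) → ℝ} {C : ℝ}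
    (hC : 0 ≤ C) (h : ∀ X, Tw g m X → |f X| ≤ C * ((incr m X).map w).prod) :
    |Pr τ g a m f| ≤ κ * ‖(1 : A)‖ * C * Nw w a ^ m := by
  have := prH_bound (List.replicate m a) hκ hτ hw (Φ := th g f) hC (fun l hl => ?_) 1
  · simpa [Pr_apply] using this
  · unfold th
    split_ifs with h1
    · obtain ⟨h2, h3⟩ := h1.choose_spec
      rw [List.length_replicate] at hl
      subst hl
      have := h _ h2
      rw [h3] at this; exact this
    · rw [abs_zero]
      exact mul_nonneg hC (List.prod_nonneg fun x hx => by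
        obtain ⟨b, _, rfl⟩ := List.mem_map.1 hx; exact hw b)

lemma th_eq_of {g : G} {f f' : (ℤ → G) → ℝ} {l l' : List G}
    (h1 : IsConj l.prod l'.prod) (hl : l ≠ [])
    (h2 : ∀ X, Tw g l.length X → incr l.length X = l → th g f l = th g f' l') :
    th g f l = th g f' l' := by
  by_cases h : IsConj g l.prod
  · obtain ⟨X, a, b⟩ := exists_rep hl h
    exact h2 X a b
  · rw [th_zero _ h, th_zero _ fun h' => h (h'.trans h1.symm)]

lemma Pr_shift1 {τ : A →+ ℝ} (hτ : ∀ x y, τ (x * y) = τ (y * x)) (g : G)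
    (a : MonoidAlgebra A G) (m : ℕ) {f : (ℤ → G) → ℝ} (hf : ZInv g f) :
    Pr τ g a (m + 1) (fun X => f fun j => X (j + 1)) = Pr τ g a (m + 1) f := by
  rw [Pr_apply, Pr_apply]
  conv_rhs => rw [List.replicate_succ']
  rw [List.replicate_succ]
  refine prH_rot hτ _ _ _ _ fun s l => th_eq_of ?_ (by simp) fun X h1 h2 => ?_
  · rw [isConj_iff]; exact ⟨s⁻¹, by simp⟩
  · have h3 : l ++ [s] = incr (s :: l).length fun j => X (j + 1) := by
      have e1 := h2
      rw [incr, List.length_cons, List.range_succ_eq_map, List.map_cons, List.map_map,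
        List.cons.injEq] at e1
      rw [incr, List.length_cons, List.range_succ, List.map_append]
      congr 1
      · rw [← e1.2]; simp [Function.comp_def]
      · have a1 := h1 0; have a2 := h1 1
        simp only [List.length_cons, zero_add, Nat.cast_add, Nat.cast_one] at a1 a2
        rw [← e1.1, List.map_singleton, a1, add_comm ((l.length : ℤ) + 1) (1 : ℤ), a2]
        simp [mul_assoc]
    rw [h3, th_eq hf (by simp) (fun j => by rw [add_right_comm, h1])]
    conv_lhs => rw [← h2]
    rw [th_eq (f := fun X => f fun j => X (j + 1)) (fun c hc X => hf c hc _) (by simp) h1]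

lemma Pr_shift {τ : A →+ ℝ} (hτ : ∀ x y, τ (x * y) = τ (y * x)) (g : G)
    (a : MonoidAlgebra A G) (m : ℕ) {f : (ℤ → G) → ℝ} (hf : ZInv g f) (c : ℤ) :
    Pr τ g a (m + 1) (fun X => f fun j => X (j + c)) = Pr τ g a (m + 1) f := by
  induction c using Int.induction_on with
  | zero => simp
  | succ c ih =>
    rw [← ih, ← Pr_shift1 hτ g a m (f := fun X => f fun j => X (j + c)) fun c hc X => hf c hc _]
    simp only [add_assoc]
  | pred c ih =>
    rw [← ih, ← Pr_shift1 hτ g a m (f := fun X => f fun j => X (j + (-c - 1)))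
      fun c hc X => hf c hc _]
    simp only [add_assoc, sub_add_cancel]

/-- The order embedding skipping the class of `1`. -/
def skip (n : ℕ) (j : ℤ) : ℤ := j + (j - 1) / n + 1

lemma Pr_merge {τ : A →+ ℝ} {κ : ℝ} (hκ : 0 ≤ κ) (hτ : ∀ x, |τ x| ≤ κ * ‖x‖) (g : G)
    (a : MonoidAlgebra A G) (n : ℕ) {f : (ℤ → G) → ℝ} (hf : ZInv g f) {C : ℝ} (hC : 0 ≤ C)
    (h : ∀ X, |f X| ≤ C) :
    |Pr τ g a (n + 2) (fun X => f fun j => X (skip (n + 1) j)) - Pr τ g a (n + 1) f|
      ≤ κ * ‖(1 : A)‖ * C * (Nw (fun _ => 1) (a * a - a) * Nw (fun _ => 1) a ^ n) := by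
  rw [Pr_apply, Pr_apply, List.replicate_succ, List.replicate_succ,
    prH_merge _ _ _ _ _ (th g f), prH_lf, prH_lf, ← map_sub, ← prH_lf]
  · have := prH_bound ((a * a - a) :: List.replicate n a) hκ hτ (w := fun _ => 1)
      (fun _ => zero_le_one) (Φ := th g f) hC (fun l _ => ?_) 1
    · simpa using this
    · unfold th; split_ifs
      · simpa using h _
      · simpa using hC
  · intro s s' l hl
    rw [List.length_replicate] at hl
    refine th_eq_of (by simp only [List.prod_cons, mul_assoc]; exact IsConj.refl _) (by simp)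
      fun X h1 h2 => ?_
    simp only [List.length_cons, hl] at h1 h2
    have hs : ∀ i : ℕ, i ≤ n → skip (n + 1) (i + 1) = i + 2 := by
      intro i hi
      rw [skip, add_sub_cancel_right, Int.ediv_eq_zero_of_lt (by omega) (by omega)]; ring
    have hs0 : skip (n + 1) 0 = 0 := by
      rw [skip, show (0 - 1 : ℤ) = n + (-1) * (n + 1 : ℕ) by push_cast; ring,
        Int.add_mul_ediv_right _ _ (by omega), Int.ediv_eq_zero_of_lt (by omega) (by omega)]
      ring
    have h3 : s * s' :: l = incr (n + 1) fun j => X (skip (n + 1) j) := by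
      have e1 := h2
      rw [incr, List.range_succ_eq_map, List.range_succ_eq_map, List.map_cons, List.map_cons,
        List.map_cons, List.map_map, List.map_map, List.cons.injEq, List.cons.injEq] at e1
      rw [incr, List.range_succ_eq_map, List.map_cons, List.map_map, ← e1.1, ← e1.2.1, ← e1.2.2]
      congr 1
      · have := hs 0 (by omega)
        simp only [Nat.cast_zero, zero_add] at this
        simp [hs0, this, mul_assoc]
      · refine List.map_congr_left fun i hi => ?_
        have hi' := List.mem_range.1 hi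
        have b1 := hs i (by omega)
        have b2 := hs (i + 1) (by omega)
        push_cast at b2
        simp only [Function.comp, Nat.succ_eq_add_one, Nat.cast_add, Nat.cast_one, b1, b2]
        congr 2
    rw [h3, th_eq hf (by simp) (fun j => ?_)]
    · conv_lhs => rw [← h2]
      rw [th_eq (f := fun X => f fun j => X (skip (n + 1) j)) (fun c hc X => hf c hc _)
        (by simp) h1]
    · rw [← h1, skip, skip, show j + (n + 1 : ℕ) - 1 = j - 1 + 1 * (n + 1 : ℕ) by ring,
        Int.add_mul_ediv_right _ _ (by omega)]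
      congr 1; push_cast; ring

end Vale.Agent.P184
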