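import Vale.Agent.P184.Build

/-! Choice of the parameters. -/

namespace Vale.Agent.P184

set_option linter.unusedSectionVars false

open Finset Filter

variable {G : Type*} [Group G]

lemma ev_pow (C : ℝ) (d : ℕ) : ∀ᶠ u : ℕ in atTop, C * (u + 1) ^ d ≤ 2 ^ u := by
  have h := ((tendsto_pow_const_div_const_pow_of_one_lt d (r := (2 : ℝ)) one_lt_two).comp
    (tendsto_add_atTop_nat 1)).const_mul (2 * C)
  rw [mul_zero] at h
  filter_upwards [h.eventually (gt_mem_nhds one_pos)] with u hu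
  simp only [Function.comp, Nat.cast_add, Nat.cast_one] at hu
  rw [← mul_div_assoc, div_lt_one (by positivity), pow_succ] at hu
  linarith

lemma stage2 {g : G} {ℓ : G → ℝ} {T E Γ θ θ2 : ℝ} {Bl : Finset G} {s b j1 : ℕ} (hl : Len ℓ T Bl)
    (T0 : 10 ≤ T) (Γ1 : 1 ≤ Γ) (hBE : Bl.card ≤ E) (E1 : 1 ≤ E) (sp : SP0 (T / 50) s (2 * T * E) Γ)
    (θ0 : 0 < θ) (θ1 : θ ≤ 1) (θ20 : 0 < θ2)
    (tot : (b + 1) * (41 * Γ / T) + 2 * θ2 * (j1 + 9) ≤ θ)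
    (h2 : 2400 * Γ ^ 6 * T ^ 2 ≤ 2 ^ b * θ2 ^ 4) (h3 : 800 * Γ ^ 6 * T ^ 2 * E ≤ 2 ^ j1 * θ2 ^ 4)
    (hg : ¬ IsOfFinOrder g ∨ ∀ y, ¬ Short Bl (y⁻¹ * g * y)) (k0 : ℕ) :
    ∃ k ≥ k0, ∃ M > 0, ∃ t A B, EstH g M ℓ T t k A B θ := by
  obtain ⟨a, a0, ha⟩ := exists_K4 hg (lam := 200 * T) (by positivity)
  obtain ⟨K, hK⟩ : ∃ K, 400 * T ^ 2 * Γ ^ 2 * (1 + a) ≤ K := ⟨_, le_rfl⟩
  obtain ⟨J, J1, J2, J3, J4⟩ := ((ev_pow (1600 * Γ ^ 8 * T ^ 2 * a ^ 2 / θ2 ^ 4) 0).and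
    ((ev_pow ((28 * K ^ 2) ^ 4 / θ ^ 4) 4).and ((eventually_ge_atTop k0).and
      (eventually_ge_atTop b)))).exists
  obtain ⟨k, hk⟩ : ∃ k, 2 ^ J = k + 1 := ⟨2 ^ J - 1, by have := Nat.one_le_two_pow (n := J); omega⟩
  have ek : ((k + 1 : ℕ) : ℝ) = 2 ^ J := by rw [← hk]; simp
  have ex : ∀ x1 x2 x3 : ℝ, ∃ N : ℕ, 0 < N ∧ x1 ≤ 5 * N ∧ x2 ≤ (2 ^ (J + 1) * (10 * N) : ℕ) ∧
      x3 ≤ θ * (2 ^ (J + 1) * (10 * N) : ℕ) := by
    intro x1 x2 x3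
    obtain ⟨N, N1, N2, N3, N4⟩ := ((tendsto_natCast_atTop_atTop.eventually_ge_atTop x1).and
      ((tendsto_natCast_atTop_atTop.eventually_ge_atTop x2).and
      ((tendsto_natCast_atTop_atTop.eventually_ge_atTop (x3 / θ)).and
        (eventually_gt_atTop 0)))).exists
    have NM : (N : ℝ) ≤ (2 ^ (J + 1) * (10 * N) : ℕ) := by
      have := Nat.one_le_two_pow (n := J + 1)
      exact_mod_cast (by nlinarith)
    rw [div_le_iff₀' θ0] at N3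
    exact ⟨N, N4, by have : (0 : ℝ) ≤ N := N.cast_nonneg; linarith, N2.trans NM,
      N3.trans (by gcongr)⟩
  obtain ⟨N, N1, N2, N3, N4⟩ := ex _ _ _
  have M0 : 0 < 2 ^ (J + 1) * (10 * N) := by positivity
  obtain ⟨k4, hk4⟩ := ha _ M0
  have P : Par g ℓ T E Bl s Γ k4 a K θ θ2 k (J + 1) b j1 N _ :=
    ⟨hl, T0, Γ1, hBE, E1, sp, hk4, a0, hK, by omega, rfl, N1, by omega, θ0, θ1, θ20, tot, h2, h3,
      ?_, ?_, N2, N3, N4⟩
  · exact ⟨k, by have := Nat.lt_two_pow_self (n := J); omega, _, M0, _, _, _, P.est⟩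
  · rw [pow_zero, mul_one, div_le_iff₀ (by positivity)] at J1
    rwa [ek]
  · rw [div_mul_eq_mul_div, div_le_iff₀ (by positivity), ← mul_pow] at J2
    rw [ek]
    refine le_trans ?_ J2
    have : (0 : ℝ) ≤ J := J.cast_nonneg
    refine pow_le_pow_left₀ (by positivity) ?_ 4
    push_cast
    nlinarith [mul_nonneg this (sq_nonneg K)]

theorem key_est (U : Finset G) {θ : ℝ} (θ0 : 0 < θ) (θ1 : θ ≤ 1) :
    ∃ (ℓ : G → ℝ) (T : ℝ) (Bl : Finset G), Len ℓ T Bl ∧ (∀ a ∈ U, ℓ a ≤ 1) ∧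
      ∀ g : G, (¬ IsOfFinOrder g ∨ ∀ y, ¬ Short Bl (y⁻¹ * g * y)) → ∀ k0 : ℕ,
        ∃ k ≥ k0, ∃ M > 0, ∃ t A B, EstH g M ℓ T t k A B θ := by
  set σ := 2 * U.card + 1 with hσ
  set Γ : ℝ := 17500 * (σ + 15) with hΓ
  have σ0 : (0 : ℝ) ≤ σ := σ.cast_nonneg
  have Γ1 : 1 ≤ Γ := by linarith
  obtain ⟨u, u1, u2⟩ := ((ev_pow (9 * (82 * Γ / θ)) 1).and
    (ev_pow (2400 * Γ ^ 6 * (4 * (σ + 1)) ^ 4 / θ ^ 4) 0)).exists
  obtain ⟨ℓ, Bl, hl, hU, hB⟩ := exists_len U (2 ^ u)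
  set T : ℝ := ((2 ^ u : ℕ) : ℝ) with hT
  have eT : (2 : ℝ) ^ u = T := by simp [hT]
  rw [eT, pow_one] at u1
  rw [eT, pow_zero, mul_one, div_le_iff₀ (by positivity)] at u2
  have u0 : (0 : ℝ) ≤ u := u.cast_nonneg
  have c1 : 82 ≤ 82 * Γ / θ := by rw [le_div_iff₀ θ0]; nlinarith
  have c2 : 82 * (7 * u + 9) ≤ T := by nlinarith
  have T0 : 10 ≤ T := by linarith
  set E : ℝ := 2 ^ (σ * 2 ^ u) with hE
  have E1 : 1 ≤ E := one_le_pow₀ one_le_two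
  have hBE : (Bl.card : ℝ) ≤ E := by
    rw [hE, pow_mul]
    exact_mod_cast hB.trans (Nat.pow_le_pow_left Nat.lt_two_pow_self.le _)
  have sp : SP0 (T / 50) (70 * (σ * 2 ^ u + 14)) (2 * T * E) Γ := by
    refine ⟨by positivity, ?_, ?_⟩
    · have a : (0.99 : ℝ) ^ 70 ≤ 1 / 2 := by norm_num
      have b : (0.99 : ℝ) ^ (70 * (σ * 2 ^ u + 14)) ≤ 1 / E * (1 / 2 ^ 14) := by
        rw [pow_mul]
        refine (pow_le_pow_left₀ (by positivity) a _).trans (le_of_eq ?_)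
        rw [pow_add, hE, one_div_pow, one_div_pow]
      rw [show 2 * T * E / (T / 50) = 100 * E by field_simp; ring]
      refine (mul_le_mul_of_nonneg_right b (by positivity)).trans ?_
      rw [mul_right_comm, one_div_mul_eq_div, div_mul_eq_mul_div, div_le_iff₀ (by positivity)]
      linarith
    · push_cast; rw [eT]; nlinarith
  set θ2 := θ / (4 * (σ + 1) * T) with hθ2
  have θ20 : 0 < θ2 := by positivity
  have h2 : 2400 * Γ ^ 6 * T ^ 2 ≤ 2 ^ (7 * u) * θ2 ^ 4 := by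
    rw [mul_comm 7, pow_mul, eT, hθ2, div_pow, ← mul_div_assoc, le_div_iff₀ (by positivity)]
    have := mul_le_mul_of_nonneg_right u2 (by positivity : 0 ≤ T ^ 6)
    refine le_trans (le_of_eq (by ring)) (this.trans (le_of_eq (by ring)))
  refine ⟨ℓ, T, Bl, hl, hU, fun g hg k0 => stage2 (j1 := 7 * u + σ * 2 ^ u) hl T0 Γ1 hBE E1 sp θ0 θ1
    θ20 ?_ h2 ?_ hg k0⟩
  · push_cast
    rw [eT]
    have b1 : (7 * u + 1) * (41 * Γ / T) ≤ θ / 2 := by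
      rw [← mul_div_assoc, div_le_iff₀ (by positivity)]
      rw [← mul_div_assoc, div_mul_eq_mul_div, div_le_iff₀ θ0] at u1
      nlinarith
    have b2 : 2 * θ2 * (7 * u + σ * T + 9) ≤ 2 * θ2 * ((σ + 1) * T) := by gcongr; linarith
    have b3 : 2 * θ2 * ((σ + 1) * T) = θ / 2 := by rw [hθ2]; field_simp; ring
    linarith
  · rw [pow_add, ← hE]
    have : 0 ≤ Γ ^ 6 * T ^ 2 * E := by positivity
    nlinarith [mul_le_mul_of_nonneg_right h2 (by linarith : 0 ≤ E)]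

end Vale.Agent.P184
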