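import Vale.Agent.P184.Ext

/-! Bounds for Pfaffians. -/

namespace Vale.Agent.P184

open Module

universe u

lemma ofFn_update {X : Type*} {n : ℕ} [DecidableEq (Fin n)] (v : Fin n → X) (i : Fin n) (x : X) :
    List.ofFn (Function.update v i x)
      = (List.ofFn v).take i ++ x :: (List.ofFn v).drop (i + 1) := by
  have : List.ofFn (Function.update v i x) = (List.ofFn v).set i x := by
    apply List.ext_getElem
    · simp
    · intro j h1 h2
      simp only [List.getElem_ofFn, List.getElem_set, Function.update_apply, Fin.ext_iff]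
      split_ifs with h3 h4 h4 <;> first | rfl | omega
  rw [this, List.set_eq_take_append_cons_drop, if_pos (by simp)]

section
variable {V : Type*} [AddCommGroup V] [Module ℝ V]

lemma Mon_head_add (ω : V →ₗ[ℝ] V →ₗ[ℝ] ℝ) (hω : ∀ x y, ω x y = - ω y x) (k : ℕ) (x y : V)
    (l : List V) : Mon (List.replicate k fun u v => ω u v) ((x + y) :: l)
      = Mon (List.replicate k fun u v => ω u v) (x :: l)
        + Mon (List.replicate k fun u v => ω u v) (y :: l) := by
  cases k with
  | zero => simp [Mon, one]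
  | succ k =>
    rw [Mon_rep_cons hω, Mon_rep_cons hω, Mon_rep_cons hω, ← mul_add]
    congr 1
    unfold D; rw [← E_add]
    exact E_congr fun _ _ _ => by simp [add_mul]

lemma Mon_head_smul (ω : V →ₗ[ℝ] V →ₗ[ℝ] ℝ) (hω : ∀ x y, ω x y = - ω y x) (k : ℕ) (c : ℝ)
    (x : V) (l : List V) : Mon (List.replicate k fun u v => ω u v) ((c • x) :: l)
      = c * Mon (List.replicate k fun u v => ω u v) (x :: l) := by
  cases k with
  | zero => simp [Mon, one]
  | succ k =>
    rw [Mon_rep_cons hω, Mon_rep_cons hω, mul_left_comm]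
    congr 1
    unfold D; rw [← E_mul]
    exact E_congr fun _ _ _ => by simp [mul_assoc]

/-- The power of an antisymmetric form as an alternating map. -/
noncomputable def pfMap (ω : V →ₗ[ℝ] V →ₗ[ℝ] ℝ) (hω : ∀ x y, ω x y = - ω y x) (k n : ℕ) :
    V [⋀^Fin n]→ₗ[ℝ] ℝ where
  toFun v := Mon (List.replicate k fun u v => ω u v) (List.ofFn v)
  map_update_add' v i x y := by
    simp only [ofFn_update]
    rw [(alt_Mon _).move, (alt_Mon _).move _ x, (alt_Mon _).move _ y, Mon_head_add ω hω]; ring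
  map_update_smul' v i c x := by
    simp only [ofFn_update]
    rw [(alt_Mon _).move, (alt_Mon _).move _ x, Mon_head_smul ω hω]; simp only [smul_eq_mul]; ring
  map_eq_zero_of_eq' v i j h hij := by
    have h1 := ofFn_update v i (v i)
    rw [Function.update_eq_self] at h1
    change Mon _ (List.ofFn v) = 0
    rw [h1, (alt_Mon _).move, (alt_Mon _).dup, mul_zero]
    rw [← List.eraseIdx_eq_take_drop_succ, List.mem_eraseIdx_iff_getElem]
    refine ⟨j, by simp, fun h2 => hij (Fin.ext h2.symm), by simp [h]⟩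

lemma pfMap_apply (ω : V →ₗ[ℝ] V →ₗ[ℝ] ℝ) (hω : ∀ x y, ω x y = - ω y x) (k n : ℕ)
    (v : Fin n → V) :
    pfMap ω hω k n v = Mon (List.replicate k fun u v => ω u v) (List.ofFn v) := rfl
end

lemma top_form_le {V : Type*} [NormedAddCommGroup V] [InnerProductSpace ℝ V]
    [FiniteDimensional ℝ V] {n : ℕ} (hn : finrank ℝ V = n) (Θ : V [⋀^Fin n]→ₗ[ℝ] ℝ)
    {f : Fin n → V} (hf : Orthonormal ℝ f) (b : Fin n → V) :
    |Θ b| ≤ |Θ f| * ∏ i, ‖b i‖ := by
  have : Fact (finrank ℝ V = n) := ⟨hn⟩
  let e : OrthonormalBasis (Fin n) ℝ V := OrthonormalBasis.mk hf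
    (hf.linearIndependent.span_eq_top_of_card_eq_finrank' (by simp [hn])).ge
  have h1 := Θ.eq_smul_basis_det e.toBasis
  have h2 : (e.toBasis : Fin n → V) = f := by simp [e]
  rw [h2] at h1
  have h3 : Θ b = Θ f * e.toBasis.det b := by
    conv_lhs => rw [h1]
    simp
  rw [h3, abs_mul, ← e.toBasis.orientation.volumeForm_robust' e b]
  exact mul_le_mul_of_nonneg_left (Orientation.abs_volumeForm_apply_le _ b) (abs_nonneg _)

lemma exists_adapted (k : ℕ) : ∀ (V : Type u) [NormedAddCommGroup V] [InnerProductSpace ℝ V]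
    [FiniteDimensional ℝ V], finrank ℝ V = 2 * k → ∀ ω : V →ₗ[ℝ] V →ₗ[ℝ] ℝ,
    (∀ x y, ω x y = - ω y x) → ∃ (x y : Fin k → V) (f : Fin (2 * k) → V),
      Orthonormal ℝ x ∧ Orthonormal ℝ y ∧ Orthonormal ℝ f ∧
      |Mon (List.replicate k fun u v => ω u v) (List.ofFn f)|
        = 2 ^ k * k.factorial * ∏ i, |ω (x i) (y i)| := by
  induction k with
  | zero =>
    intro V _ _ _ _ ω _
    exact ⟨Fin.elim0, Fin.elim0, Fin.elim0, Orthonormal.of_isEmpty _, Orthonormal.of_isEmpty _,
      Orthonormal.of_isEmpty (ι := Fin 0) _, by simp [Mon, one]⟩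
  | succ k ih =>
    intro V _ _ _ hV ω hω
    have h0 : ∀ x, ω x x = 0 := fun x => by have := hω x x; linarith
    obtain ⟨x, y, hx, hy, hxy, hv⟩ : ∃ x y : V, ‖x‖ = 1 ∧ ‖y‖ = 1 ∧ inner ℝ x y = 0 ∧
        ∀ v, inner ℝ y v = 0 → ω x v = 0 := by
      let e := (stdOrthonormalBasis ℝ V).reindex (finCongr hV)
      let i0 : Fin (2 * (k + 1)) := ⟨0, by omega⟩
      let i1 : Fin (2 * (k + 1)) := ⟨1, by omega⟩
      let w := (InnerProductSpace.toDual ℝ V).symm (LinearMap.toContinuousLinearMap (ω (e i0)))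
      have hw : ∀ v, inner ℝ w v = ω (e i0) v := fun v => by simp [w]
      by_cases hw0 : w = 0
      · refine ⟨e i0, e i1, e.orthonormal.1 _, e.orthonormal.1 _,
          e.orthonormal.2 (by simp [i0, i1]), fun v _ => ?_⟩
        rw [← hw, hw0, inner_zero_left]
      · have hn : ‖w‖ ≠ 0 := norm_ne_zero_iff.2 hw0
        refine ⟨e i0, ‖w‖⁻¹ • w, e.orthonormal.1 _, ?_, ?_, fun v hv => ?_⟩
        · rw [norm_smul]; simp [hn]
        · rw [inner_smul_right, real_inner_comm, hw, h0, mul_zero]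
        · rw [real_inner_smul_left, hw] at hv
          exact (mul_eq_zero.1 hv).resolve_left (inv_ne_zero hn)
    have hon : Orthonormal ℝ ![x, y] := by
      constructor
      · intro i; fin_cases i <;> simpa
      · intro i j hij
        fin_cases i <;> fin_cases j
        · exact absurd rfl hij
        · exact hxy
        · exact (real_inner_comm _ _).trans hxy
        · exact absurd rfl hij
    let P : Submodule ℝ V := Submodule.span ℝ (Set.range ![x, y])
    have hP : finrank ℝ P = 2 := by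
      simpa using finrank_span_eq_card hon.linearIndependent
    have hQ : finrank ℝ Pᗮ = 2 * k := by
      have := P.finrank_add_finrank_orthogonal; omega
    have hxP : x ∈ P := Submodule.subset_span ⟨0, rfl⟩
    have hyP : y ∈ P := Submodule.subset_span ⟨1, rfl⟩
    have hxq : ∀ v : Pᗮ, inner ℝ x (v : V) = 0 := fun v => v.2 x hxP
    have hyq : ∀ v : Pᗮ, inner ℝ y (v : V) = 0 := fun v => v.2 y hyP
    obtain ⟨x', y', f', hx', hy', hf', hM⟩ := ih Pᗮ hQ (ω.compl₁₂ Pᗮ.subtype Pᗮ.subtype)
      (fun a b => hω _ _)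
    have hcons : ∀ {m : ℕ} (a : V) (g : Fin m → V), ‖a‖ = 1 → Orthonormal ℝ g →
        (∀ i, inner ℝ a (g i) = 0) → Orthonormal ℝ (Fin.cons a g : Fin (m + 1) → V) := by
      intro m a g ha hg hag
      constructor
      · intro i; refine Fin.cases ?_ (fun i => ?_) i
        · simpa
        · simpa using hg.1 i
      · intro i j
        refine Fin.cases ?_ (fun i => ?_) i <;> refine Fin.cases ?_ (fun j => ?_) j <;> intro hij
        · exact absurd rfl hij
        · simpa using hag j
        · simpa [real_inner_comm] using hag i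
        · simpa using hg.2 (fun h => hij (by rw [h]))
    have hco : ∀ {m : ℕ} (g : Fin m → Pᗮ), Orthonormal ℝ g →
        Orthonormal ℝ (fun i => (g i : V)) := fun g hg =>
      (Pᗮ.subtypeₗᵢ.orthonormal_comp_iff (v := g)).2 hg
    refine ⟨Fin.cons x fun i => x' i, Fin.cons y fun i => y' i,
      (Fin.cons x (Fin.cons y fun i => f' i) : Fin (2 * k + 1 + 1) → V),
      hcons _ _ hx (hco _ hx') fun i => hxq _, hcons _ _ hy (hco _ hy') fun i => hyq _,
      hcons _ _ hx (hcons _ _ hy (hco _ hf') fun i => hyq _) fun i => ?_, ?_⟩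
    · refine Fin.cases ?_ (fun i => ?_) i
      · simpa
      · simpa using hxq _
    · have e1 : List.ofFn (Fin.cons x (Fin.cons y fun i => f' i) : Fin (2 * k + 1 + 1) → V)
          = x :: y :: (List.ofFn f').map Pᗮ.subtype := by
        simp [List.ofFn_succ, List.map_ofFn, Function.comp_def]
      change |Mon _ (List.ofFn (Fin.cons x (Fin.cons y fun i => f' i) :
        Fin (2 * k + 1 + 1) → V))| = _
      rw [e1, Mon_rep_cons hω, D, E_cons, E_congr (H' := fun _ _ => 0), E_zero,
        congrFun (Mon_map Pᗮ.subtype _) _]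
      · simp only [List.map_replicate, Fin.prod_univ_succ, Fin.cons_zero, Fin.cons_succ,
          sub_zero, abs_mul]
        simp only [LinearMap.compl₁₂_apply, Submodule.subtype_apply] at hM ⊢
        rw [hM, Nat.factorial_succ, abs_of_pos (by positivity : (0 : ℝ) < k + 1)]
        push_cast; simp; ring
      · intro z l' hp
        obtain ⟨v, _, rfl⟩ := List.mem_map.1 (hp.subset List.mem_cons_self)
        rw [Submodule.subtype_apply, hv _ (hyq v), zero_mul]

/-- Nonnegative quadratic forms. -/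
def IsQ {V : Type*} [AddCommGroup V] [Module ℝ V] (N : V → ℝ) : Prop :=
  ∃ B : V →ₗ[ℝ] V →ₗ[ℝ] ℝ, (∀ x y, B x y = B y x) ∧ (∀ x, N x = B x x) ∧ ∀ x, 0 ≤ N x

def SubON {V : Type*} [AddCommGroup V] [Module ℝ V] (N : V → ℝ) {k : ℕ} (x : Fin k → V) : Prop :=
  ∀ c : Fin k → ℝ, N (∑ i, c i • x i) ≤ ∑ i, c i ^ 2

lemma pf_le_of_pd {V : Type u} [AddCommGroup V] [Module ℝ V] [FiniteDimensional ℝ V] {k : ℕ}
    (hV : finrank ℝ V = 2 * k) (ω : V →ₗ[ℝ] V →ₗ[ℝ] ℝ) (hω : ∀ x y, ω x y = - ω y x)
    {N : V → ℝ} (hN : IsQ N) (hpd : ∀ x, N x = 0 → x = 0) {h : ℝ}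
    (H : ∀ x y : Fin k → V, SubON N x → SubON N y →
      ∑ i, |ω (x i) (y i)| ≤ (∑ i, (N (x i) + N (y i))) / 2 + h) (b : Fin (2 * k) → V) :
    |Mon (List.replicate k fun u v => ω u v) (List.ofFn b)|
      ≤ 2 ^ k * k.factorial * Real.exp h * ∏ i, √(N (b i)) := by
  obtain ⟨B, hB, hNB, hN0⟩ := hN
  let core : InnerProductSpace.Core ℝ V :=
    { inner := fun x y => B x y
      conj_inner_symm := fun x y => by simpa using hB y x
      re_inner_nonneg := fun x => by simpa [← hNB] using hN0 x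
      add_left := fun x y z => by simp
      smul_left := fun x y r => by simp
      definite := fun x hx => hpd x (by rw [hNB]; exact hx) }
  let _ : NormedAddCommGroup V := InnerProductSpace.Core.toNormedAddCommGroup (𝕜 := ℝ)
  let _ : InnerProductSpace ℝ V := InnerProductSpace.ofCore core.toCore
  have hin : ∀ x y : V, inner ℝ x y = B x y := fun _ _ => rfl
  have hnorm : ∀ x : V, N x = ‖x‖ ^ 2 := fun x => by
    rw [hNB, ← hin, real_inner_self_eq_norm_sq]
  obtain ⟨x, y, f, hx, hy, hf, hM⟩ := exists_adapted k V hV ω hω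
  have h1 := top_form_le hV (pfMap ω hω k (2 * k)) hf b
  rw [pfMap_apply, pfMap_apply, hM] at h1
  have hs : ∀ z : Fin k → V, Orthonormal ℝ z → SubON N z := by
    intro z hz c
    rw [hNB, ← hin, hz.inner_sum]
    simp [sq]
  have h2 := H x y (hs x hx) (hs y hy)
  simp only [hnorm, hx.1, hy.1] at h2
  have h3 : ∏ i, |ω (x i) (y i)| ≤ Real.exp h := by
    calc ∏ i, |ω (x i) (y i)| ≤ ∏ i, Real.exp (|ω (x i) (y i)| - 1) :=
          Finset.prod_le_prod (fun _ _ => abs_nonneg _) fun i _ => by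
            have := Real.add_one_le_exp (|ω (x i) (y i)| - 1); linarith
      _ = Real.exp (∑ i, (|ω (x i) (y i)| - 1)) := (Real.exp_sum _ _).symm
      _ ≤ Real.exp h := by
        apply Real.exp_le_exp.2
        rw [Finset.sum_sub_distrib]
        simp at h2 ⊢
        linarith
  simp only [hnorm, Real.sqrt_sq (norm_nonneg _)]
  refine h1.trans (mul_le_mul_of_nonneg_right ?_ (Finset.prod_nonneg fun _ _ => norm_nonneg _))
  exact mul_le_mul_of_nonneg_left h3 (by positivity)

end Vale.Agent.P184
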