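import Mathlib

/-! Sums over the discrete torus and the combinatorics of alcoves. -/

namespace Vale.Agent.P184

open Finset

def TS (M : ℕ) : ℕ → (List ℤ → ℝ) → ℝ
  | 0, h => h []
  | m + 1, h => ∑ c ∈ range M, TS M m fun l => h ((c : ℤ) :: l)

variable {M : ℕ}

lemma TS_congr {m : ℕ} {h h' : List ℤ → ℝ}
    (H : ∀ l : List ℤ, l.length = m → (∀ y ∈ l, 0 ≤ y ∧ y < (M : ℤ)) → h l = h' l) :
    TS M m h = TS M m h' := by
  induction m generalizing h h' with
  | zero => exact H [] rfl (by simp)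
  | succ m ih =>
    refine sum_congr rfl fun c hc => ih fun l hl hy => H _ (by simp [hl]) ?_
    intro y hy'
    rcases List.mem_cons.1 hy' with rfl | h1
    · have := mem_range.1 hc; omega
    · exact hy y h1

lemma TS_sum {ι : Type*} (s : Finset ι) (m : ℕ) (h : ι → List ℤ → ℝ) :
    TS M m (fun l => ∑ i ∈ s, h i l) = ∑ i ∈ s, TS M m (h i) := by
  induction m generalizing h with
  | zero => rfl
  | succ m ih => simp only [TS, ih]; exact sum_comm

lemma TS_sub (m : ℕ) (h h' : List ℤ → ℝ) :
    TS M m (fun l => h l - h' l) = TS M m h - TS M m h' := by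
  induction m generalizing h h' with
  | zero => rfl
  | succ m ih => simp only [TS, ih, sum_sub_distrib]

lemma TS_mul (m : ℕ) (c : ℝ) (h : List ℤ → ℝ) :
    TS M m (fun l => c * h l) = c * TS M m h := by
  induction m generalizing h with
  | zero => rfl
  | succ m ih => simp only [TS, ih, mul_sum]

lemma TS_const (m : ℕ) (c : ℝ) : TS M m (fun _ => c) = M ^ m * c := by
  induction m with
  | zero => simp [TS]
  | succ m ih => simp only [TS, ih, sum_const, card_range, nsmul_eq_mul]; ring

lemma TS_bound {m : ℕ} {h : List ℤ → ℝ} {C : ℝ} (H : ∀ l, l.length = m → |h l| ≤ C) :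
    |TS M m h| ≤ M ^ m * C := by
  induction m generalizing h with
  | zero => simpa [TS] using H [] rfl
  | succ m ih =>
    refine (abs_sum_le_sum_abs _ _).trans ((sum_le_sum fun c _ =>
      ih fun l hl => H _ (by simp [hl])).trans (le_of_eq ?_))
    simp only [sum_const, card_range, nsmul_eq_mul]; ring

lemma TS_snoc (m : ℕ) (h : List ℤ → ℝ) :
    TS M (m + 1) h = ∑ c ∈ range M, TS M m fun l => h (l ++ [(c : ℤ)]) := by
  induction m generalizing h with
  | zero => rfl
  | succ m ih =>
    rw [TS]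
    rw [sum_congr rfl fun c _ => ih _, sum_comm]; rfl

lemma sum_per {f : ℤ → ℝ} (hf : ∀ c, f (c + M) = f c) (d : ℤ) :
    ∑ c ∈ range M, f (c + d) = ∑ c ∈ range M, f c := by
  have h1 : ∀ d : ℤ, ∑ c ∈ range M, f (c + (d + 1)) = ∑ c ∈ range M, f (c + d) := by
    intro d
    have a := sum_range_succ (fun c : ℕ => f (c + d)) M
    have b := sum_range_succ' (fun c : ℕ => f (c + d)) M
    have e : f (M + d) = f ((0 : ℕ) + d) := by rw [add_comm, hf]; simp
    have : ∑ c ∈ range M, f (c + (d + 1)) = ∑ c ∈ range M, f ((c + 1 : ℕ) + d) :=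
      sum_congr rfl fun c _ => by congr 1; push_cast; ring
    linarith
  induction d using Int.induction_on with
  | zero => simp
  | succ d ih => rw [h1, ih]
  | pred d ih => rw [← ih, ← h1 (-d - 1)]; simp

lemma TS_theta (m : ℕ) {h h' : List ℤ → ℝ}
    (hp : ∀ (l : List ℤ) (c : ℤ), l.length = m → h (l ++ [c + M]) = h (l ++ [c]))
    (H : ∀ (c : ℤ) (l : List ℤ), l.length = m → h' (c :: l) = h (l ++ [c - 1])) :
    TS M (m + 1) h' = TS M (m + 1) h := by
  rw [TS_snoc m h, TS, ← TS_sum, ← TS_sum]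
  refine TS_congr fun l hl _ => ?_
  simp only [H _ l hl]
  exact sum_per (f := fun c => h (l ++ [c])) (fun c => hp l c hl) (-1)

lemma sum_anti {H : ℕ → ℕ → ℝ} (h : ∀ c < M, ∀ d < M, c ≠ d → H d c = - H c d) :
    ∑ c ∈ range M, ∑ d ∈ range M, H c d = ∑ d ∈ range M, H d d := by
  have h1 : ∑ c ∈ range M, ∑ d ∈ range M, H c d
      = ∑ c ∈ range M, ∑ d ∈ range M, ((if c = d then 2 * H c d else 0) - H c d) := by
    rw [sum_comm]
    refine sum_congr rfl fun c hc => sum_congr rfl fun d hd => ?_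
    split_ifs with e
    · subst e; ring
    · rw [h c (mem_range.1 hc) d (mem_range.1 hd) e]; ring
  simp only [sum_sub_distrib, sum_ite_eq] at h1
  have h2 : ∑ c ∈ range M, (if c ∈ range M then 2 * H c c else 0) = 2 * ∑ c ∈ range M, H c c := by
    rw [mul_sum]; exact sum_congr rfl fun c hc => if_pos hc
  linarith

lemma TS_invol (m : ℕ) {h : List ℤ → ℝ}
    (hp : ∀ (l : List ℤ) (c : ℤ), l.length = m + 1 → h ((c + M) :: l) = h (c :: l))
    (H : ∀ (c d : ℤ) (l : List ℤ), l.length = m → 0 ≤ c → c < M → 0 ≤ d → d < M → c ≠ d →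
      h ((d + 1) :: (l ++ [c])) = - h ((c + 1) :: (l ++ [d]))) :
    TS M (m + 2) h = ∑ d ∈ range M, TS M m fun l => h (((d : ℤ) + 1) :: (l ++ [(d : ℤ)])) := by
  rw [TS]
  simp only [TS_snoc, ← TS_sum]
  refine TS_congr fun l hl _ => ?_
  rw [sum_comm]
  have : ∀ d : ℕ, ∑ c ∈ range M, h ((c : ℤ) :: (l ++ [(d : ℤ)]))
      = ∑ c ∈ range M, h (((c : ℤ) + 1) :: (l ++ [(d : ℤ)])) := fun d =>
    (sum_per (f := fun c => h (c :: (l ++ [(d : ℤ)]))) (fun c => hp _ c (by simp [hl])) 1).symm
  simp only [this]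
  rw [sum_comm]
  exact sum_anti (H := fun c d => h (((c : ℤ) + 1) :: (l ++ [(d : ℤ)]))) fun c hc d hd e =>
    H c d l hl (by omega) (by omega) (by omega) (by omega) (by omega)

/-- Reduction of the entries of a list modulo the period. -/
lemma per_congr {h : List ℤ → ℝ} {m : ℕ}
    (hp : ∀ (l1 : List ℤ) (c : ℤ) (l2 : List ℤ), l1.length + l2.length + 1 = m →
      h (l1 ++ (c + M) :: l2) = h (l1 ++ c :: l2))
    {l l' : List ℤ} (H : List.Forall₂ (fun x y => ∃ j : ℤ, x = y + j * M) l l') :
    ∀ l1 : List ℤ, l1.length + l.length = m → h (l1 ++ l) = h (l1 ++ l') := by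
  induction H with
  | nil => intro _ _; rfl
  | @cons x y l l' hxy H ih =>
    intro l1 hl
    obtain ⟨j, rfl⟩ := hxy
    have h1 : ∀ j : ℤ, h (l1 ++ (y + j * M) :: l) = h (l1 ++ y :: l) := by
      have hp' := fun c => hp l1 c l (by simpa [add_assoc] using hl)
      intro j
      induction j using Int.induction_on with
      | zero => simp
      | succ j ih => rw [← ih, ← hp' (y + j * M)]; congr 3; ring
      | pred j ih => rw [← ih, ← hp' (y + (-j - 1) * M)]; congr 3; ring
    rw [h1]
    have := ih (l1 ++ [y]) (by simp at hl ⊢; omega)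
    simpa using this

/-- Counting function of a list of jump times. -/
def Nc (M : ℕ) (P : List ℤ) (t : ℤ) : ℤ := (P.map fun y => (t - y) / M).sum

/-- The vertices of an alcove. -/
def vtx : ℕ → List ℤ → List ℤ
  | 0, l => l
  | _ + 1, [] => []
  | r + 1, x :: l => (x - 1) :: vtx r l

@[simp] lemma Nc_nil (t : ℤ) : Nc M [] t = 0 := rfl
lemma Nc_cons (x : ℤ) (P : List ℤ) (t : ℤ) : Nc M (x :: P) t = (t - x) / M + Nc M P t := rfl
lemma Nc_append (P Q : List ℤ) (t : ℤ) : Nc M (P ++ Q) t = Nc M P t + Nc M Q t := by simp [Nc]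

@[simp] lemma vtx_length (r : ℕ) (l : List ℤ) : (vtx r l).length = l.length := by
  induction l generalizing r with
  | nil => cases r <;> rfl
  | cons x l ih => cases r <;> simp [vtx, ih]

lemma vtx_append {r : ℕ} {l : List ℤ} (h : r ≤ l.length) (l' : List ℤ) :
    vtx r (l ++ l') = vtx r l ++ l' := by
  induction l generalizing r with
  | nil => obtain rfl : r = 0 := by simpa using h
           rfl
  | cons x l ih =>
    cases r with
    | zero => rfl
    | succ r => simp [vtx, ih (by simpa using h)]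

lemma Nc_add (hM : 0 < M) (P : List ℤ) (t : ℤ) : Nc M P (t + M) = Nc M P t + P.length := by
  induction P with
  | nil => simp
  | cons x P ih =>
    rw [Nc_cons, Nc_cons, ih, show t + M - x = t - x + 1 * M by ring,
      Int.add_mul_ediv_right _ _ (by omega)]
    simp only [List.length_cons]; push_cast; ring

lemma Nc_add_mul (hM : 0 < M) (P : List ℤ) (t j : ℤ) :
    Nc M P (t + j * M) = Nc M P t + j * P.length := by
  induction P with
  | nil => simp
  | cons x P ih =>
    rw [Nc_cons, Nc_cons, ih, show t + j * M - x = t - x + j * M by ring,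
      Int.add_mul_ediv_right _ _ (by omega)]
    simp only [List.length_cons]; push_cast; ring

lemma Nc_mono (hM : 0 < M) (P : List ℤ) : Monotone (Nc M P) := by
  intro s t hst
  induction P with
  | nil => simp
  | cons x P ih =>
    rw [Nc_cons, Nc_cons]
    exact add_le_add (Int.ediv_le_ediv (by omega) (by omega)) ih

lemma Nc_vtx (r : ℕ) (q : List ℤ) (t : ℤ) : Nc M (vtx r q) t
    = ∑ ρ ∈ range q.length, (t - q.getD ρ 0 + if ρ < r then 1 else 0) / M := by
  induction q generalizing r with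
  | nil => cases r <;> simp [vtx]
  | cons x q ih =>
    rw [List.length_cons, sum_range_succ']
    cases r with
    | zero =>
      have := ih 0
      simp only [vtx] at this ⊢
      rw [Nc_cons, this, add_comm]; simp
    | succ r =>
      rw [vtx, Nc_cons, ih, add_comm]
      simp only [List.getD_cons_succ, Nat.add_lt_add_iff_right, List.getD_cons_zero,
        Nat.zero_lt_succ, if_true]
      congr 2; ring

lemma Nc_vtx_per (hM : 0 < M) (r : ℕ) (l1 : List ℤ) (c : ℤ) (l2 : List ℤ) (t : ℤ) :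
    Nc M (vtx r (l1 ++ (c + M) :: l2)) t = Nc M (vtx r (l1 ++ c :: l2)) t - 1 := by
  have e : ∀ s c : ℤ, (s - (c + M)) / M = (s - c) / M - 1 := by
    intro s c
    rw [show s - (c + M) = s - c + (-1) * M by ring, Int.add_mul_ediv_right _ _ (by omega)]; ring
  induction l1 generalizing r with
  | nil =>
    cases r with
    | zero => simp only [vtx, List.nil_append, Nc_cons, e]; ring
    | succ r =>
      simp only [vtx, List.nil_append, Nc_cons]
      rw [show c + M - 1 = c - 1 + M by ring, e]; ring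
  | cons x l1 ih =>
    cases r with
    | zero =>
      have := ih 0
      simp only [vtx] at this
      simp only [vtx, List.cons_append, Nc_cons, this]; ring
    | succ r => simp only [vtx, List.cons_append, Nc_cons, ih]; ring

lemma Nc_vtx_theta {r : ℕ} {l : List ℤ} (h : r ≤ l.length) (c : ℤ) :
    Nc M (vtx r (l ++ [c - 1])) = Nc M (vtx (r + 1) (c :: l)) := by
  funext t
  rw [vtx_append h, vtx, Nc_append, Nc_cons, Nc_cons, Nc_nil]; ring

lemma Nc_vtx_length (q : List ℤ) (t : ℤ) : Nc M (vtx q.length q) t = Nc M q (t + 1) := by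
  induction q with
  | nil => rfl
  | cons x q ih => rw [List.length_cons, vtx, Nc_cons, Nc_cons, ih]; congr 2; ring

lemma Nc_vtx_succ {r : ℕ} {q : List ℤ} (h : r < q.length) (t : ℤ) :
    Nc M (vtx (r + 1) q) t
      = Nc M (vtx r q) t + ((t - q.getD r 0 + 1) / M - (t - q.getD r 0) / M) := by
  rw [Nc_vtx, Nc_vtx, ← sub_eq_iff_eq_add', ← sum_sub_distrib, sum_eq_single r]
  · simp
  · intro ρ _ hρ
    have : (ρ < r + 1) = (ρ < r) := by simp only [eq_iff_iff]; omega
    simp only [this, sub_self]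
  · intro h'; exact absurd (mem_range.2 h) h'

lemma ediv_step (hM : 0 < M) (s : ℤ) :
    (s + 1) / M - s / M = if (M : ℤ) ∣ s + 1 then 1 else 0 := by
  have h1 := Int.emod_add_mul_ediv s M
  have h2 := Int.emod_nonneg s (by omega : (M : ℤ) ≠ 0)
  have h3 := Int.emod_lt_of_pos s (by omega : (0 : ℤ) < M)
  generalize s % M = e at *
  generalize s / M = j at *
  subst h1
  rw [show e + M * j + 1 = e + 1 + j * M by ring, Int.add_mul_ediv_right _ _ (by omega)]
  by_cases he : e + 1 = M
  · rw [he, Int.ediv_self (by omega), if_pos ⟨1 + j, by ring⟩]; ring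
  · rw [Int.ediv_eq_zero_of_lt (by omega) (by omega), if_neg]; · ring
    intro hd
    have : (M : ℤ) ∣ e + 1 := (Int.dvd_add_left (Dvd.intro_left j rfl)).1 hd
    have := Int.le_of_dvd (by omega) this
    omega

lemma Nc_vtx_succ' (hM : 0 < M) {r : ℕ} {q : List ℤ} (h : r < q.length) (t : ℤ) :
    Nc M (vtx (r + 1) q) t
      = Nc M (vtx r q) t + if (M : ℤ) ∣ t - (q.getD r 0 - 1) then 1 else 0 := by
  rw [Nc_vtx_succ h, ediv_step hM, show t - q.getD r 0 + 1 = t - (q.getD r 0 - 1) by ring]

lemma Nc_vtx_le (hM : 0 < M) {r r' : ℕ} {q : List ℤ} (h : r ≤ r') (h' : r' ≤ q.length) :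
    Nc M (vtx r q) ≤ Nc M (vtx r' q) := by
  induction r', h using Nat.le_induction with
  | base => exact le_rfl
  | succ r' h ih =>
    refine (ih (by omega)).trans fun t => ?_
    have := Nc_vtx_succ' hM (show r' < q.length by omega) t
    exact (show (Nc M (vtx r' q) t : ℤ) ≤ Nc M (vtx (r' + 1) q) t by
      split_ifs at this <;> linarith)

lemma Nc_vtx_not_le (hM : 0 < M) {r r' : ℕ} {q : List ℤ} (h : r < r') (h' : r' ≤ q.length) :
    ¬ Nc M (vtx r' q) ≤ Nc M (vtx r q) := by
  intro H
  have h1 := Nc_vtx_le hM (show r + 1 ≤ r' from h) h' (q.getD r 0 - 1)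
  have h2 := H (q.getD r 0 - 1)
  rw [Nc_vtx_succ' hM (show r < q.length by omega), if_pos (by simp)] at h1
  exact absurd (h1.trans h2) (not_le.2 (lt_add_one _))

/-- Sum over ordered pairs of entries. -/
def ps (f : ℤ → ℤ → ℤ) : List ℤ → ℤ
  | [] => 0
  | x :: l => (l.map (f x)).sum + ps f l

lemma ps_snoc (f : ℤ → ℤ → ℤ) (l : List ℤ) (x : ℤ) :
    ps f (l ++ [x]) = ps f l + (l.map fun y => f y x).sum := by
  induction l with
  | nil => simp [ps]
  | cons y l ih => simp only [List.cons_append, ps, ih, List.map_append, List.sum_append]; simp; ring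

lemma ps_congr {f f' : ℤ → ℤ → ℤ} {a b : ℕ → ℤ} {s : List ℕ} (hs : s.Pairwise (· < ·))
    (h : ∀ i ∈ s, ∀ j ∈ s, i < j → f (a i) (a j) = f' (b i) (b j)) :
    ps f (s.map a) = ps f' (s.map b) := by
  induction s with
  | nil => rfl
  | cons i s ih =>
    rw [List.pairwise_cons] at hs
    simp only [List.map_cons, ps, List.map_map]
    rw [ih hs.2 fun i hi j hj => h i (by simp [hi]) j (by simp [hj])]
    congr 2
    exact List.map_congr_left fun j hj => h i (by simp) j (by simp [hj]) (hs.1 j hj)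

def sg (M : ℕ) : List ℤ → ℤ := ps fun x y => (y - x) / M

/-- Orientation of an alcove. -/
noncomputable def sgn (M : ℕ) (q : List ℤ) : ℝ := (-1) ^ sg M q

lemma neg_one_zpow_congr {a b : ℤ} (h : (a - b) % 2 = 0) : (-1 : ℝ) ^ a = (-1) ^ b := by
  obtain ⟨c, hc⟩ := Int.dvd_of_emod_eq_zero h
  rw [show a = b + 2 * c by linarith, zpow_add₀ (by norm_num), zpow_mul]; norm_num

lemma neg_one_zpow_odd {a b : ℤ} (h : (a - b) % 2 = 1) : (-1 : ℝ) ^ a = - (-1) ^ b := by
  rw [neg_one_zpow_congr (b := b + 1) (by omega), zpow_add₀ (by norm_num)]; simp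

lemma abs_neg_one_zpow (a : ℤ) : |(-1 : ℝ) ^ a| = 1 := by rw [abs_zpow]; simp

lemma ediv_neg (hM : 0 < M) (s : ℤ) : (-s - 1) / M = - (s / M) - 1 := by
  have h1 := Int.emod_add_mul_ediv s M
  have h2 := Int.emod_nonneg s (by omega : (M : ℤ) ≠ 0)
  have h3 := Int.emod_lt_of_pos s (by omega : (0 : ℤ) < M)
  generalize s % M = e at *
  generalize s / M = j at *
  subst h1
  rw [show -(e + M * j) - 1 = (M - e - 1) + (-j - 1) * M by ring,
    Int.add_mul_ediv_right _ _ (by omega), Int.ediv_eq_zero_of_lt (by omega) (by omega)]; ring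

lemma sum_ediv_neg (hM : 0 < M) (l : List ℤ) (c : ℤ) :
    (l.map fun y => (c - 1 - y) / M).sum = - (l.map fun y => (y - c) / M).sum - l.length := by
  induction l with
  | nil => simp
  | cons y l ih =>
    simp only [List.map_cons, List.sum_cons, ih, List.length_cons]
    rw [show c - 1 - y = -(y - c) - 1 by ring, ediv_neg hM]; push_cast; ring

lemma sg_theta (hM : 0 < M) (c : ℤ) (l : List ℤ) :
    (sg M (l ++ [c - 1]) - sg M (c :: l) - l.length) % 2 = 0 := by
  simp only [sg, ps_snoc, ps, sum_ediv_neg hM]; omega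

lemma sg_per (hM : 0 < M) (l1 : List ℤ) (c : ℤ) (l2 : List ℤ) :
    (sg M (l1 ++ (c + M) :: l2) - sg M (l1 ++ c :: l2) - (l1.length + l2.length)) % 2 = 0 := by
  induction l1 with
  | nil =>
    have : ∀ l : List ℤ, (l.map fun y => (y - (c + M)) / M).sum
        = (l.map fun y => (y - c) / M).sum - l.length := by
      intro l
      induction l with
      | nil => simp
      | cons y l ih =>
        simp only [List.map_cons, List.sum_cons, ih, List.length_cons]
        rw [show y - (c + M) = y - c + (-1) * M by ring, Int.add_mul_ediv_right _ _ (by omega)]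
        push_cast; ring
    simp only [sg, List.nil_append, ps, this, List.length_nil]; omega
  | cons x l1 ih =>
    simp only [sg, List.cons_append, ps, List.map_append, List.sum_append, List.map_cons,
      List.sum_cons, List.length_cons] at ih ⊢
    rw [show c + M - x = c - x + 1 * M by ring, Int.add_mul_ediv_right _ _ (by omega)]
    push_cast; omega

lemma sg_face (hM : 0 < M) (c d : ℤ) (l : List ℤ) :
    sg M ((c + 1) :: (l ++ [d])) = - Nc M l c - l.length + (d - c - 1) / M + sg M l + Nc M l d := by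
  have := sum_ediv_neg hM l (c + 1)
  simp only [add_sub_cancel_right] at this
  simp only [sg, ps, ps_snoc, List.map_append, List.sum_append, List.map_singleton,
    List.sum_singleton, Nc, this]
  rw [show d - (c + 1) = d - c - 1 by ring]; ring

/-- Rank of a jump. -/
def nu (M : ℕ) (r : ℕ) (q : List ℤ) : ℤ := Nc M (vtx (r + 1) q) (q.getD r 0 - 1)

lemma nu_eq {q : List ℤ} {w : ℤ} (hq : ∀ y ∈ q, w ≤ y ∧ y < w + M) {r : ℕ} (hr : r < q.length) :
    nu M r q = ∑ ρ ∈ range q.length,
      if q.getD r 0 < q.getD ρ 0 ∨ (q.getD r 0 = q.getD ρ 0 ∧ r < ρ) then (-1 : ℤ) else 0 := by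
  have hm : ∀ i < q.length, w ≤ q.getD i 0 ∧ q.getD i 0 < w + M := fun i hi => by
    rw [List.getD_eq_getElem _ _ hi]; exact hq _ (List.getElem_mem _)
  rw [nu, Nc_vtx]
  refine sum_congr rfl fun ρ hρ => ?_
  have h1 := hm r hr
  have h2 := hm ρ (mem_range.1 hρ)
  generalize q.getD r 0 = a at *
  generalize q.getD ρ 0 = b at *
  have key : ∀ s : ℤ, -M ≤ s → s < M → s / M = if s < 0 then -1 else 0 := by
    intro s h3 h4
    split_ifs with h5
    · rw [show s = (s + M) + (-1) * M by ring, Int.add_mul_ediv_right _ _ (by omega),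
        Int.ediv_eq_zero_of_lt (by omega) (by omega)]; ring
    · exact Int.ediv_eq_zero_of_lt (by omega) h4
  rw [key _ (by split_ifs <;> omega) (by split_ifs <;> omega)]
  split_ifs <;> omega

lemma nu_lt {q : List ℤ} {w : ℤ} (hq : ∀ y ∈ q, w ≤ y ∧ y < w + M) {r r' : ℕ} (hr : r < q.length)
    (hr' : r' < q.length) (h : q.getD r 0 < q.getD r' 0 ∨ (q.getD r 0 = q.getD r' 0 ∧ r < r')) :
    nu M r q < nu M r' q := by
  rw [nu_eq hq hr, nu_eq hq hr']
  refine sum_lt_sum (fun ρ _ => ?_) ⟨r', mem_range.2 hr', ?_⟩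
  · split_ifs <;> omega
  · split_ifs <;> omega

lemma nu_inj {q : List ℤ} {w : ℤ} (hq : ∀ y ∈ q, w ≤ y ∧ y < w + M) {r r' : ℕ} (hr : r < q.length)
    (hr' : r' < q.length) (h : nu M r q = nu M r' q) : r = r' := by
  by_contra hne
  by_cases h1 : q.getD r 0 < q.getD r' 0 ∨ (q.getD r 0 = q.getD r' 0 ∧ r < r')
  · have := nu_lt hq hr hr' h1; omega
  · have := nu_lt hq hr' hr (by omega); omega

lemma nu_bounds {q : List ℤ} {w : ℤ} (hq : ∀ y ∈ q, w ≤ y ∧ y < w + M) {r : ℕ}
    (hr : r < q.length) : -(q.length : ℤ) < nu M r q ∧ nu M r q ≤ 0 := by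
  rw [nu_eq hq hr]
  constructor
  · have : ∑ _ρ ∈ range q.length, (-1 : ℤ) = -(q.length : ℤ) := by simp
    rw [← this]
    refine sum_lt_sum (fun ρ _ => ?_) ⟨r, mem_range.2 hr, ?_⟩ <;> split_ifs <;> omega
  · exact sum_nonpos fun ρ _ => by split_ifs <;> omega

lemma sum_nu {q : List ℤ} {w : ℤ} (hq : ∀ y ∈ q, w ≤ y ∧ y < w + M) {β : Type*} [AddCommMonoid β]
    (f : ℤ → β) : ∑ r ∈ range q.length, f (nu M r q) = ∑ j ∈ range q.length, f (-j) := by
  have hb := fun r hr => nu_bounds hq (r := r) hr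
  have hi : Set.InjOn (fun r => (-nu M r q).toNat) (range q.length : Set ℕ) := by
    intro r hr r' hr' h
    have h1 := mem_range.1 (mem_coe.1 hr); have h2 := mem_range.1 (mem_coe.1 hr')
    refine nu_inj hq h1 h2 ?_
    have := hb r h1; have := hb r' h2
    simp only at h; omega
  have hm : Set.MapsTo (fun r => (-nu M r q).toNat) (range q.length : Set ℕ)
      (range q.length : Set ℕ) := by
    intro r hr
    have := hb r (mem_range.1 (mem_coe.1 hr))
    simp only [coe_range, Set.mem_Iio]; omega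
  refine sum_nbij (fun r => (-nu M r q).toNat) hm hi
    (surjOn_of_injOn_of_card_le _ hm hi le_rfl) fun r hr => ?_
  have := hb r (mem_range.1 hr)
  congr 1; omega

end Vale.Agent.P184
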