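import Vale.Agent.P184.Ext
import Vale.Agent.P184.Pair
import Vale.Agent.P184.Tor

/-! A discrete Stokes theorem for the edgewise subdivision of loops. -/

namespace Vale.Agent.P184

set_option linter.unusedSectionVars false

open Finset

variable {G A : Type*} [Group G] [NormedRing A]

abbrev Pt (G : Type*) := (ℤ → G) × (ℤ → ℤ)

def pt (M : ℕ) (X : ℤ → G) (P : List ℤ) : Pt G := (fun t => X (Nc M P t), Nc M P)
def SP (p : Pt G) : Pt G := (fun t => p.1 (t + 1), fun t => p.2 (t + 1))
def act (c : G) (p : Pt G) : Pt G := (fun t => c * p.1 t, p.2)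
def rel (φ : ℤ → ℤ) (p : Pt G) : Pt G := (p.1, fun t => φ (p.2 t))
def sel (M : ℕ) (X : ℤ → G) (q : List ℤ) (s : List ℕ) : List (Pt G) :=
  s.map fun r => pt M X (vtx r q)

structure Good (g : G) (M m : ℕ) (p : Pt G) : Prop where
  tw : Tw g M p.1
  per : ∀ t, p.2 (t + M) = p.2 t + m
  mono : Monotone p.2

def Btw (x y : Pt G) : Prop :=
  x.2 ≤ y.2 ∧ ¬ y.2 ≤ x.2 ∧ y.2 ≤ (SP x).2 ∧ ¬ (SP x).2 ≤ y.2

structure NatC (g : G) (F : List (Pt G) → ℝ) : Prop where
  zinv : ∀ c, c * g = g * c → ∀ l, F (l.map (act c)) = F l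
  relab : ∀ φ, StrictMono φ → ∀ l, F (l.map (rel φ)) = F l

def RotC (g : G) (M : ℕ) (F : List (Pt G) → ℝ) : Prop :=
  ∀ m, 0 < m → ∀ x l, Good g M m x → (∀ y ∈ l, Good g M m y ∧ Btw x y) →
    F (l ++ [SP x]) = (-1) ^ l.length * F (x :: l)

variable {M : ℕ} {g : G} {F : List (Pt G) → ℝ}

lemma good_pt (hM : 0 < M) {X : ℤ → G} {P : List ℤ} (hX : Tw g P.length X) :
    Good g M P.length (pt M X P) :=
  ⟨fun t => by simp only [pt]; rw [Nc_add hM, hX], fun t => Nc_add hM P t, Nc_mono hM P⟩

lemma good_vtx (hM : 0 < M) {X : ℤ → G} {q : List ℤ} (hX : Tw g q.length X) (r : ℕ) :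
    Good g M q.length (pt M X (vtx r q)) := by
  have := good_pt hM (P := vtx r q) (X := X) (g := g) (by simpa using hX)
  simpa using this

lemma SP_pt (X : ℤ → G) (q : List ℤ) : SP (pt M X q) = pt M X (vtx q.length q) := by
  simp only [SP, pt, Prod.mk.injEq]
  exact ⟨funext fun t => by rw [Nc_vtx_length], funext fun t => by rw [Nc_vtx_length]⟩

lemma btw_vtx (hM : 0 < M) (X : ℤ → G) {q : List ℤ} {r : ℕ} (h0 : 0 < r) (h1 : r < q.length) :
    Btw (pt M X q) (pt M X (vtx r q)) := by
  rw [Btw, SP_pt]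
  exact ⟨Nc_vtx_le hM (r := 0) (by omega) h1.le, Nc_vtx_not_le hM (r := 0) h0 h1.le,
    Nc_vtx_le hM h1.le le_rfl, Nc_vtx_not_le hM h1 le_rfl⟩

lemma NatC.zinv_sel (hF : NatC g F) (q : List ℤ) (s : List ℕ) :
    ZInv g fun X => F (sel M X q s) := by
  intro c hc X
  beta_reduce
  rw [← hF.zinv c hc (sel M X q s)]
  simp only [sel, List.map_map]; rfl

lemma NatC.sel_per (hF : NatC g F) (hM : 0 < M) (X : ℤ → G) (l1 : List ℤ) (c : ℤ) (l2 : List ℤ)
    (s : List ℕ) : F (sel M X (l1 ++ (c + M) :: l2) s)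
      = F (sel M (fun j => X (j + -1)) (l1 ++ c :: l2) s) := by
  rw [← hF.relab (fun j => j + -1) (fun a b h => by simpa using h) (sel M _ (l1 ++ c :: l2) s)]
  simp only [sel, List.map_map]
  congr 2
  funext r
  simp only [Function.comp, rel, pt, Prod.mk.injEq]
  exact ⟨funext fun t => by rw [Nc_vtx_per hM]; rfl, funext fun t => by rw [Nc_vtx_per hM]; rfl⟩

lemma sel_theta (X : ℤ → G) (c : ℤ) (l : List ℤ) {s : List ℕ} (hs : ∀ r ∈ s, r ≤ l.length) :
    sel M X (l ++ [c - 1]) s = sel M X (c :: l) (s.map Nat.succ) := by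
  simp only [sel, List.map_map]
  refine List.map_congr_left fun r hr => ?_
  simp only [Function.comp, pt, Nc_vtx_theta (hs r hr)]

lemma RotC.sel_rot (hF : RotC g M F) (hM : 0 < M) {X : ℤ → G} {q : List ℤ} (hq : 0 < q.length)
    (hX : Tw g q.length X) {s : List ℕ} (hs : ∀ r ∈ s, 0 < r ∧ r < q.length) :
    F (sel M X q (s ++ [q.length])) = (-1) ^ s.length * F (sel M X q (0 :: s)) := by
  have := hF q.length hq (pt M X q) (sel M X q s) (good_vtx hM hX 0) fun y hy => by
    obtain ⟨r, hr, rfl⟩ := List.mem_map.1 hy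
    exact ⟨good_vtx hM hX r, btw_vtx hM X (hs r hr).1 (hs r hr).2⟩
  rw [SP_pt] at this
  simpa [sel, vtx] using this

variable {τ : A →+ ℝ}

/-- The value of a cochain on a selection of vertices of an alcove. -/
noncomputable def val (τ : A →+ ℝ) (g : G) (a : MonoidAlgebra A G) (M : ℕ) (F : List (Pt G) → ℝ)
    (s : List ℕ) (q : List ℤ) : ℝ := Pr τ g a q.length fun X => F (sel M X q s)

lemma val_per (hτ : ∀ x y, τ (x * y) = τ (y * x)) (a : MonoidAlgebra A G) (hF : NatC g F)
    (hM : 0 < M) (s : List ℕ) (l1 : List ℤ) (c : ℤ) (l2 : List ℤ) :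
    val τ g a M F s (l1 ++ (c + M) :: l2) = val τ g a M F s (l1 ++ c :: l2) := by
  unfold val
  simp only [hF.sel_per hM, List.length_append, List.length_cons]
  exact Pr_shift hτ g a (l1.length + l2.length) (hF.zinv_sel _ s) (-1)

lemma val_theta (a : MonoidAlgebra A G) (c : ℤ) (l : List ℤ) {s : List ℕ}
    (hs : ∀ r ∈ s, r ≤ l.length) :
    val τ g a M F s (l ++ [c - 1]) = val τ g a M F (s.map Nat.succ) (c :: l) := by
  unfold val
  simp only [sel_theta _ c l hs, List.length_append, List.length_cons, List.length_nil]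

lemma val_rot (a : MonoidAlgebra A G) (hF : RotC g M F) (hM : 0 < M) {q : List ℤ}
    (hq : 0 < q.length) {s : List ℕ} (hs : ∀ r ∈ s, 0 < r ∧ r < q.length) :
    val τ g a M F (s ++ [q.length]) q = (-1) ^ s.length * val τ g a M F (0 :: s) q := by
  unfold val
  rw [← smul_eq_mul, ← map_smul]
  exact Pr_congr _ _ _ _ fun X hX => hF.sel_rot hM hq hX hs

lemma sgn_per_even (hM : 0 < M) {l1 l2 : List ℤ} (c : ℤ) (h : (l1.length + l2.length) % 2 = 0) :
    sgn M (l1 ++ (c + M) :: l2) = sgn M (l1 ++ c :: l2) :=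
  neg_one_zpow_congr (by have := sg_per hM l1 c l2; omega)

lemma step_even (hτ : ∀ x y, τ (x * y) = τ (y * x)) (a : MonoidAlgebra A G) (hF : NatC g F)
    (hR : RotC g M F) (hM : 0 < M) (k : ℕ) :
    TS M (2 * k + 2) (fun q => (-1) ^ nu M (2 * k + 1) q *
      (sgn M q * val τ g a M F (List.range (2 * k + 2)) q)) = 0 := by
  set h : ℕ → List ℤ → ℝ := fun r q => (-1) ^ nu M r q *
      (sgn M q * val τ g a M F (List.range (2 * k + 2)) q) with hh
  have h1 : ∀ r < 2 * k + 1, TS M (2 * k + 2) (h (r + 1)) = TS M (2 * k + 2) (h r) := by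
    intro r hr
    refine TS_theta _ (fun l c hl => ?_) fun c l hl => ?_
    · simp only [hh]
      rw [val_per hτ a hF hM _ l c []]
      have e1 : sgn M (l ++ [c + M]) = - sgn M (l ++ [c]) :=
        neg_one_zpow_odd (by have := sg_per hM l c []; simp only [List.length_nil] at this; omega)
      have e2 : (-1 : ℝ) ^ nu M r (l ++ [c + M]) = - (-1) ^ nu M r (l ++ [c]) := by
        refine neg_one_zpow_odd ?_
        unfold nu
        rw [Nc_vtx_per hM, List.getD_append _ _ _ _ (by omega),
          List.getD_append _ _ _ _ (by omega)]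
        omega
      rw [e1, e2]; ring
    · simp only [hh]
      rw [val_theta a c l (fun r hr => by have := List.mem_range.1 hr; omega)]
      have e1 : sgn M (l ++ [c - 1]) = - sgn M (c :: l) :=
        neg_one_zpow_odd (by have := sg_theta hM c l; omega)
      have e2 : nu M r (l ++ [c - 1]) = nu M (r + 1) (c :: l) := by
        unfold nu
        rw [Nc_vtx_theta (by omega), List.getD_append _ _ _ _ (by omega)]; rfl
      have e3 := val_rot (τ := τ) a hR hM (q := c :: l) (by simp)
        (s := (List.range (2 * k + 1)).map Nat.succ) (fun r hr => by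
          obtain ⟨j, hj, rfl⟩ := List.mem_map.1 hr
          have := List.mem_range.1 hj
          simp only [List.length_cons]; omega)
      rw [← List.range_succ_eq_map] at e3
      rw [e1, e2, List.range_succ (n := 2 * k + 1), List.map_append, List.map_singleton]
      simp only [List.length_cons, hl, List.length_map, List.length_range] at e3
      rw [Nat.succ_eq_add_one, e3, ← List.range_succ, pow_succ, pow_mul]; norm_num
  have h2 : ∀ r ≤ 2 * k + 1, TS M (2 * k + 2) (h r) = TS M (2 * k + 2) (h 0) := by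
    intro r
    induction r with
    | zero => intro _; rfl
    | succ r ih => intro hr; rw [h1 r (by omega), ih (by omega)]
  have h3 : ∑ r ∈ range (2 * k + 2), TS M (2 * k + 2) (h r) = 0 := by
    rw [← TS_sum, TS_congr (h' := fun _ => 0), TS_const, mul_zero]
    intro q hl hq
    simp only [hh]
    rw [← sum_mul, ← hl, sum_nu (w := 0) (by simpa using hq) (fun j => (-1 : ℝ) ^ j), hl]
    have : ∀ k : ℕ, ∑ j ∈ range (2 * k), (-1 : ℝ) ^ (-(j : ℤ)) = 0 := by
      intro k
      induction k with
      | zero => simp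
      | succ k ih =>
        rw [Nat.mul_succ, sum_range_succ, sum_range_succ, ih,
          neg_one_zpow_odd (a := -((2 * k + 1 : ℕ) : ℤ)) (b := -((2 * k : ℕ) : ℤ)) (by omega)]
        ring
    have := this (k + 1)
    rw [Nat.mul_succ] at this
    rw [this, zero_mul]
  rw [sum_congr rfl fun r hr => h2 r (by have := mem_range.1 hr; omega), sum_const, card_range,
    nsmul_eq_mul] at h3
  have := (mul_eq_zero.1 h3).resolve_left (by positivity)
  exact (h2 _ le_rfl).trans this

lemma face_est {κ : ℝ} (hκ : 0 ≤ κ) (hτ' : ∀ x, |τ x| ≤ κ * ‖x‖)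
    (hτ : ∀ x y, τ (x * y) = τ (y * x)) (a : MonoidAlgebra A G) (hF : NatC g F) (hM : 0 < M)
    {C : ℝ} (hC0 : 0 ≤ C) (n : ℕ) (hC : ∀ l : List (Pt G), l.length = n + 1 → |F l| ≤ C)
    (l : List ℤ) (hl : l.length = n) (d : ℤ) :
    |val τ g a M F ((List.range (n + 1)).map Nat.succ) ((d + 1) :: (l ++ [d]))
      - val τ g a M F (List.range (n + 1)) (l ++ [d])|
      ≤ κ * ‖(1 : A)‖ * C * (Nw (fun _ => 1) (a * a - a) * Nw (fun _ => 1) a ^ n) := by
  set ν := Nc M l d with hν
  set f : (ℤ → G) → ℝ := fun X => F (sel M X (l ++ [d]) (List.range (n + 1))) with hf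
  have zf : ZInv g f := hF.zinv_sel _ _
  have zf2 : ZInv g fun Y => f fun j => Y (j + (1 - ν)) := fun c hc X => zf c hc _
  have e1 := Pr_merge hκ hτ' g a n zf2 hC0 fun X => hC _ (by simp [sel])
  rw [Pr_shift hτ g a n zf] at e1
  have e2 := Pr_shift hτ g a (n + 1)
    (f := fun X => f fun j => X (skip (n + 1) (j + (1 - ν)))) (fun c hc X => zf c hc _) (ν - 2)
  rw [← e2] at e1
  unfold val
  simp only [List.length_append, List.length_cons, List.length_nil, hl, zero_add]
  convert e1 using 4
  funext X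
  set φ : ℤ → ℤ := fun j => skip (n + 1) (j + (1 - ν)) + (ν - 2) with hφ
  have hφm : StrictMono φ := by
    intro i j hij
    have : (i + (1 - ν) - 1) / (n + 1 : ℕ) ≤ (j + (1 - ν) - 1) / (n + 1 : ℕ) :=
      Int.ediv_le_ediv (by omega) (by omega)
    simp only [hφ, skip]; omega
  simp only [hf]
  conv_rhs => rw [← hF.relab φ hφm]
  simp only [sel, List.map_map]
  congr 1
  refine List.map_congr_left fun r hr => ?_
  have hr' : r ≤ l.length := by have := List.mem_range.1 hr; omega
  have key : Nc M (vtx (r + 1) ((d + 1) :: (l ++ [d]))) = fun t => φ (Nc M (vtx r (l ++ [d])) t) := by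
    funext t
    rw [vtx, Nc_cons, add_sub_cancel_right]
    set P := vtx r (l ++ [d]) with hP
    have hPl : P.length = n + 1 := by simp [hP, hl]
    have b1 : ν ≤ Nc M P d := by
      have := Nc_vtx_le hM (Nat.zero_le r) hr' d
      rw [hP, vtx_append hr', Nc_append, Nc_cons]
      simpa [vtx] using this
    have b2 : Nc M P (d - 1) + 1 ≤ ν := by
      have := Nc_vtx_le hM hr' le_rfl (d - 1)
      rw [Nc_vtx_length, sub_add_cancel] at this
      have e := ediv_neg hM 0
      rw [hP, vtx_append hr', Nc_append, Nc_cons, show d - 1 - d = -0 - 1 by ring, e]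
      simpa using this
    have c1 := Int.emod_add_mul_ediv (t - d) M
    have c2 := Int.emod_nonneg (t - d) (by omega : (M : ℤ) ≠ 0)
    have c3 := Int.emod_lt_of_pos (t - d) (by omega : (0 : ℤ) < M)
    set j := (t - d) / M
    have d1 := Nc_mono hM P (show d + j * M ≤ t by linarith)
    have d2 := Nc_mono hM P (show t ≤ d - 1 + (j + 1) * M by linarith)
    rw [Nc_add_mul hM, hPl] at d1 d2
    have d3 : (Nc M P t + (1 - ν) - 1) / (n + 1 : ℕ) = j := by
      rw [show Nc M P t + (1 - ν) - 1 = (Nc M P t - ν - j * (n + 1 : ℕ)) + j * (n + 1 : ℕ) by ring,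
        Int.add_mul_ediv_right _ _ (by omega), Int.ediv_eq_zero_of_lt (by linarith) (by linarith),
        zero_add]
    simp only [hφ, skip, d3]; ring
  simp only [Function.comp, pt, rel, Nat.succ_eq_add_one, key]
  rfl

lemma step_odd (hτ : ∀ x y, τ (x * y) = τ (y * x)) (a : MonoidAlgebra A G) (hF : NatC g F)
    (hR : RotC g M F) (hM : 0 < M) (k : ℕ) :
    TS M (2 * k + 3) (fun q => sgn M q * val τ g a M (del F) (List.range (2 * k + 3)) q)
      = (2 * k + 3) * ∑ d ∈ range M, TS M (2 * k + 1) fun l =>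
        sgn M (((d : ℤ) + 1) :: (l ++ [(d : ℤ)])) *
        val τ g a M F ((List.range (2 * k + 2)).map Nat.succ) (((d : ℤ) + 1) :: (l ++ [(d : ℤ)])) := by
  set h : ℕ → List ℤ → ℝ := fun r q => (-1) ^ r *
      (sgn M q * val τ g a M F ((List.range (2 * k + 3)).eraseIdx r) q) with hh
  have h0 : ∀ q, sgn M q * val τ g a M (del F) (List.range (2 * k + 3)) q
      = ∑ r ∈ range (2 * k + 3), h r q := by
    intro q
    have : (fun X => del F (sel M X q (List.range (2 * k + 3)))) = ∑ r ∈ range (2 * k + 3),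
        ((-1 : ℝ) ^ r) • fun X => F (sel M X q ((List.range (2 * k + 3)).eraseIdx r)) := by
      funext X
      rw [del_eq_sum]
      simp [sel, Finset.sum_apply, List.eraseIdx_map]
    simp only [hh, val]
    rw [this, map_sum, mul_sum]
    refine sum_congr rfl fun r _ => ?_
    rw [map_smul, smul_eq_mul]; ring
  have h1 : ∀ r < 2 * k + 2, TS M (2 * k + 3) (h (r + 1)) = TS M (2 * k + 3) (h r) := by
    intro r hr
    refine TS_theta _ (fun l c hl => ?_) fun c l hl => ?_
    · simp only [hh]
      rw [val_per hτ a hF hM _ l c [], sgn_per_even hM (l2 := []) c (by simp [hl])]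
    · simp only [hh]
      rw [val_theta a c l (fun r hr => by
        have := List.mem_range.1 (List.mem_of_mem_eraseIdx hr); omega)]
      have e1 : sgn M (l ++ [c - 1]) = sgn M (c :: l) :=
        neg_one_zpow_congr (by have := sg_theta hM c l; omega)
      have e3 := val_rot (τ := τ) a hR hM (q := c :: l) (by simp)
        (s := ((List.range (2 * k + 2)).eraseIdx r).map Nat.succ) (fun r hr => by
          obtain ⟨j, hj, rfl⟩ := List.mem_map.1 hr
          have := List.mem_range.1 (List.mem_of_mem_eraseIdx hj)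
          simp only [List.length_cons]; omega)
      have e4 : (List.range (2 * k + 3)).eraseIdx (r + 1)
          = 0 :: ((List.range (2 * k + 2)).eraseIdx r).map Nat.succ := by
        rw [List.range_succ_eq_map, List.eraseIdx_cons_succ, List.eraseIdx_map]
      have e5 : ((List.range (2 * k + 3)).eraseIdx r).map Nat.succ
          = ((List.range (2 * k + 2)).eraseIdx r).map Nat.succ ++ [(c :: l).length] := by
        rw [List.range_succ, List.eraseIdx_append_of_lt_length (by simpa using hr),
          List.map_append]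
        simp [hl]
      rw [e1, e4, e5, e3, List.length_map, List.length_eraseIdx_of_lt (by simpa using hr),
        List.length_range, show 2 * k + 2 - 1 = 2 * k + 1 by omega, pow_succ _ (2 * k), pow_mul]
      ring
  have h2 : ∀ r ≤ 2 * k + 2, TS M (2 * k + 3) (h r) = TS M (2 * k + 3) (h 0) := by
    intro r
    induction r with
    | zero => intro _; rfl
    | succ r ih => intro hr; rw [h1 r (by omega), ih (by omega)]
  simp only [h0]
  rw [TS_sum, sum_congr rfl fun r hr => h2 r (by have := mem_range.1 hr; omega), sum_const,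
    card_range, nsmul_eq_mul]
  have e0 : h 0 = fun q => sgn M q * val τ g a M F ((List.range (2 * k + 2)).map Nat.succ) q := by
    funext q; simp only [hh]; rw [List.range_succ_eq_map]; simp
  rw [e0, TS_invol]
  · push_cast; rfl
  · intro l c hl
    have := val_per hτ a hF hM ((List.range (2 * k + 2)).map Nat.succ) [] c l
    have e := sgn_per_even hM (l1 := []) (l2 := l) c (by simp [hl]; omega)
    simp only [List.nil_append] at this e
    rw [this, e]
  · intro c d l hl h1 h2 h3 h4 h5
    have e1 : sgn M ((d + 1) :: (l ++ [c])) = - sgn M ((c + 1) :: (l ++ [d])) := by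
      refine neg_one_zpow_odd ?_
      rw [sg_face hM, sg_face hM]
      have key : ∀ s : ℤ, 0 ≤ s → s < M → s / M = 0 ∧ (-s - 2) / M = -1 ∨ s = M - 1 := by
        intro s a b
        by_cases e : s = M - 1
        · exact Or.inr e
        · refine Or.inl ⟨Int.ediv_eq_zero_of_lt a b, ?_⟩
          rw [show -s - 2 = -(s + 1) - 1 by ring, ediv_neg hM,
            Int.ediv_eq_zero_of_lt (by omega) (by omega)]; ring
      rcases lt_or_gt_of_ne h5 with h6 | h6
      · rcases key (d - c - 1) (by omega) (by omega) with ⟨a, b⟩ | a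
        · rw [show c - d - 1 = -(d - c - 1) - 2 by ring, a, b]; omega
        · omega
      · rcases key (c - d - 1) (by omega) (by omega) with ⟨a, b⟩ | a
        · rw [show d - c - 1 = -(c - d - 1) - 2 by ring, a, b]; omega
        · omega
    have e2 : val τ g a M F ((List.range (2 * k + 2)).map Nat.succ) ((d + 1) :: (l ++ [c]))
        = val τ g a M F ((List.range (2 * k + 2)).map Nat.succ) ((c + 1) :: (l ++ [d])) := by
      unfold val
      simp only [List.length_append, List.length_cons, sel, List.map_map]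
      congr 3
      funext X
      congr 1
      refine List.map_congr_left fun r hr => ?_
      have hr' : r ≤ l.length := by have := List.mem_range.1 hr; omega
      have : Nc M (vtx (r + 1) ((d + 1) :: (l ++ [c]))) = Nc M (vtx (r + 1) ((c + 1) :: (l ++ [d]))) := by
        funext t
        simp only [vtx, vtx_append hr', Nc_cons, Nc_append, Nc_nil, add_sub_cancel_right]; ring
      simp only [Function.comp, pt, Nat.succ_eq_add_one, this]
    rw [e1, e2]; ring

theorem stokes {κ : ℝ} (hκ : 0 ≤ κ) (hτ' : ∀ x, |τ x| ≤ κ * ‖x‖)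
    (hτ : ∀ x y, τ (x * y) = τ (y * x)) (hF : NatC g F) (hR : RotC g M F) (hM : 0 < M) (k : ℕ)
    (hC : ∃ C, ∀ l : List (Pt G), l.length = 2 * k + 2 → |F l| ≤ C) :
    ∃ C, ∀ a : MonoidAlgebra A G,
      |TS M (2 * k + 3) (fun q => sgn M q * val τ g a M (del F) (List.range (2 * k + 3)) q)|
        ≤ C * (Nw (fun _ => 1) (a * a - a) * Nw (fun _ => 1) a ^ (2 * k + 1)) := by
  obtain ⟨C, hC⟩ := hC
  have hC' : ∀ l : List (Pt G), l.length = 2 * k + 1 + 1 → |F l| ≤ max C 0 :=
    fun l hl => (hC l hl).trans (le_max_left _ _)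
  refine ⟨(2 * k + 3) * (M * (M ^ (2 * k + 1) * (κ * ‖(1 : A)‖ * max C 0))), fun a => ?_⟩
  have h0 := step_even hτ a hF hR hM k
  rw [TS_snoc] at h0
  rw [step_odd hτ a hF hR hM k, abs_mul, abs_of_pos (by positivity : (0 : ℝ) < 2 * k + 3),
    mul_assoc]
  refine mul_le_mul_of_nonneg_left ?_ (by positivity)
  rw [← sub_zero (∑ d ∈ range M, _)]
  conv_lhs => rw [← h0, ← sum_sub_distrib]
  refine (abs_sum_le_sum_abs _ _).trans ((sum_le_sum (g := fun _ => M ^ (2 * k + 1) *
    (κ * ‖(1 : A)‖ * max C 0 * (Nw (fun _ => 1) (a * a - a) * Nw (fun _ => 1) a ^ (2 * k + 1))))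
      fun d _ => ?_).trans (le_of_eq ?_))
  · rw [← TS_sub]
    refine TS_bound fun l hl => le_trans (le_of_eq ?_)
      (face_est hκ hτ' hτ a hF hM (le_max_right C 0) (2 * k + 1) hC' l hl d)
    have e1 : sgn M (((d : ℤ) + 1) :: (l ++ [(d : ℤ)]))
        = (-1) ^ nu M (2 * k + 1) (l ++ [(d : ℤ)]) * sgn M (l ++ [(d : ℤ)]) := by
      have a1 : nu M (2 * k + 1) (l ++ [(d : ℤ)]) = Nc M l d := by
        have := Nc_vtx_length (M := M) (l ++ [(d : ℤ)]) (d - 1)
        simp only [List.length_append, hl, List.length_singleton, sub_add_cancel] at this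
        rw [nu, List.getD_append_right _ _ _ _ (by omega), hl]
        simp only [Nat.sub_self, List.getD_cons_zero]
        rw [this, Nc_append, Nc_cons]; simp
      have a2 : sg M (l ++ [(d : ℤ)]) = sg M l + Nc M l d := ps_snoc _ _ _
      have a3 := ediv_neg hM 0
      rw [a1, sgn, sgn, ← zpow_add₀ (by norm_num)]
      refine neg_one_zpow_congr ?_
      rw [sg_face hM, a2, show (d : ℤ) - d - 1 = -0 - 1 by ring, a3, hl]
      simp only [Int.zero_ediv]; omega
    rw [← mul_assoc, ← e1, ← mul_sub, abs_mul, sgn, abs_neg_one_zpow, one_mul]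
  · simp only [sum_const, card_range, nsmul_eq_mul]; ring

end Vale.Agent.P184
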