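import Vale.Agent.P184.Len

/-! Kernels attached to pairs of fields. -/

namespace Vale.Agent.P184

set_option linter.unusedSectionVars false

open Finset

variable {G : Type*} [Group G] {M : ℕ} {g : G} {ℓ : G → ℝ} {T : ℝ} {Bl : Finset G}

noncomputable def tp (M : ℕ) (A : ℤ → G →₀ ℝ) (B : ℤ → G → ℝ) : ℝ :=
  ∑ t ∈ range M, ip (A t) (B t)

lemma tp_sub_left (A A' : ℤ → G →₀ ℝ) (B : ℤ → G → ℝ) :
    tp M (A - A') B = tp M A B - tp M A' B := by simp [tp]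

lemma tp_sub_right (A : ℤ → G →₀ ℝ) (B B' : ℤ → G → ℝ) :
    tp M A (B - B') = tp M A B - tp M A B' := by simp [tp]

lemma abs_tp_le {A : ℤ → G →₀ ℝ} {B : ℤ → G → ℝ} {a c : ℝ} (hA : ∑ t ∈ range M, n1 (A t) ≤ a)
    (hB : ∀ t y, |B t y| ≤ c) : |tp M A B| ≤ a * c := by
  refine (abs_sum_le_sum_abs _ _).trans ((sum_le_sum (g := fun t : ℕ => n1 (A t) * c)
    fun t _ => abs_ip_le (hB t)).trans ?_)
  rw [← sum_mul]
  exact mul_le_mul_of_nonneg_right hA ((abs_nonneg _).trans (hB 0 1))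

lemma abs_tp_le' {A : ℤ → G →₀ ℝ} {B : ℤ → G → ℝ} {a c : ℝ} {ψ : ℤ → ℝ} (hA : ∀ t, n1 (A t) ≤ a)
    (hB : ∀ t y, |B t y| ≤ ψ t) (hc : ∑ t ∈ range M, ψ t ≤ c) : |tp M A B| ≤ a * c := by
  refine (abs_sum_le_sum_abs _ _).trans ((sum_le_sum (g := fun t : ℕ => a * ψ t) fun t _ =>
    (abs_ip_le (hB t)).trans ?_).trans ?_)
  · exact mul_le_mul_of_nonneg_right (hA t) ((abs_nonneg _).trans (hB t 1))
  · rw [← mul_sum]
    exact mul_le_mul_of_nonneg_left hc ((n1_nonneg _).trans (hA 0))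

/-- Equivariant fields. -/
structure Eqv (g : G) (M : ℕ) (F : (ℤ → G) → ℤ → G → ℝ) : Prop where
  zinv : ∀ c, c * g = g * c → ∀ z t y, F (fun s => c * z s) t (c * y) = F z t y
  shift : ∀ z, Tw g M z → ∀ t y, F (sh z) t y = F z (t + 1) y

lemma Eqv.per {F : (ℤ → G) → ℤ → G → ℝ} (h : Eqv g M F) {z : ℤ → G} (hz : Tw g M z) (t : ℤ)
    (y : G) : F z (t + M) (g * y) = F z t y := by
  have key : ∀ j : ℕ, ∀ t y, F (fun s => z (s + j)) t y = F z (t + j) y := by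
    intro j
    induction j with
    | zero => simp
    | succ j ih =>
      intro t y
      have := h.shift (fun s => z (s + j)) (fun s => by beta_reduce; rw [add_right_comm, hz]) t y
      rw [ih] at this
      push_cast
      rw [add_comm (j : ℤ) 1]
      simp only [← add_assoc]
      exact this
  rw [← key, ← h.zinv g rfl z]
  simp only [hz _]

structure TK (g : G) (M : ℕ) (ℓ : G → ℝ) (t : (ℤ → G) → (ℤ → G) → ℝ) (A B : ℝ) : Prop where
  anti : ∀ z z', t z z' = - t z' z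
  bdd : ∃ κ, ∀ z z', |t z z'| ≤ κ
  zinv : ∀ c, c * g = g * c → ∀ z z', t (fun s => c * z s) (fun s => c * z' s) = t z z'
  shift : ∀ z z', Tw g M z → Tw g M z' → t (sh z) (sh z') = t z z'
  q1 : ∀ z z', Tw g M z → Tw g M z' → |t z z'| ≤ A * (M * Dz ℓ M z z')
  q2 : ∀ z z', Tw g M z → Tw g M z' → |t z' (sh z') - t z (sh z)| ≤ A * Dz ℓ M z z'
  q3 : ∀ z z', Tw g M z → Tw g M z' → |2 * (t z z' + t z' (sh z)) - t z (sh z) - t z' (sh z')|
    ≤ B * ((Dz ℓ M z (sh z) + Dz ℓ M z z') * Dz ℓ M z z')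
  q4 : ∀ z z' w w', Tw g M z → Tw g M z' → Tw g M w → Tw g M w' →
    |t z' w' - t z w' - t z' w + t z w| ≤ A * (Dz ℓ M z z' * Dz ℓ M w w')

variable {t t' : (ℤ → G) → (ℤ → G) → ℝ} {A B A' B' : ℝ}

lemma abs_add_le' {a b c x y : ℝ} (h : |a| ≤ x) (h' : |b| ≤ y) (e : c = a + b) : |c| ≤ x + y :=
  e ▸ (abs_add_le _ _).trans (add_le_add h h')

lemma TK.add (h : TK g M ℓ t A B) (h' : TK g M ℓ t' A' B') :
    TK g M ℓ (fun z z' => t z z' + t' z z') (A + A') (B + B') where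
  anti z z' := by rw [h.anti z, h'.anti z]; ring
  bdd := by
    obtain ⟨a, ha⟩ := h.bdd; obtain ⟨b, hb⟩ := h'.bdd
    exact ⟨a + b, fun z z' => abs_add_le' (ha z z') (hb z z') rfl⟩
  zinv c hc z z' := by rw [h.zinv c hc, h'.zinv c hc]
  shift z z' a b := by rw [h.shift _ _ a b, h'.shift _ _ a b]
  q1 z z' a b := by rw [add_mul]; exact abs_add_le' (h.q1 _ _ a b) (h'.q1 _ _ a b) rfl
  q2 z z' a b := by rw [add_mul]; exact abs_add_le' (h.q2 _ _ a b) (h'.q2 _ _ a b) (by ring)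
  q3 z z' a b := by rw [add_mul B]; exact abs_add_le' (h.q3 _ _ a b) (h'.q3 _ _ a b) (by ring)
  q4 z z' w w' a b c d := by
    rw [add_mul]; exact abs_add_le' (h.q4 _ _ _ _ a b c d) (h'.q4 _ _ _ _ a b c d) (by ring)

lemma abs_mul_le' {a c x e y : ℝ} (hc : 0 ≤ c) (h : |a| ≤ x * y) (e' : e = c * a) :
    |e| ≤ c * x * y := by
  rw [e', abs_mul, abs_of_nonneg hc, mul_assoc]; gcongr

lemma TK.mul (h : TK g M ℓ t A B) {c : ℝ} (hc : 0 ≤ c) :
    TK g M ℓ (fun z z' => c * t z z') (c * A) (c * B) where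
  anti z z' := by rw [h.anti z]; ring
  bdd := by
    obtain ⟨a, ha⟩ := h.bdd
    exact ⟨c * a, fun z z' => by rw [abs_mul, abs_of_nonneg hc]; gcongr; exact ha _ _⟩
  zinv c hc z z' := by rw [h.zinv c hc]
  shift z z' a b := by rw [h.shift _ _ a b]
  q1 z z' a b := abs_mul_le' hc (h.q1 _ _ a b) rfl
  q2 z z' a b := abs_mul_le' hc (h.q2 _ _ a b) (by ring)
  q3 z z' a b := abs_mul_le' hc (h.q3 _ _ a b) (by ring)
  q4 z z' w w' a b c d := abs_mul_le' hc (h.q4 _ _ _ _ a b c d) (by ring)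

lemma tk_sum {ι : Type*} (s : Finset ι) {t : ι → (ℤ → G) → (ℤ → G) → ℝ}
    (h : ∀ i ∈ s, TK g M ℓ (t i) A B) :
    TK g M ℓ (fun z z' => ∑ i ∈ s, t i z z') (s.card * A) (s.card * B) := by
  classical
  induction s using Finset.induction_on with
  | empty => exact ⟨by simp, ⟨0, by simp⟩, by simp, by simp, by simp, by simp, by simp, by simp⟩
  | insert a s ha ih =>
    simp only [sum_insert ha, card_insert_of_notMem ha]
    convert (h a (by simp)).add (ih fun i hi => h i (by simp [hi])) using 1 <;> push_cast <;> ring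

lemma TK.mono (hl : Len ℓ T Bl) (h : TK g M ℓ t A B) (hA : A ≤ A') (hB : B ≤ B') :
    TK g M ℓ t A' B' :=
  have d := hl.Dz_nonneg (M := M)
  { h with
    q1 := fun z z' a b => (h.q1 _ _ a b).trans (by have := d z z'; gcongr)
    q2 := fun z z' a b => (h.q2 _ _ a b).trans (by have := d z z'; gcongr)
    q3 := fun z z' a b => (h.q3 _ _ a b).trans (by have := d z z'; have := d z (sh z); gcongr)
    q4 := fun z z' w w' a b c e => (h.q4 _ _ _ _ a b c e).trans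
      (by have := d z z'; have := d w w'; gcongr) }

/-- Pairs of fields. -/
structure Pp (g : G) (M : ℕ) (ℓ : G → ℝ) (Ξ : (ℤ → G) → ℤ → G →₀ ℝ) (W : (ℤ → G) → ℤ → G → ℝ)
    (K σ : ℝ) : Prop where
  n1 : ∀ z t, n1 (Ξ z t) ≤ K
  Wb : ∀ z t y, |W z t y| ≤ K * M
  eΞ : Eqv g M fun z t y => Ξ z t y
  eW : Eqv g M W
  lΞ : ∀ z z', Tw g M z → Tw g M z' → ∑ t ∈ range M, P184.n1 (Ξ z' t - Ξ z t) ≤ K * Dz ℓ M z z'
  lW : ∀ z z', Tw g M z → Tw g M z' → ∀ t y, |W z' t y - W z t y| ≤ K * Dz ℓ M z z'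
  Vb : ∀ z, Tw g M z → ∀ t y, |W (sh z) t y - W z t y| ≤ K
  lV : ∀ z z', Tw g M z → Tw g M z' → ∃ ψ : ℤ → ℝ,
    (∀ t y, |(W (sh z') t y - W z' t y) - (W (sh z) t y - W z t y)| ≤ ψ t) ∧
    ∑ t ∈ range M, ψ t ≤ K * Dz ℓ M z z' ∧ ∀ t, ψ t ≤ σ * Dz ℓ M z z'

/-- The kernel of a pair. -/
noncomputable def tz (M : ℕ) (Ξ : (ℤ → G) → ℤ → G →₀ ℝ) (W : (ℤ → G) → ℤ → G → ℝ)
    (z z' : ℤ → G) : ℝ := (tp M (Ξ z) (W z') - tp M (Ξ z') (W z)) / 2

variable {Ξ : (ℤ → G) → ℤ → G →₀ ℝ} {W : (ℤ → G) → ℤ → G → ℝ} {K σ : ℝ}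

lemma tp_shift (hΞ : Eqv g M fun z t y => Ξ z t y) (hW : Eqv g M W) {z z' : ℤ → G}
    (a : Tw g M z) (b : Tw g M z') : tp M (Ξ (sh z)) (W (sh z')) = tp M (Ξ z) (W z') := by
  rw [tp, tp, ← sum_per (f := fun t => ip (Ξ z t) (W z' t))
    (fun c => ip_equiv (Equiv.mulLeft g) (hΞ.per a c) (hW.per b c)) 1]
  exact sum_congr rfl fun t _ => ip_equiv (Equiv.refl _) (hΞ.shift z a t) (hW.shift z' b t)

lemma d2_tz (z z' w w' : ℤ → G) : tz M Ξ W z' w' - tz M Ξ W z w' - tz M Ξ W z' w + tz M Ξ W z w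
    = (tp M (Ξ z' - Ξ z) (W w' - W w) - tp M (Ξ w' - Ξ w) (W z' - W z)) / 2 := by
  simp only [tz, tp_sub_left, tp_sub_right]; ring

lemma Pp.tk (h : Pp g M ℓ Ξ W K σ) : TK g M ℓ (tz M Ξ W) (2 * K ^ 2) (K * σ) := by
  have K0 : 0 ≤ K := (n1_nonneg _).trans (h.n1 1 0)
  have hs : ∀ z, ∑ t ∈ range M, P184.n1 (Ξ z t) ≤ M * K := fun z =>
    (sum_le_sum (s := range M) (g := fun _ => K) fun t _ => h.n1 z t).trans (by simp)
  have sh' := fun z z' => tp_shift h.eΞ h.eW (z := z) (z' := z')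
  refine ⟨fun z z' => by unfold tz; ring, ⟨M * K * (K * M), fun z z' => ?_⟩, fun c hc z z' => ?_,
    fun z z' a b => ?_, fun z z' a b => ?_, fun z z' a b => ?_, fun z z' a b => ?_,
    fun z z' w w' a b c d => ?_⟩
  · have a := abs_tp_le (hs z) (h.Wb z')
    have b := abs_tp_le (hs z') (h.Wb z)
    unfold tz; rw [abs_le] at *; constructor <;> linarith
  · have : ∀ z z', tp M (Ξ fun s => c * z s) (W fun s => c * z' s) = tp M (Ξ z) (W z') :=
      fun z z' => sum_congr rfl fun t _ =>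
        ip_equiv (Equiv.mulLeft c) (h.eΞ.zinv c hc z t) (h.eW.zinv c hc z' t)
    simp only [tz, this]
  · rw [tz, tz, sh' _ _ a b, sh' _ _ b a]
  · have a1 := abs_tp_le (B := W z' - W z) (hs z) (h.lW _ _ a b)
    have a2 := abs_tp_le (A := Ξ z' - Ξ z) (h.lΞ _ _ a b) (h.Wb z)
    have := (abs_nonneg _).trans a1
    rw [tp_sub_right] at a1; rw [tp_sub_left] at a2
    unfold tz; rw [abs_le] at *; constructor <;> nlinarith
  · obtain ⟨ψ, p1, p2, _⟩ := h.lV _ _ a b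
    have a1 := abs_tp_le (A := Ξ z' - Ξ z) (B := W (sh z') - W z') (h.lΞ _ _ a b) (h.Vb _ b)
    have a2 := abs_tp_le (A := Ξ (sh z') - Ξ (sh z)) (B := W (sh z') - W z')
      (h.lΞ _ _ a.sh b.sh) (h.Vb _ b)
    have a3 := abs_tp_le' (B := W (sh z') - W z' - (W (sh z) - W z)) (h.n1 z) p1 p2
    have a4 := abs_tp_le' (B := W (sh z') - W z' - (W (sh z) - W z)) (h.n1 (sh z)) p1 p2
    rw [Dz_sh a b] at a2
    simp only [tp_sub_left, tp_sub_right, sh' _ _ a a, sh' _ _ b b] at a1 a2 a3 a4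
    unfold tz; rw [abs_le] at *; constructor <;> nlinarith
  · obtain ⟨ψ, p1, _, p2⟩ := h.lV _ _ a b
    obtain ⟨ψ', p1', _, p2'⟩ := h.lV _ _ a a.sh
    have p3 := fun t y => (p1 t y).trans (p2 t)
    have p4 := fun t y => (p1' t y).trans (p2' t)
    have a1 := abs_tp_le (A := Ξ (sh z) - Ξ z) (B := W (sh z') - W z' - (W (sh z) - W z))
      (h.lΞ _ _ a a.sh) p3
    have a2 := abs_tp_le (A := Ξ (sh z') - Ξ (sh z))
      (B := W (sh (sh z)) - W (sh z) - (W (sh z) - W z)) (h.lΞ _ _ a.sh b.sh) p4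
    have a3 := abs_tp_le (A := Ξ z' - Ξ z) (B := W (sh z') - W z' - (W (sh z) - W z))
      (h.lΞ _ _ a b) p3
    have a4 := abs_tp_le (A := Ξ (sh z') - Ξ (sh z)) (B := W (sh z') - W z' - (W (sh z) - W z))
      (h.lΞ _ _ a.sh b.sh) p3
    rw [Dz_sh a b] at a2 a4
    simp only [tp_sub_left, tp_sub_right, sh' _ _ a a, sh' _ _ b b, sh' _ _ a b, sh' _ _ b a,
      sh' _ _ a a.sh, sh' _ _ b a.sh] at a1 a2 a3 a4
    unfold tz; rw [abs_le] at *; constructor <;> nlinarith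
  · have a1 := abs_tp_le (A := Ξ z' - Ξ z) (B := W w' - W w) (h.lΞ _ _ a b) (h.lW _ _ c d)
    have a2 := abs_tp_le (A := Ξ w' - Ξ w) (B := W z' - W z) (h.lΞ _ _ c d) (h.lW _ _ a b)
    have := (abs_nonneg _).trans a1
    rw [d2_tz]; rw [abs_le] at *; constructor <;> nlinarith

lemma Pp.gap (h : Pp g M ℓ Ξ W K σ) {z : ℤ → G} (a : Tw g M z) :
    tp M (Ξ z) (W (sh z) - W z) - K ^ 2 * Dz ℓ M z (sh z) / 2 ≤ tz M Ξ W z (sh z) := by
  have a1 := abs_tp_le (A := Ξ (sh z) - Ξ z) (B := W (sh z) - W z) (h.lΞ _ _ a a.sh) (h.Vb _ a)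
  simp only [tp_sub_left, tp_sub_right, tp_shift h.eΞ h.eW a a] at a1 ⊢
  unfold tz; rw [abs_le] at *; nlinarith

end Vale.Agent.P184
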