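import Vale.Agent.P184.Compare
import Vale.Agent.P184.Adm

/-! The universal kernel. -/

namespace Vale.Agent.P184

set_option linter.unusedSectionVars false

open Finset

variable {G : Type*} [Group G] {M : ℕ} {g : G}

def sn (a : ℤ) : ℝ := (Int.sign a : ℤ)

lemma sn_neg (a : ℤ) : sn (-a) = - sn a := by simp [sn]
lemma sn_pos {a : ℤ} (h : 0 < a) : sn a = 1 := by simp [sn, Int.sign_eq_one_of_pos h]
lemma sn_lt {a : ℤ} (h : a < 0) : sn a = -1 := by simp [sn, Int.sign_eq_neg_one_of_neg h]
lemma sn_zero : sn 0 = 0 := by simp [sn]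
lemma abs_sn (a : ℤ) : |sn a| ≤ 1 := by
  rcases lt_trichotomy a 0 with h | rfl | h
  · simp [sn_lt h]
  · simp [sn_zero]
  · simp [sn_pos h]

lemma sn_rel {φ : ℤ → ℤ} (h : StrictMono φ) (a b : ℤ) : sn (φ a - φ b) = sn (a - b) := by
  rcases lt_trichotomy a b with e | rfl | e
  · rw [sn_lt (sub_neg.2 (h e)), sn_lt (sub_neg.2 e)]
  · simp
  · rw [sn_pos (sub_pos.2 (h e)), sn_pos (sub_pos.2 e)]

noncomputable def U0 (M : ℕ) (x y : Pt G) : ℝ :=
  ∑ t ∈ range M, ∑ h ∈ range (2 * M + 3), sn (y.2 (t + (h - (M + 1))) - x.2 t)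

/-- The universal kernel. -/
noncomputable def Uk (M : ℕ) (x y : Pt G) : ℝ := (U0 M x y - U0 M y x) / (4 * M ^ 2)

lemma U0_anti {m : ℕ} {x y : Pt G} (hx : Good g M m x) (hy : Good g M m y) :
    U0 M y x = - U0 M x y := by
  unfold U0
  rw [sum_comm, sum_comm (s := range M), ← sum_range_reflect, ← sum_neg_distrib]
  refine sum_congr rfl fun h hh => ?_
  have hh' := mem_range.1 hh
  rw [← sum_per (f := fun t => sn (x.2 (t + (((2 * M + 3 - 1 - h : ℕ) : ℤ) - (M + 1))) - y.2 t))
    (fun c => by rw [add_right_comm, hx.per, hy.per]; congr 1; ring) (h - (M + 1)),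
    ← sum_neg_distrib]
  refine sum_congr rfl fun t _ => ?_
  rw [← sn_neg, neg_sub, show (t : ℤ) + (h - (M + 1)) + (((2 * M + 3 - 1 - h : ℕ) : ℤ) - (M + 1))
    = t by omega]

lemma Uk_eq {m : ℕ} {x y : Pt G} (hx : Good g M m x) (hy : Good g M m y) :
    Uk M x y = U0 M x y / (2 * M ^ 2) := by
  rw [Uk, U0_anti hx hy]
  by_cases h : (M : ℝ) = 0
  · simp [h]
  · field_simp; ring

lemma Uk_anti (x y : Pt G) : Uk M x y = - Uk M y x := by unfold Uk; ring

lemma Good.SP {m : ℕ} {x : Pt G} (hx : Good g M m x) : Good g M m (SP x) :=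
  ⟨fun t => by simp only [P184.SP]; rw [add_right_comm, hx.tw],
    fun t => by simp only [P184.SP]; rw [add_right_comm, hx.per],
    fun s t h => hx.mono (by omega)⟩

lemma Uk_SP {m : ℕ} {x y : Pt G} (hx : Good g M m x) (hy : Good g M m y) :
    Uk M (SP x) (SP y) = Uk M x y := by
  rw [Uk_eq hx.SP hy.SP, Uk_eq hx hy, U0, U0,
    ← sum_per (f := fun t => ∑ h ∈ range (2 * M + 3), sn (y.2 (t + (h - (M + 1))) - x.2 t))
    (fun c => sum_congr rfl fun h _ => by rw [add_right_comm, hx.per, hy.per]; congr 1; ring) 1]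
  simp only [SP, add_right_comm]

lemma Uk_shift (hM : 0 < M) {m : ℕ} (hm : 0 < m) {x y : Pt G} (hx : Good g M m x)
    (hy : Good g M m y) (h1 : x.2 ≤ y.2) (h2 : y.2 ≤ (SP x).2) :
    Uk M y (SP x) = Uk M y x + 1 / M := by
  rw [Uk_eq hy hx.SP, Uk_eq hy hx]
  have : U0 M y (SP x) = U0 M y x + 2 * M := by
    unfold U0
    have : (2 * M : ℝ) = ∑ _t ∈ range M, 2 := by simp [mul_comm]
    rw [this, ← sum_add_distrib]
    refine sum_congr rfl fun t _ => ?_
    have a := sum_range_succ (fun h : ℕ => sn (x.2 (t + (h - (M + 1))) - y.2 t)) (2 * M + 3)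
    have b := sum_range_succ' (fun h : ℕ => sn (x.2 (t + (h - (M + 1))) - y.2 t)) (2 * M + 3)
    have c1 : sn (x.2 (t + ((2 * M + 3 : ℕ) - (M + 1))) - y.2 t) = 1 := by
      refine sn_pos ?_
      have e1 : y.2 t ≤ x.2 (t + 1) := h2 t
      have e2 := hx.per (t + 1)
      have e3 := hx.mono (show (t : ℤ) + 1 + M ≤ t + (((2 * M + 3 : ℕ) : ℤ) - (M + 1)) by omega)
      omega
    have c2 : sn (x.2 (t + ((0 : ℕ) - (M + 1))) - y.2 t) = -1 := by
      refine sn_lt ?_
      have e1 : x.2 t ≤ y.2 t := h1 t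
      have e2 := hx.per (t - M)
      have e3 := hx.mono (show (t : ℤ) + (((0 : ℕ) : ℤ) - (M + 1)) ≤ t - M by omega)
      rw [sub_add_cancel] at e2
      omega
    have c3 : ∑ h ∈ range (2 * M + 3), sn ((SP x).2 (t + (h - (M + 1))) - y.2 t)
        = ∑ h ∈ range (2 * M + 3), sn (x.2 (t + ((h + 1 : ℕ) - (M + 1))) - y.2 t) :=
      sum_congr rfl fun h _ => by simp only [SP]; congr 3; push_cast; ring_nf
    rw [c1] at a; rw [c2] at b
    linarith
  rw [this]; field_simp

lemma abs_U0 (x y : Pt G) : |U0 M x y| ≤ M * (2 * M + 3) := by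
  refine (abs_sum_le_sum_abs _ _).trans ((sum_le_sum (g := fun _ => (2 * M + 3 : ℝ))
    fun t _ => ?_).trans (by rw [sum_const, card_range, nsmul_eq_mul]))
  exact (abs_sum_le_sum_abs _ _).trans ((sum_le_sum fun h _ => abs_sn _).trans (by simp))

lemma natK_Uk (hM : 0 < M) : NatK g M (Uk M) (1 / M) where
  anti := Uk_anti
  bdd := ⟨(M * (2 * M + 3) + M * (2 * M + 3)) / (4 * M ^ 2), fun x y => by
    rw [Uk, abs_div, abs_of_pos (by positivity : (0 : ℝ) < 4 * M ^ 2)]
    gcongr
    exact (abs_sub _ _).trans (add_le_add (abs_U0 _ _) (abs_U0 _ _))⟩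
  zinv c _ x y := rfl
  relab φ hφ x y := by simp only [Uk, U0, rel, sn_rel hφ]
  shift m hm x y hx hy hb := by
    rw [Uk_anti, Uk_shift hM hm hx hy hb.1 hb.2.2.1, Uk_anti x]; ring

lemma not_dvd_small {t : ℕ} (h0 : t ≠ 0) (h1 : t < M) : ¬ (M : ℤ) ∣ t := fun h => by
  have := Int.le_of_dvd (by omega) h; omega

lemma sum_dvd_le (hM : 0 < M) (c : ℤ) {N j : ℕ} (h : N ≤ j * M) :
    ∑ h ∈ range N, (if (M : ℤ) ∣ h + c then (1 : ℝ) else 0) ≤ j := by
  refine (sum_le_sum_of_subset_of_nonneg (range_subset_range.2 h)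
    fun _ _ _ => by split_ifs <;> norm_num).trans ?_
  clear h
  induction j with
  | zero => simp
  | succ j ih =>
    rw [Nat.succ_mul, sum_range_add]
    have h1 := sum_per (M := M) (f := fun t => if (M : ℤ) ∣ t then (1 : ℝ) else 0)
      (fun c => by simp) (j * M + c)
    have h2 : ∑ t ∈ range M, (if (M : ℤ) ∣ (t : ℤ) then (1 : ℝ) else 0) = 1 := by
      rw [sum_eq_single 0]
      · simp
      · intro t ht h0; exact if_neg (not_dvd_small h0 (mem_range.1 ht))
      · intro h; exact absurd (mem_range.2 hM) h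
    have h3 : ∑ t ∈ range M, (if (M : ℤ) ∣ ((j * M + t : ℕ) : ℤ) + c then (1 : ℝ) else 0) = 1 := by
      refine Eq.trans ?_ (h1.trans h2)
      exact sum_congr rfl fun t _ => by
        rw [show ((j * M + t : ℕ) : ℤ) + c = t + (j * M + c) by push_cast; ring]
    rw [h3]; push_cast; linarith

lemma Uk_step (hM : 0 < M) {X : ℤ → G} {q : List ℤ} (hX : Tw g q.length X) {j : ℕ}
    (hj : j < q.length) : |Uk M (pt M X (vtx j q)) (pt M X (vtx (j + 1) q))| ≤ 5 / M := by
  have g1 := good_vtx hM hX j
  have g2 := good_vtx hM hX (j + 1)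
  have h0 : U0 M (pt M X (vtx j q)) (pt M X (vtx j q)) = 0 := by
    have := U0_anti g1 g1; linarith
  rw [Uk_eq g1 g2, ← sub_zero (U0 M _ _), abs_div, abs_of_pos (by positivity : (0 : ℝ) < 2 * M ^ 2),
    div_le_div_iff₀ (by positivity) (by positivity)]
  have : |U0 M (pt M X (vtx j q)) (pt M X (vtx (j + 1) q)) - 0| ≤ M * 10 := by
    rw [← h0, U0, U0, ← sum_sub_distrib]
    refine (abs_sum_le_sum_abs _ _).trans ((sum_le_sum (g := fun _ => (10 : ℝ))
      fun t _ => ?_).trans (by simp))
    rw [← sum_sub_distrib]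
    have b := sum_dvd_le hM (t - (M + 1) - (q.getD j 0 - 1)) (N := 2 * M + 3) (j := 5) (by omega)
    refine (abs_sum_le_sum_abs _ _).trans ((sum_le_sum (g := fun h : ℕ =>
      2 * if (M : ℤ) ∣ h + (t - (M + 1) - (q.getD j 0 - 1)) then (1 : ℝ) else 0)
      fun h _ => ?_).trans (by rw [← mul_sum]; push_cast at b; linarith))
    simp only [pt]
    rw [Nc_vtx_succ' hM hj, show (t : ℤ) + (h - (M + 1)) - (q.getD j 0 - 1)
      = h + (t - (M + 1) - (q.getD j 0 - 1)) by ring]
    split_ifs
    · exact (abs_sub _ _).trans ((add_le_add (abs_sn _) (abs_sn _)).trans (by norm_num))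
    · simp
  have hM' : (0 : ℝ) < M := by positivity
  nlinarith

/-- The path kernel. -/
def pk (a b : ℤ) : ℝ := (if b = a + 1 then 1 else 0) - if a = b + 1 then 1 else 0

lemma pk_anti (a b : ℤ) : pk a b = - pk b a := by unfold pk; ring

lemma sn_second (d : ℤ) : sn d - sn (d + 1) - sn (d - 1) + sn d = pk 0 d := by
  unfold pk
  rcases lt_trichotomy d (-1) with h | rfl | h
  · rw [sn_lt (by omega), sn_lt (by omega), sn_lt (by omega), if_neg (by omega), if_neg (by omega)]
    norm_num
  · rw [sn_lt (a := -1 - 1) (by omega), sn_lt (by omega)]; norm_num [sn]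
  rcases lt_trichotomy d 1 with h' | rfl | h'
  · obtain rfl : d = 0 := by omega
    norm_num [sn]
  · rw [sn_pos (a := 1 + 1) (by omega), sn_pos (by omega)]; norm_num [sn]
  · rw [sn_pos (by omega), sn_pos (by omega), sn_pos (by omega), if_neg (by omega),
      if_neg (by omega)]
    norm_num

lemma Nrm.win {l : List ℤ} {d : ℤ} (h : Nrm M l d) (hM : 0 < M) :
    ∀ y ∈ l ++ [d], d - M + 1 ≤ y ∧ y < d - M + 1 + M := by
  intro y hy
  rcases List.mem_append.1 hy with h1 | h1
  · have := h y h1; omega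
  · rw [List.mem_singleton] at h1; omega

lemma Nrm.nu_lt {l : List ℤ} {d : ℤ} (h : Nrm M l d) (hM : 0 < M) {i : ℕ} (hi : i < l.length) :
    nu M i (l ++ [d]) < nu M l.length (l ++ [d]) := by
  refine P184.nu_lt (h.win hM) (by simp; omega) (by simp) ?_
  rw [List.getD_append _ _ _ _ hi, List.getD_append_right _ _ _ _ le_rfl, List.getD_eq_getElem _ _ hi]
  have := h _ (List.getElem_mem hi)
  simp; omega

lemma Nrm.nu_mem {l : List ℤ} {d : ℤ} (h : Nrm M l d) (hM : 0 < M) {i : ℕ} (hi : i < l.length) :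
    -(l.length : ℤ) ≤ nu M i (l ++ [d]) ∧ nu M i (l ++ [d]) ≤ -1 := by
  have a := nu_bounds (h.win hM) (r := i) (by simp; omega)
  have b := nu_bounds (h.win hM) (r := l.length) (by simp)
  have c := h.nu_lt hM hi
  simp only [List.length_append, List.length_singleton] at a b
  omega

lemma d2_Uk (hM : 0 < M) {X : ℤ → G} {l : List ℤ} {d : ℤ} (hn : Nrm M l d)
    (hX : Tw g (l ++ [d]).length X) {i j : ℕ} (hi : i < l.length) (hj : j < l.length) :
    d2 (fun i j => Uk M (pt M X (vtx i (l ++ [d]))) (pt M X (vtx j (l ++ [d])))) i j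
      = pk (nu M i (l ++ [d])) (nu M j (l ++ [d])) / (2 * M ^ 2) := by
  set q := l ++ [d] with hq
  have hi' : i < q.length := by simp [hq]; omega
  have hj' : j < q.length := by simp [hq]; omega
  have gd := good_vtx hM hX
  unfold d2
  simp only [Uk_eq (gd _) (gd _)]
  rw [← sub_div, ← sub_div, ← add_div]
  congr 1
  set Δ : ℤ → ℤ → ℝ := fun t u => sn (Nc M (vtx (j + 1) q) u - Nc M (vtx (i + 1) q) t)
    - sn (Nc M (vtx (j + 1) q) u - Nc M (vtx i q) t) - sn (Nc M (vtx j q) u - Nc M (vtx (i + 1) q) t)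
    + sn (Nc M (vtx j q) u - Nc M (vtx i q) t) with hΔ
  have hΔ' : ∀ t u, Δ t u = if (M : ℤ) ∣ t - (q.getD i 0 - 1) ∧ (M : ℤ) ∣ u - (q.getD j 0 - 1)
      then pk 0 (Nc M (vtx (j + 1) q) u - Nc M (vtx (i + 1) q) t) else 0 := by
    intro t u
    simp only [hΔ]
    rw [← sn_second, Nc_vtx_succ' hM hi', Nc_vtx_succ' hM hj']
    by_cases a : (M : ℤ) ∣ t - (q.getD i 0 - 1) <;> by_cases b : (M : ℤ) ∣ u - (q.getD j 0 - 1) <;>
      simp only [a, b, if_true, if_false, and_self, and_false, false_and, add_zero]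
    · congr 1
      · congr 1
        · congr 2; ring
        · congr 1; ring
      · congr 1; ring
    all_goals ring
  have e1 : U0 M (pt M X (vtx (i + 1) q)) (pt M X (vtx (j + 1) q))
      - U0 M (pt M X (vtx i q)) (pt M X (vtx (j + 1) q))
      - U0 M (pt M X (vtx (i + 1) q)) (pt M X (vtx j q))
      + U0 M (pt M X (vtx i q)) (pt M X (vtx j q))
      = ∑ t ∈ range M, ∑ h ∈ range (2 * M + 3), Δ t (t + (h - (M + 1))) := by
    simp only [U0, pt, hΔ, sum_add_distrib, sum_sub_distrib]
  have w1 := hn.win hM (q.getD i 0) (by rw [List.getD_eq_getElem _ _ hi']; exact List.getElem_mem _)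
  have w2 := hn.win hM (q.getD j 0) (by rw [List.getD_eq_getElem _ _ hj']; exact List.getElem_mem _)
  have n1 := hn.nu_mem hM hi
  have n2 := hn.nu_mem hM hj
  rw [← hq] at n1 n2
  rw [e1, ← sum_per (f := fun t => ∑ h ∈ range (2 * M + 3), Δ t (t + (h - (M + 1))))
    (fun c => sum_congr rfl fun h _ => by
      simp only [hΔ]; rw [add_right_comm c]; simp only [Nc_add hM, vtx_length, add_sub_add_right_eq_sub])
    (q.getD i 0 - 1), sum_eq_single 0, sum_eq_single (q.getD j 0 - q.getD i 0 + (M + 1)).toNat]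
  · rw [hΔ', Int.toNat_of_nonneg (by omega), if_pos ⟨by simp, ⟨0, by push_cast; ring⟩⟩]
    have : ((0 : ℕ) : ℤ) + (q.getD i 0 - 1) + (q.getD j 0 - q.getD i 0 + (M + 1) - (M + 1))
      = q.getD j 0 - 1 := by push_cast; ring
    rw [this, Nat.cast_zero, zero_add]
    change pk 0 (nu M j q - nu M i q) = _
    unfold pk
    congr 2 <;> simp only [eq_iff_iff] <;> omega
  · intro h _ hne
    rw [hΔ']
    split_ifs with hd
    · obtain ⟨c, hc⟩ := hd.2
      have e : ((0 : ℕ) : ℤ) + (q.getD i 0 - 1) + (h - (M + 1)) = q.getD j 0 - 1 + c * M := by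
        linarith
      have hc0 : c ≠ 0 := by rintro rfl; apply hne; omega
      rw [e, Nc_add_mul hM, Nat.cast_zero, zero_add]
      change pk 0 (nu M j q + _ - nu M i q) = _
      have hl : ((vtx (j + 1) q).length : ℤ) = l.length + 1 := by simp [hq]
      rw [hl, pk]
      rcases lt_or_gt_of_ne hc0 with h1 | h1
      · have : c * (l.length + 1) ≤ -1 * (l.length + 1) := by gcongr; omega
        rw [if_neg (by omega), if_neg (by omega), sub_zero]
      · have : 1 * (l.length + 1) ≤ c * (l.length + 1 : ℤ) := by gcongr; omega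
        rw [if_neg (by omega), if_neg (by omega), sub_zero]
    · rfl
  · intro h; exact absurd (mem_range.2 (by omega)) h
  · intro t ht h0
    refine sum_eq_zero fun h _ => ?_
    rw [hΔ', if_neg]
    rintro ⟨a, _⟩
    exact not_dvd_small h0 (mem_range.1 ht) (by simpa using a)
  · intro h; exact absurd (mem_range.2 hM) h

lemma Mon_rep_mul {X : Type*} (c : ℝ) (K : X → X → ℝ) (k : ℕ) :
    Mon (List.replicate k fun x y => c * K x y) = fun l => c ^ k * Mon (List.replicate k K) l := by
  induction k with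
  | zero => simp
  | succ k ih =>
    simp only [List.replicate_succ, Mon]
    rw [ih, W_mul]
    funext l
    have : W (fun x y => c * K x y) (Mon (List.replicate k K)) l
        = c * W K (Mon (List.replicate k K)) l := by
      unfold W D; rw [← E_mul]
      refine E_congr fun _ _ _ => ?_
      rw [← E_mul]; exact E_congr fun _ _ _ => by ring
    rw [this]; ring

lemma Mon_path (k : ℕ) (c : ℤ) :
    Mon (List.replicate k pk) ((List.range (2 * k)).map fun i : ℕ => c + i)
      = 2 ^ k * k.factorial := by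
  induction k generalizing c with
  | zero => simp [Mon, one]
  | succ k ih =>
    have : (List.range (2 * (k + 1))).map (fun i : ℕ => c + i)
        = c :: (c + 1) :: (List.range (2 * k)).map fun i : ℕ => c + 2 + i := by
      rw [Nat.mul_succ, List.range_succ_eq_map, List.range_succ_eq_map]
      simp only [List.map_cons, List.map_map, Nat.cast_zero, add_zero, Nat.succ_eq_add_one,
        zero_add, Nat.cast_one, List.cons.injEq, true_and]
      exact List.map_congr_left fun i _ => by simp only [Function.comp]; push_cast; ring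
    rw [this, Mon_rep_cons pk_anti, D, E_cons, ih, E_congr (H' := fun _ _ => 0), E_zero,
      Nat.factorial_succ]
    · simp only [pk, if_true]; rw [if_neg (by omega)]; push_cast; ring
    · intro y l' hp
      obtain ⟨i, _, rfl⟩ := List.mem_map.1 (hp.subset List.mem_cons_self)
      rw [pk, if_neg (by omega), if_neg (by omega)]; ring

def iv (a b : ℤ) : ℤ := if a ≤ b then 0 else -1

lemma alt_perm {F : List ℤ → ℝ} (hF : Alt F) {l l' : List ℤ} (h : l.Perm l') (hn : l.Nodup) :
    (-1) ^ ps iv l * F l = (-1) ^ ps iv l' * F l' := by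
  induction h generalizing F with
  | nil => rfl
  | cons x h ih =>
    simp only [ps]
    rw [zpow_add₀ (by norm_num), zpow_add₀ (by norm_num), (h.map _).sum_eq, mul_assoc, mul_assoc,
      ih (hF.cons x) (List.nodup_cons.1 hn).2]
  | swap x y l =>
    have h1 := hF [] y x l
    simp only [List.nil_append] at h1
    have hxy : y ≠ x := by simp at hn; exact hn.1.1
    rw [h1, neg_one_zpow_odd (a := ps iv (y :: x :: l)) (b := ps iv (x :: y :: l))]
    · ring
    · simp only [ps, List.map_cons, List.sum_cons, iv]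
      split_ifs <;> omega
  | trans h1 _ ih1 ih2 => rw [ih1 hF hn, ih2 hF (h1.nodup_iff.1 hn)]

lemma sel_eq (K : Pt G → Pt G → ℝ) (hK : ∀ x y, K x y = - K y x) (k n : ℕ) (X : ℤ → G)
    (q : List ℤ) : del (Mon (List.replicate (k + 1) K)) (sel M X q (List.range (n + 1)))
      = Mon (List.replicate (k + 1) fun i j : Fin n =>
        d2 (fun i j => K (pt M X (vtx i q)) (pt M X (vtx j q))) i j) (List.finRange n) := by
  rw [sel, del_map, Mon_map, List.map_replicate, del_Mon_range fun _ _ => hK _ _]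

lemma univ_value (hM : 0 < M) (k : ℕ) (l : List ℤ) (d : ℤ) (X : ℤ → G)
    (hl : l.length = 2 * k + 2) (hn : Nrm M l d) (hX : Tw g (2 * k + 3) X) :
    sgn M (l ++ [d]) *
      del (Mon (List.replicate (k + 1) (Uk M))) (sel M X (l ++ [d]) (List.range (2 * k + 3)))
      = (k + 1).factorial / M ^ (2 * k + 2) := by
  set q := l ++ [d] with hq
  have hql : q.length = 2 * k + 3 := by simp [hq, hl]
  rw [sel_eq _ Uk_anti]
  have e1 : (fun i j : Fin (2 * k + 2) =>
      d2 (fun i j => Uk M (pt M X (vtx i q)) (pt M X (vtx j q))) i j)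
      = fun i j : Fin (2 * k + 2) => 1 / (2 * M ^ 2) * pk (nu M i q) (nu M j q) := by
    funext i j
    rw [hq, d2_Uk hM hn (by rw [← hq, hql]; exact hX) (by omega) (by omega)]; ring
  have e2 := congrFun (Mon_map (fun i : Fin (2 * k + 2) => nu M i q) (List.replicate (k + 1) pk))
    (List.finRange (2 * k + 2))
  rw [List.map_replicate] at e2
  have e3 : (List.finRange (2 * k + 2)).map (fun i : Fin (2 * k + 2) => nu M i q)
      = (List.range (2 * k + 2)).map fun i => nu M i q := by
    rw [← List.map_coe_finRange_eq_range, List.map_map]; rfl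
  have hnd : ((List.range (2 * k + 2)).map fun i => nu M i q).Nodup := by
    refine List.Nodup.map_on (fun i hi j hj h => ?_) List.nodup_range
    have := List.mem_range.1 hi; have := List.mem_range.1 hj
    exact nu_inj (hn.win hM) (by rw [← hq]; omega) (by rw [← hq]; omega) h
  have hp : ((List.range (2 * k + 2)).map fun i => nu M i q).Perm
      ((List.range (2 * (k + 1))).map fun i : ℕ => -(2 * k + 2 : ℤ) + i) := by
    refine (List.subperm_of_subset hnd fun y hy => ?_).perm_of_length_le (by simp; omega)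
    obtain ⟨i, hi, rfl⟩ := List.mem_map.1 hy
    have := hn.nu_mem hM (i := i) (by have := List.mem_range.1 hi; omega)
    rw [← hq] at this
    exact List.mem_map.2 ⟨(nu M i q + (2 * k + 2)).toNat, List.mem_range.2 (by omega), by omega⟩
  have e4 := alt_perm (alt_Mon (List.replicate (k + 1) pk)) hp hnd
  have e5 : ps iv ((List.range (2 * (k + 1))).map fun i : ℕ => -(2 * k + 2 : ℤ) + i) = 0 := by
    rw [ps_congr (f := iv) (a := fun i : ℕ => -(2 * k + 2 : ℤ) + i) (f' := fun _ _ => 0)
      (b := fun _ => 0) List.pairwise_lt_range fun i _ j _ h => if_pos (by omega)]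
    generalize List.map _ _ = l0
    induction l0 with
    | nil => rfl
    | cons x l0 ih => simp [ps, ih]
  have e6 : sg M q = ps iv ((List.range (2 * k + 2)).map fun i => nu M i q) := by
    have a1 : q = (List.range (2 * k + 3)).map fun i => q.getD i 0 := by
      apply List.ext_getElem
      · simp [hql]
      · intro i h1 h2; simp [h1]
    have a2 : sg M q = ps iv ((List.range (2 * k + 3)).map fun i => nu M i q) := by
      conv_lhs => rw [a1]
      refine ps_congr List.pairwise_lt_range fun i hi j hj h => ?_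
      have hi' : i < q.length := by have := List.mem_range.1 hi; omega
      have hj' : j < q.length := by have := List.mem_range.1 hj; omega
      have w1 := hn.win hM (q.getD i 0)
        (by rw [List.getD_eq_getElem _ _ hi']; exact List.getElem_mem _)
      have w2 := hn.win hM (q.getD j 0)
        (by rw [List.getD_eq_getElem _ _ hj']; exact List.getElem_mem _)
      by_cases h1 : q.getD i 0 ≤ q.getD j 0
      · have := nu_lt (hn.win hM) hi' hj' (by rw [← hq]; omega)
        rw [iv, if_pos this.le, Int.ediv_eq_zero_of_lt (by omega) (by omega)]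
      · have := nu_lt (hn.win hM) hj' hi' (by rw [← hq]; omega)
        rw [iv, if_neg (not_le.2 this), show q.getD j 0 - q.getD i 0
          = -(q.getD i 0 - q.getD j 0 - 1) - 1 by ring, ediv_neg hM,
          Int.ediv_eq_zero_of_lt (by omega) (by omega)]; rfl
    rw [a2, List.range_succ, List.map_append, List.map_singleton, ps_snoc, List.map_map,
      List.sum_eq_zero, add_zero]
    intro y hy
    obtain ⟨i, hi, rfl⟩ := List.mem_map.1 hy
    have := hn.nu_lt hM (i := i) (by have := List.mem_range.1 hi; omega)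
    rw [hl] at this
    exact if_pos this.le
  rw [e1, Mon_rep_mul]
  beta_reduce
  rw [← e2, e3, mul_left_comm, sgn, e6, e4, e5, Mon_path, div_pow, one_pow, mul_pow, ← pow_mul]
  field_simp
  ring

end Vale.Agent.P184
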